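import Crest.Agent.Lib.CStarPure.Trace

/-! Dyadic projections in the base algebra (written by helper10). -/

set_option autoImplicit false
open scoped ComplexOrder InnerProductSpace Topology
open Filter

namespace Crest.Agent.R120

open Crest.Agent.Lib.CStarPure

variable {A : Type*} [CStarAlgebra A]

/-- A dyadic tree of projections in `B`. -/
structure Dyadic (τ : A →L[ℂ] ℂ) (B : StarSubalgebra ℂ A) (E : ℕ → Set A) : Prop where
  one : (1 : A) ∈ E 0
  mem : ∀ m, ∀ e ∈ E m, e ∈ B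
  proj : ∀ m, ∀ e ∈ E m, IsStarProjection e
  tr : ∀ m, ∀ e ∈ E m, τ e = (((1 / 2 : ℝ) ^ m : ℝ) : ℂ)
  split : ∀ m, ∀ e ∈ E m, ∃ e₁ ∈ E (m + 1), ∃ e₂ ∈ E (m + 1), e = e₁ + e₂

theorem exists_dyadic {τ : A →L[ℂ] ℂ} (hτ : Lib.CStarPure.IsState τ) (B : StarSubalgebra ℂ A)
    (g : Multiplicative (ℕ →₀ ZMod 2) →* A) (hsa : ∀ x, star (g x) = g x)
    (h0 : ∀ x, x ≠ 1 → τ (g x) = 0) (hB : ∀ x, g x ∈ B) : ∃ E, Dyadic τ B E := by
  let S : ℕ → Submodule ℂ A := fun m =>
    Submodule.span ℂ (g '' {x | ∀ n, m ≤ n → x.toAdd n = 0})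
  have hSB : ∀ m, ∀ e ∈ S m, e ∈ B := fun m e he =>
    (Submodule.span_le.mpr (by rintro _ ⟨x, -, rfl⟩; exact hB x) :
      _ ≤ B.toSubalgebra.toSubmodule) he
  refine ⟨fun m => {e | e ∈ S m ∧ IsStarProjection e ∧ τ e = (((1 / 2 : ℝ) ^ m : ℝ) : ℂ)},
    ⟨Submodule.subset_span ⟨1, fun _ _ => rfl, map_one g⟩, IsStarProjection.one A, by
      simp [hτ.map_one]⟩, fun m e he => hSB m e he.1, fun m e he => he.2.1, fun m e he => he.2.2,
    fun m e he => ?_⟩
  obtain ⟨h1, h2, h3⟩ := he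
  let s : Multiplicative (ℕ →₀ ZMod 2) := Multiplicative.ofAdd (Finsupp.single m 1)
  have hs : s * s = 1 := by
    change Multiplicative.ofAdd (Finsupp.single m (1 : ZMod 2) + Finsupp.single m 1) = 1
    rw [← Finsupp.single_add]
    have : (1 : ZMod 2) + 1 = 0 := rfl
    simp [this]
  have hww : g s * g s = 1 := by rw [← map_mul, hs, map_one]
  have key : ∀ e ∈ S m, e * g s = g s * e ∧ τ (e * g s) = 0 ∧ e ∈ S (m + 1) ∧
      e * g s ∈ S (m + 1) := by
    intro e he
    induction he using Submodule.span_induction with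
    | mem _ hx =>
      obtain ⟨x, hx, rfl⟩ := hx
      refine ⟨by rw [← map_mul, ← map_mul, mul_comm], ?_,
        Submodule.subset_span ⟨x, fun n hn => hx n (by omega), rfl⟩,
        Submodule.subset_span ⟨x * s, fun n hn => ?_, map_mul _ _ _⟩⟩
      · rw [← map_mul]
        refine h0 _ fun h => ?_
        have := congrArg (fun y : Multiplicative (ℕ →₀ ZMod 2) => y.toAdd m) h
        simp [s, hx m le_rfl] at this
      · have : m ≠ n := by omega
        simp [s, hx n (by omega), this]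
    | zero => simp
    | add a b _ _ ha hb =>
      exact ⟨by rw [add_mul, mul_add, ha.1, hb.1], by rw [add_mul, map_add, ha.2.1, hb.2.1, add_zero],
        add_mem ha.2.2.1 hb.2.2.1, by rw [add_mul]; exact add_mem ha.2.2.2 hb.2.2.2⟩
    | smul c a _ ha =>
      exact ⟨by rw [smul_mul_assoc, mul_smul_comm, ha.1],
        by rw [smul_mul_assoc, map_smul, ha.2.1, smul_zero], Submodule.smul_mem _ _ ha.2.2.1,
        by rw [smul_mul_assoc]; exact Submodule.smul_mem _ _ ha.2.2.2⟩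
  obtain ⟨k1, k2, k3, k4⟩ := key e h1
  have hee := h2.isIdempotentElem.eq
  have proj : ∀ w : A, star w = w → w * w = 1 → e * w = w * e →
      IsStarProjection ((1 / 2 : ℂ) • (e + e * w)) := by
    intro w w1 w2 w3
    constructor
    · change _ * _ = _
      have : (e + e * w) * (e + e * w) = (2 : ℂ) • (e + e * w) := by
        have a1 : e * (e * w) = e * w := by rw [← mul_assoc, hee]
        have a2 : e * w * e = e * w := by rw [mul_assoc, ← w3, a1]
        have a3 : e * w * (e * w) = e := by rw [← mul_assoc, a2, mul_assoc, w2, mul_one]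
        rw [add_mul, mul_add, mul_add, hee, a1, a2, a3]
        module
      rw [smul_mul_assoc, mul_smul_comm, this, smul_smul, smul_smul]
      norm_num
    · change star _ = _
      rw [star_smul, star_add, star_mul, w1, h2.isSelfAdjoint.star_eq, ← w3]
      simp
  refine ⟨(1 / 2 : ℂ) • (e + e * g s), ⟨Submodule.smul_mem _ _ (add_mem k3 k4),
    proj _ (hsa s) hww k1, ?_⟩, (1 / 2 : ℂ) • (e + e * (-g s)), ⟨Submodule.smul_mem _ _
      (add_mem k3 (by rw [mul_neg]; exact neg_mem k4)),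
      proj _ (by rw [star_neg, hsa]) (by rw [neg_mul_neg, hww]) (by rw [mul_neg, neg_mul, k1]), ?_⟩,
    ?_⟩
  · rw [map_smul, map_add, k2, h3]; push_cast; rw [smul_eq_mul]; ring
  · rw [mul_neg, map_smul, map_add, map_neg, k2, h3]; push_cast; rw [smul_eq_mul]; ring
  · rw [mul_neg]; module

variable {τ : A →L[ℂ] ℂ} {B : StarSubalgebra ℂ A} {E : ℕ → Set A}

lemma Dyadic.nonempty (h : Dyadic τ B E) (m : ℕ) : (E m).Nonempty := by
  induction m with
  | zero => exact ⟨1, h.one⟩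
  | succ m ih =>
    obtain ⟨e, he⟩ := ih
    obtain ⟨e₁, h₁, -⟩ := h.split m e he
    exact ⟨e₁, h₁⟩

lemma Dyadic.nrm_eq (h : Dyadic τ B E) {m : ℕ} {e : A} (he : e ∈ E m) :
    nrm τ e = √((1 / 2) ^ m) := by
  rw [nrm, (h.proj m e he).isSelfAdjoint.star_eq, (h.proj m e he).isIdempotentElem.eq,
    h.tr m e he, Complex.ofReal_re]

lemma tendsto_sqrt_half_pow : Tendsto (fun m : ℕ => √((1 / 2 : ℝ) ^ m)) atTop (𝓝 0) := by
  simpa using (tendsto_pow_atTop_nhds_zero_of_lt_one (r := (1 / 2 : ℝ)) (by norm_num)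
    (by norm_num)).sqrt

lemma Dyadic.small (h : Dyadic τ B E) : Small τ B := by
  intro ε hε ω hω
  obtain ⟨m, hm⟩ := (tendsto_sqrt_half_pow.eventually (gt_mem_nhds hε)).exists
  have : ∀ m, ∃ e ∈ E m, nrm ω e ≠ 0 := by
    intro m
    induction m with
    | zero => exact ⟨1, h.one, by simp [hω.nrm_one]⟩
    | succ m ih =>
      obtain ⟨e, he, h0⟩ := ih
      obtain ⟨e₁, h₁, e₂, h₂, rfl⟩ := h.split m e he
      by_contra! hn
      have := hω.nrm_add_le e₁ e₂
      rw [hn _ h₁, hn _ h₂, add_zero] at this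
      exact h0 (le_antisymm this (nrm_nonneg _ _))
  obtain ⟨e, he, h0⟩ := this m
  exact ⟨e, h.mem m e he, (h.proj m e he).isIdempotentElem.eq, h0, by rwa [h.nrm_eq he]⟩

theorem small_of_base {τ : A →L[ℂ] ℂ} (hτ : Lib.CStarPure.IsState τ) (B : StarSubalgebra ℂ A)
    (g : Multiplicative (ℕ →₀ ZMod 2) →* A) (hsa : ∀ x, star (g x) = g x)
    (h0 : ∀ x, x ≠ 1 → τ (g x) = 0) (hB : ∀ x, g x ∈ B) : Small τ B := by
  obtain ⟨E, hE⟩ := exists_dyadic hτ B g hsa h0 hB
  exact hE.small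

end Crest.Agent.R120
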