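import Crest.Agent.R120.CharDefs
import Crest.Agent.Lib.CStarPure.Trace

/-! The tracial C⋆-algebra of a character, and transfer homomorphisms (written by helper10). -/

set_option autoImplicit false
open scoped ComplexOrder InnerProductSpace ComplexConjugate Topology
open Filter

namespace Crest.Agent.R120

open Crest.Agent.Lib

lemma IsState.toLib {A : Type*} [CStarAlgebra A] {ω : A →L[ℂ] ℂ} (h : IsState ω) :
    CStarPure.IsState ω := CStarPure.isState_of_pos h.pos h.one

lemma IsState.ofLib {A : Type*} [CStarAlgebra A] {ω : A →L[ℂ] ℂ} (h : CStarPure.IsState ω) :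
    IsState ω := ⟨h.map_one, h.star_mul_self_nonneg⟩

lemma IsTr.toLib {A : Type*} [CStarAlgebra A] {τ : A →L[ℂ] ℂ} (h : IsTr τ) :
    CStarPure.IsTrace τ :=
  ⟨h.toIsState.toLib, h.comm, fun x hx => h.faithful x (h.pos.nm_eq_zero_iff.mp hx)⟩

lemma IsTr.ofLib {A : Type*} [CStarAlgebra A] {τ : A →L[ℂ] ℂ} (h : CStarPure.IsTrace τ) :
    IsTr τ :=
  ⟨IsState.ofLib h.toIsState, h.comm, fun x hx => h.faithful x ((h.nrm_eq_zero_iff x).mpr hx)⟩

lemma exists_lift_star {G : Type*} [Group G] {A B : Type*} [CStarAlgebra A] [CStarAlgebra B]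
    (ρA : G →* A) (ρB : G →* B) (hA : ∀ g, star (ρA g) = ρA g⁻¹) (hB : ∀ g, star (ρB g) = ρB g⁻¹)
    (a : MonoidAlgebra ℂ G) : ∃ a' : MonoidAlgebra ℂ G,
      MonoidAlgebra.lift ℂ A G ρA a' = star (MonoidAlgebra.lift ℂ A G ρA a) ∧
      MonoidAlgebra.lift ℂ B G ρB a' = star (MonoidAlgebra.lift ℂ B G ρB a) := by
  induction a using MonoidAlgebra.induction_linear with
  | zero => exact ⟨0, by simp, by simp⟩
  | add a b ha hb =>
    obtain ⟨a', h1, h2⟩ := ha
    obtain ⟨b', h3, h4⟩ := hb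
    exact ⟨a' + b', by simp [h1, h3], by simp [h2, h4]⟩
  | single g c => exact ⟨MonoidAlgebra.single g⁻¹ (star c), by simp [hA], by simp [hB]⟩

theorem exists_realization {G : Type} [Group G] {χ : G → ℂ} (hχ : IsChar χ) :
    ∃ (M : Type) (_ : CStarAlgebra M) (τ : M →L[ℂ] ℂ) (ρ : G →* M), IsTr τ ∧
      (∀ g, star (ρ g) = ρ g⁻¹) ∧ (∀ g, τ (ρ g) = χ g) ∧
      DenseRange (MonoidAlgebra.lift ℂ M G ρ) := by
  obtain ⟨H, _, _, _, κ, hκ, hd⟩ := exists_kolmogorov _ hχ.psd
  simp only [Matrix.of_apply] at hκ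
  have hl : ∀ g, ∃ T : H →L[ℂ] H, ∀ h, T (κ h) = κ (g * h) := fun g => by
    obtain ⟨T, hT, -⟩ := exists_op_of_inner hd (fun h => κ (g * h)) 1 zero_le_one (fun x y => by
      simp [hκ, mul_assoc])
    exact ⟨T, hT⟩
  have hr : ∀ g, ∃ T : H →L[ℂ] H, ∀ h, T (κ h) = κ (h * g) := fun g => by
    obtain ⟨T, hT, -⟩ := exists_op_of_inner hd (fun h => κ (h * g)) 1 zero_le_one (fun x y => by
      rw [hκ, hκ, mul_inv_rev, mul_assoc, hχ.comm]
      simp [mul_assoc])
    exact ⟨T, hT⟩
  choose lam hlam using hl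
  choose r hr using hr
  let L : G →* (H →L[ℂ] H) :=
    { toFun := lam
      map_one' := op_ext hd fun h => by simp [hlam]
      map_mul' := fun g g' => op_ext hd fun h => by simp [hlam, mul_assoc] }
  have hL : ∀ g h, L g (κ h) = κ (g * h) := hlam
  have hLs : ∀ g, star (L g) = L g⁻¹ := fun g => op_ext hd fun h =>
    eq_of_inner_total hd fun h' => by
      rw [ContinuousLinearMap.star_eq_adjoint, ContinuousLinearMap.adjoint_inner_right, hL, hL,
        hκ, hκ, mul_inv_rev, mul_assoc]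
  let N : StarSubalgebra ℂ (H →L[ℂ] H) :=
    { (MonoidAlgebra.lift ℂ _ G L).range with
      star_mem' := by
        rintro _ ⟨a, rfl⟩
        obtain ⟨a', h1, -⟩ := exists_lift_star L L hLs hLs a
        exact ⟨a', h1⟩ }
  let M := N.topologicalClosure
  have hM : IsClosed (M : Set (H →L[ℂ] H)) := StarSubalgebra.isClosed_topologicalClosure _
  have hmem : ∀ g, L g ∈ M := fun g => N.le_topologicalClosure
    ⟨MonoidAlgebra.single g 1, by simp⟩
  let ρ : G →* M := L.codRestrict M hmem
  have hρ : ∀ a, ((MonoidAlgebra.lift ℂ M G ρ a : M) : H →L[ℂ] H) = MonoidAlgebra.lift ℂ _ G L a := by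
    intro a
    induction a using MonoidAlgebra.induction_linear with
    | zero => simp
    | add a b ha hb => simp [ha, hb]
    | single g c => simp [ρ]
  have hdense : DenseRange (MonoidAlgebra.lift ℂ M G ρ) := by
    intro x
    rw [Topology.IsInducing.subtypeVal.closure_eq_preimage_closure_image, ← Set.range_comp]
    refine closure_mono ?_ x.2
    rintro _ ⟨a, rfl⟩
    exact ⟨a, hρ a⟩
  have h1 : ‖κ 1‖ = 1 := CStarPure.norm_eq_one_of_inner (by rw [hκ]; simp [hχ.one])
  let τ : M →L[ℂ] ℂ := CStarPure.vecFun M.subtype (κ 1) (κ 1)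
  have hτ : CStarPure.IsState τ := CStarPure.isState_vecFun _ h1
  have hτρ : ∀ g, τ (ρ g) = χ g := fun g => by
    change ⟪κ 1, L g (κ 1)⟫_ℂ = _
    simp [hL, hκ]
  refine ⟨M, inferInstance, τ, ρ, IsTr.ofLib ⟨hτ, fun x y => ?_, fun x hx => ?_⟩,
    fun g => Subtype.ext (hLs g), hτρ, hdense⟩
  · refine hdense.induction_on₂ (p := fun x y => τ (x * y) = τ (y * x))
      (isClosed_eq (by fun_prop) (by fun_prop)) (fun a b => ?_) x y
    induction a using MonoidAlgebra.induction_linear with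
    | zero => simp
    | add a a' ha ha' => simp only [map_add, add_mul, mul_add, ha, ha']
    | single g c =>
      induction b using MonoidAlgebra.induction_linear with
      | zero => simp
      | add a a' ha ha' => simp only [map_add, add_mul, mul_add, ha, ha']
      | single h d =>
        simp only [MonoidAlgebra.lift_single, smul_mul_assoc, mul_smul_comm, map_smul, ← map_mul,
          hτρ, hχ.comm g h]
        rw [smul_comm]
  · rw [CStarPure.nrm_eq_of_gns (π := M.subtype) (fun _ => rfl), norm_eq_zero] at hx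
    have hx' : (x : H →L[ℂ] H) (κ 1) = 0 := hx
    have hc : ∀ g, ∀ x : M, (x : H →L[ℂ] H) * r g = r g * x := by
      intro g x
      refine hdense.induction_on (p := fun x : M => (x : H →L[ℂ] H) * r g = r g * x) x
        (isClosed_eq (by fun_prop) (by fun_prop)) (fun a => ?_)
      rw [hρ]
      induction a using MonoidAlgebra.induction_linear with
      | zero => simp
      | add a a' ha ha' => simp only [map_add, add_mul, mul_add, ha, ha']
      | single g' c =>
        simp only [MonoidAlgebra.lift_single, smul_mul_assoc, mul_smul_comm]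
        congr 1
        exact op_ext hd fun h => by simp [hL, hr, mul_assoc]
    refine Subtype.ext (op_ext hd fun g => ?_)
    have := congrArg (fun T : H →L[ℂ] H => T (κ 1)) (hc g x)
    simpa [hr, hx'] using this

theorem exists_transfer {G : Type*} [Group G] {A B : Type*} [CStarAlgebra A] [CStarAlgebra B]
    {τ : A →L[ℂ] ℂ} (hτ : IsTr τ) {σ : B →L[ℂ] ℂ} (hσ : IsState σ) (ρA : G →* A) (ρB : G →* B)
    (hA : ∀ g, star (ρA g) = ρA g⁻¹) (hB : ∀ g, star (ρB g) = ρB g⁻¹)
    (h : ∀ g, τ (ρA g) = σ (ρB g)) (hd : DenseRange (MonoidAlgebra.lift ℂ B G ρB)) :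
    ∃ Φ : B →⋆ₐ[ℂ] A, (∀ g, Φ (ρB g) = ρA g) ∧ ∀ x, τ (Φ x) = σ x := by
  set f := MonoidAlgebra.lift ℂ A G ρA with hf
  set e := MonoidAlgebra.lift ℂ B G ρB with he
  have h1 : ∀ a, τ (f a) = σ (e a) := fun a => by
    induction a using MonoidAlgebra.induction_linear with
    | zero => simp
    | add a b ha hb => simp [ha, hb]
    | single g c => simp [hf, he, h]
  have h2 : ∀ a, CStarPure.nrm τ (f a) = CStarPure.nrm σ (e a) := fun a => by
    obtain ⟨a', e1, e2⟩ := exists_lift_star ρA ρB hA hB a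
    rw [CStarPure.nrm, CStarPure.nrm, ← e1, ← e2, ← map_mul, ← map_mul, h1]
  let N : StarSubalgebra ℂ A :=
    { f.range with
      star_mem' := by
        rintro _ ⟨a, rfl⟩
        obtain ⟨a', h1, -⟩ := exists_lift_star ρA ρB hA hB a
        exact ⟨a', h1⟩ }
  have hM : IsClosed (N.topologicalClosure : Set A) := StarSubalgebra.isClosed_topologicalClosure _
  have hb : ∀ a, ‖f a‖ ≤ 1 * ‖e a‖ := fun a => by
    rw [one_mul]
    refine hτ.toLib.norm_le_of_nrm N.topologicalClosure (N.le_topologicalClosure ⟨a, rfl⟩)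
      (norm_nonneg _) (fun c hc => ?_)
    have : (N : Set A) ⊆ {c | CStarPure.nrm τ (f a * c) ≤ ‖e a‖ * CStarPure.nrm τ c} := by
      rintro _ ⟨b, rfl⟩
      change CStarPure.nrm τ (f a * f b) ≤ ‖e a‖ * CStarPure.nrm τ (f b)
      rw [← map_mul, h2, h2, map_mul]
      exact hσ.toLib.nrm_mul_le _ _
    have hcont := CStarPure.continuous_nrm τ
    exact closure_minimal this (isClosed_le (by fun_prop) (by fun_prop)) hc
  let Φ₀ : B →L[ℂ] A := f.toLinearMap.extendOfNorm e.toLinearMap
  have hΦ : ∀ a, Φ₀ (e a) = f a := fun a =>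
    LinearMap.extendOfNorm_eq (f := f.toLinearMap) (e := e.toLinearMap) hd ⟨1, hb⟩ a
  have hone : Φ₀ 1 = 1 := by simpa using hΦ 1
  let Φ : B →⋆ₐ[ℂ] A :=
    { toFun := Φ₀
      map_one' := hone
      map_mul' := fun x y => hd.induction_on₂ (p := fun x y => Φ₀ (x * y) = Φ₀ x * Φ₀ y)
        (isClosed_eq (by fun_prop) (by fun_prop)) (fun a b => by
          rw [← map_mul, hΦ, hΦ, hΦ, map_mul]) x y
      map_zero' := map_zero _
      map_add' := map_add _
      commutes' := fun c => by simp [Algebra.algebraMap_eq_smul_one, hone]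
      map_star' := fun x => hd.induction_on (p := fun x => Φ₀ (star x) = star (Φ₀ x)) x
        (isClosed_eq (by fun_prop) (by fun_prop)) (fun a => by
          obtain ⟨a', e1, e2⟩ := exists_lift_star ρA ρB hA hB a
          rw [← e2, hΦ, hΦ, e1]) }
  refine ⟨Φ, fun g => ?_, fun x => ?_⟩
  · change Φ₀ (ρB g) = ρA g
    simpa [hf, he] using hΦ (MonoidAlgebra.single g 1)
  · exact hd.induction_on (p := fun x => τ (Φ₀ x) = σ x) x
      (isClosed_eq (by fun_prop) (by fun_prop)) (fun a => by rw [hΦ, h1])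

end Crest.Agent.R120
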