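import Mathlib

/-! Kolmogorov decomposition of a positive semidefinite kernel and extension of operators. -/

set_option autoImplicit false
open scoped ComplexOrder InnerProductSpace ComplexConjugate Topology
open Filter

namespace Crest.Agent.R120

/-- auxiliary type -/
def KPre {X : Type} (_K : Matrix X X ℂ) : Type := X →₀ ℂ

noncomputable instance {X : Type} (K : Matrix X X ℂ) : AddCommGroup (KPre K) :=
  inferInstanceAs (AddCommGroup (X →₀ ℂ))
noncomputable instance {X : Type} (K : Matrix X X ℂ) : Module ℂ (KPre K) :=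
  inferInstanceAs (Module ℂ (X →₀ ℂ))

/-- pre-inner product -/
@[reducible] noncomputable def kCore {X : Type} (K : Matrix X X ℂ) (hK : K.PosSemidef) :
    PreInnerProductSpace.Core ℂ (KPre K) where
  inner f g := Finsupp.sum (show X →₀ ℂ from f) fun x z =>
    Finsupp.sum (show X →₀ ℂ from g) fun y w => star z * K x y * w
  conj_inner_symm f g := by
    rw [Finsupp.sum_comm]
    simp only [map_finsuppSum]
    congr! 5 with x z y w
    rw [← hK.isHermitian.apply x y]
    simp [mul_comm, mul_left_comm]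
  add_left f g h := by
    apply Finsupp.sum_add_index' <;> simp [← Finsupp.sum_add, add_mul]
  smul_left f g r := by
    refine (Finsupp.sum_smul_index (g := (show X →₀ ℂ from f)) ?_).trans ?_ <;>
      simp [Finsupp.mul_sum, ← mul_assoc]
  re_inner_nonneg f := (hK.2 f).1

theorem exists_kolmogorov {X : Type} (K : Matrix X X ℂ) (hK : K.PosSemidef) :
    ∃ (H : Type) (_ : NormedAddCommGroup H) (_ : InnerProductSpace ℂ H) (_ : CompleteSpace H)
      (κ : X → H), (∀ x y, ⟪κ x, κ y⟫_ℂ = K x y) ∧
        DenseRange (Finsupp.linearCombination ℂ κ) := by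
  let c := kCore K hK
  let _ : SeminormedAddCommGroup (KPre K) := InnerProductSpace.Core.toSeminormedAddCommGroup (c := c)
  let _ : InnerProductSpace ℂ (KPre K) := InnerProductSpace.ofCore c
  let e : (X →₀ ℂ) →ₗ[ℂ] KPre K := LinearMap.id
  refine ⟨UniformSpace.Completion (KPre K), inferInstance, inferInstance, inferInstance,
    fun x => (e (Finsupp.single x 1) : KPre K), fun x y => ?_, ?_⟩
  · rw [UniformSpace.Completion.inner_coe]
    change Finsupp.sum (Finsupp.single x (1:ℂ)) (fun x z =>
      Finsupp.sum (Finsupp.single y (1:ℂ)) fun y w => star z * K x y * w) = _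
    simp
  · have : ⇑(Finsupp.linearCombination ℂ
        (fun x => ((e (Finsupp.single x 1) : KPre K) : UniformSpace.Completion (KPre K)))) =
        (fun f => ((e f : KPre K) : UniformSpace.Completion (KPre K))) := by
      have h2 : Finsupp.linearCombination ℂ
        (fun x => ((e (Finsupp.single x 1) : KPre K) : UniformSpace.Completion (KPre K))) =
        (UniformSpace.Completion.toComplL (𝕜 := ℂ) (E := KPre K)).toLinearMap ∘ₗ e := by
        ext x
        simp
      rw [h2]; rfl
    rw [this]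
    exact UniformSpace.Completion.denseRange_coe (α := KPre K)

section ext
variable {X H H' : Type*} [NormedAddCommGroup H] [InnerProductSpace ℂ H]
  [NormedAddCommGroup H'] [InnerProductSpace ℂ H']

lemma inner_lc (κ κ' : X → H) (f g : X →₀ ℂ) :
    ⟪Finsupp.linearCombination ℂ κ f, Finsupp.linearCombination ℂ κ' g⟫_ℂ =
      f.sum fun x z => g.sum fun y w => conj z * w * ⟪κ x, κ' y⟫_ℂ := by
  simp only [Finsupp.linearCombination_apply, Finsupp.sum_inner, Finsupp.inner_sum,
    inner_smul_left, inner_smul_right, Finsupp.mul_sum]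
  rw [Finsupp.sum_comm]
  congr! 6
  ring

/-- an operator from its values on a total family -/
theorem exists_op [CompleteSpace H'] {κ : X → H} (hκ : DenseRange (Finsupp.linearCombination ℂ κ))
    (T₀ : X → H') (C : ℝ) (hC : 0 ≤ C)
    (h : ∀ f, ‖Finsupp.linearCombination ℂ T₀ f‖ ≤ C * ‖Finsupp.linearCombination ℂ κ f‖) :
    ∃ T : H →L[ℂ] H', (∀ x, T (κ x) = T₀ x) ∧ ‖T‖ ≤ C := by
  refine ⟨(Finsupp.linearCombination ℂ T₀).extendOfNorm (Finsupp.linearCombination ℂ κ),
    fun x => ?_, LinearMap.opNorm_extendOfNorm_le hκ hC h⟩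
  simpa using LinearMap.extendOfNorm_eq hκ ⟨C, h⟩ (Finsupp.single x 1)

/-- an operator from its values on a total family, scalar multiple of an isometry -/
theorem exists_op_of_inner [CompleteSpace H'] {κ : X → H}
    (hκ : DenseRange (Finsupp.linearCombination ℂ κ)) (T₀ : X → H') (C : ℝ) (hC : 0 ≤ C)
    (h : ∀ x y, ⟪T₀ x, T₀ y⟫_ℂ = ((C ^ 2 : ℝ) : ℂ) * ⟪κ x, κ y⟫_ℂ) :
    ∃ T : H →L[ℂ] H', (∀ x, T (κ x) = T₀ x) ∧ ‖T‖ ≤ C := by
  refine exists_op hκ T₀ C hC fun f => le_of_eq ?_
  have h1 : ⟪Finsupp.linearCombination ℂ T₀ f, Finsupp.linearCombination ℂ T₀ f⟫_ℂ =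
      ((C ^ 2 : ℝ) : ℂ) *
        ⟪Finsupp.linearCombination ℂ κ f, Finsupp.linearCombination ℂ κ f⟫_ℂ := by
    simp only [inner_lc, h, Finsupp.mul_sum]
    congr! 6
    ring
  rw [inner_self_eq_norm_sq_to_K, inner_self_eq_norm_sq_to_K] at h1
  have h2 : ‖Finsupp.linearCombination ℂ T₀ f‖ ^ 2 =
      (C * ‖Finsupp.linearCombination ℂ κ f‖) ^ 2 := by
    rw [mul_pow]
    apply Complex.ofReal_injective
    push_cast at h1 ⊢
    exact h1
  exact (sq_eq_sq₀ (norm_nonneg _) (mul_nonneg hC (norm_nonneg _))).1 h2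

/-- closed subspaces containing a total family -/
theorem total_induction {κ : X → H} (hκ : DenseRange (Finsupp.linearCombination ℂ κ))
    (V : Submodule ℂ H) (hV : IsClosed (V : Set H)) (h : ∀ x, κ x ∈ V) (v : H) : v ∈ V := by
  refine hκ.induction_on v hV fun f => ?_
  rw [Finsupp.linearCombination_apply]
  exact V.finsuppSum_mem _ _ _ fun x _ => V.smul_mem _ (h x)

theorem op_ext {E : Type*} [NormedAddCommGroup E] [NormedSpace ℂ E] {κ : X → H}
    (hκ : DenseRange (Finsupp.linearCombination ℂ κ)) {T T' : H →L[ℂ] E}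
    (h : ∀ x, T (κ x) = T' (κ x)) : T = T' := by
  ext v
  exact total_induction hκ (LinearMap.eqLocus T.toLinearMap T'.toLinearMap)
    (isClosed_eq T.continuous T'.continuous) h v

theorem eq_of_inner_total {κ : X → H} (hκ : DenseRange (Finsupp.linearCombination ℂ κ))
    {u v : H} (h : ∀ x, ⟪κ x, u⟫_ℂ = ⟪κ x, v⟫_ℂ) : u = v := by
  have := op_ext hκ (T := innerSL ℂ u) (T' := innerSL ℂ v) fun x => by
    simp only [innerSL_apply_apply]
    rw [← inner_conj_symm, h, inner_conj_symm]
  exact ext_inner_right ℂ fun w => by simpa using DFunLike.congr_fun this w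

end ext

end Crest.Agent.R120
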