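import Crest.Agent.R120.Defs
import Crest.Agent.R120.Kolm

/-! Characters of groups and retractions of the free group. -/

set_option autoImplicit false
open scoped ComplexOrder

namespace Crest.Agent.R120

/-- characters: normalised positive definite class functions -/
structure IsChar {G : Type} [Group G] (χ : G → ℂ) : Prop where
  one : χ 1 = 1
  comm : ∀ g h, χ (g * h) = χ (h * g)
  psd : (Matrix.of fun g h => χ (g⁻¹ * h)).PosSemidef

open Classical in
/-- retraction killing the generators outside `U` -/
noncomputable def retr {I : Type} (U : Set I) : FreeGroup (ℕ ⊕ I) →* FreeGroup (ℕ ⊕ I) :=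
  FreeGroup.lift fun x => match x with
    | .inl n => FreeGroup.of (.inl n)
    | .inr i => if i ∈ U then FreeGroup.of (.inr i) else 1

end Crest.Agent.R120
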