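import Mathlib

/-! Row 120 (Naimark's problem in ZFC): basic definitions and facts about states. -/

set_option autoImplicit false
open scoped ComplexOrder InnerProductSpace ComplexConjugate Topology
open Filter

namespace Crest.Agent.R120

variable {A : Type*} [CStarAlgebra A]

/-- positive functional -/
def IsPosF (ω : A →L[ℂ] ℂ) : Prop := ∀ x, 0 ≤ ω (star x * x)

/-- state -/
structure IsState (ω : A →L[ℂ] ℂ) : Prop where
  one : ω 1 = 1
  pos : IsPosF ω

/-- faithful tracial state -/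
structure IsTr (τ : A →L[ℂ] ℂ) : Prop extends IsState τ where
  comm : ∀ a b, τ (a * b) = τ (b * a)
  faithful : ∀ x, τ (star x * x) = 0 → x = 0

/-- the seminorm of a positive functional -/
noncomputable def nm (ω : A →L[ℂ] ℂ) (x : A) : ℝ := √(ω (star x * x)).re

/-- purity of the restriction to a subalgebra -/
def PureOn (S : StarSubalgebra ℂ A) (ω : A →L[ℂ] ℂ) : Prop :=
  IsState ω ∧ ∀ ω₁ ω₂ : A →L[ℂ] ℂ, IsState ω₁ → IsState ω₂ → ∀ t : ℝ, 0 < t → t < 1 →
    (∀ x ∈ S, ω x = t * ω₁ x + (1 - t) * ω₂ x) → ∀ x ∈ S, ω₁ x = ω x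

/-- consequences of Kadison transitivity -/
structure Kad (S : StarSubalgebra ℂ A) (ω : A →L[ℂ] ℂ) : Prop where
  compl : ∀ u : ℕ → A, (∀ n, u n ∈ S) →
    (∀ ε > 0, ∃ N, ∀ m ≥ N, ∀ n ≥ N, nm ω (u m - u n) ≤ ε) →
    ∃ y ∈ S, Tendsto (fun n => nm ω (u n - y)) atTop (𝓝 0)
  ker : ∀ z ∈ S, ω z = 0 → ∀ ε > 0, ∃ l₁ ∈ S, ∃ l₂ ∈ S, nm ω l₁ = 0 ∧ nm ω l₂ = 0 ∧
    ‖z - l₁ - star l₂‖ ≤ ε
  inv : ∀ y ∈ S, nm ω y ≠ 0 → ∃ y' ∈ S, nm ω (y' * y - 1) = 0

/-- `σ` is a vector state of `ω` on `S` -/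
def Eqv (S : StarSubalgebra ℂ A) (ω σ : A →L[ℂ] ℂ) : Prop :=
  ∃ y ∈ S, ∀ z ∈ S, σ z = ω (star y * z * y)

/-- orthogonal to `D` -/
def Perp (τ : A →L[ℂ] ℂ) (D : StarSubalgebra ℂ A) (x : A) : Prop := ∀ d ∈ D, τ (x * d) = 0

/-- existence of the trace preserving conditional expectation `B → D` -/
def Dec (τ : A →L[ℂ] ℂ) (B D : StarSubalgebra ℂ A) : Prop := ∀ x ∈ B, ∃ d ∈ D, Perp τ D (x - d)

/-- centred elements -/
def cen (τ : A →L[ℂ] ℂ) (B D : StarSubalgebra ℂ A) : Set A := {x | x ∈ B ∧ Perp τ D x}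

/-- alternating words `y x y ... x y` -/
inductive Core {R : Type*} [Mul R] (X Y : Set R) : R → Prop
  | single {y : R} : y ∈ Y → Core X Y y
  | cons {y x c : R} : y ∈ Y → x ∈ X → Core X Y c → Core X Y (y * x * c)

/-- freeness: alternating words are orthogonal to `B` -/
def Free (τ : A →L[ℂ] ℂ) (B : StarSubalgebra ℂ A) (X Y : Set A) : Prop :=
  ∀ a ∈ B, ∀ c, Core X Y c → τ (a * c) = 0

section pos
variable {ω : A →L[ℂ] ℂ}

lemma nm_nonneg (ω : A →L[ℂ] ℂ) (x : A) : 0 ≤ nm ω x := Real.sqrt_nonneg _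

lemma IsPosF.nm_sq (h : IsPosF ω) (x : A) : nm ω x ^ 2 = (ω (star x * x)).re :=
  Real.sq_sqrt (h x).1

lemma IsPosF.nm_sq' (h : IsPosF ω) (x : A) : ((nm ω x ^ 2 : ℝ) : ℂ) = ω (star x * x) := by
  rw [h.nm_sq]
  exact Complex.ext (by simp) (by simpa using (h x).2)

lemma IsPosF.nonneg [PartialOrder A] [StarOrderedRing A] (h : IsPosF ω) {a : A} (ha : 0 ≤ a) :
    0 ≤ ω a := by
  have := h (CFC.sqrt a)
  rwa [(CFC.sqrt_nonneg a).isSelfAdjoint.star_eq, CFC.sqrt_mul_sqrt_self a ha] at this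

lemma IsPosF.mono [PartialOrder A] [StarOrderedRing A] (h : IsPosF ω) {a b : A} (hab : a ≤ b) :
    ω a ≤ ω b := by
  have := h.nonneg (sub_nonneg.2 hab)
  rwa [map_sub, sub_nonneg] at this

lemma IsPosF.re_mono [PartialOrder A] [StarOrderedRing A] (h : IsPosF ω) {a b : A} (hab : a ≤ b) :
    (ω a).re ≤ (ω b).re := (h.mono hab).1

lemma IsPosF.re_nonneg [PartialOrder A] [StarOrderedRing A] (h : IsPosF ω) {a : A} (ha : 0 ≤ a) :
    0 ≤ (ω a).re := (h.nonneg ha).1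

lemma IsPosF.ofReal_re [PartialOrder A] [StarOrderedRing A] (h : IsPosF ω) {a : A} (ha : 0 ≤ a) :
    ((ω a).re : ℂ) = ω a := Complex.ext (by simp) (by simpa using (h.nonneg ha).2)

/-- the associated positive linear map -/
noncomputable def IsPosF.toPLM [PartialOrder A] [StarOrderedRing A] (h : IsPosF ω) : A →ₚ[ℂ] ℂ :=
  { ω.toLinearMap with monotone' := fun _ _ hab => h.mono hab }

lemma IsPosF.map_star (h : IsPosF ω) (x : A) : ω (star x) = conj (ω x) := by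
  let _ := CStarAlgebra.spectralOrder A
  have _ := CStarAlgebra.spectralOrderedRing A
  exact StarHomClass.map_star h.toPLM x

lemma IsPosF.cs (h : IsPosF ω) (x y : A) : ‖ω (star x * y)‖ ≤ nm ω x * nm ω y := by
  let _ := CStarAlgebra.spectralOrder A
  have _ := CStarAlgebra.spectralOrderedRing A
  exact norm_inner_le_norm (𝕜 := ℂ) (h.toPLM.toPreGNS x) (h.toPLM.toPreGNS y)

lemma IsPosF.nm_add_le (h : IsPosF ω) (x y : A) : nm ω (x + y) ≤ nm ω x + nm ω y := by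
  let _ := CStarAlgebra.spectralOrder A
  have _ := CStarAlgebra.spectralOrderedRing A
  exact norm_add_le (h.toPLM.toPreGNS x) (h.toPLM.toPreGNS y)

lemma nm_neg (x : A) : nm ω (-x) = nm ω x := by simp [nm]

lemma nm_sub_comm (x y : A) : nm ω (x - y) = nm ω (y - x) := by rw [← nm_neg, neg_sub]

lemma IsPosF.nm_sub_le (h : IsPosF ω) (x y : A) : nm ω (x - y) ≤ nm ω x + nm ω y := by
  rw [sub_eq_add_neg]
  exact (h.nm_add_le _ _).trans (by rw [nm_neg])

lemma IsPosF.nm_smul (h : IsPosF ω) (c : ℂ) (x : A) : nm ω (c • x) = ‖c‖ * nm ω x := by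
  let _ := CStarAlgebra.spectralOrder A
  have _ := CStarAlgebra.spectralOrderedRing A
  exact norm_smul c (h.toPLM.toPreGNS x)

@[simp] lemma nm_zero : nm ω (0 : A) = 0 := by simp [nm]

lemma IsPosF.nm_mul_le (h : IsPosF ω) (a x : A) : nm ω (a * x) ≤ ‖a‖ * nm ω x := by
  let _ := CStarAlgebra.spectralOrder A
  have _ := CStarAlgebra.spectralOrderedRing A
  have h1 : star x * (star a * a) * x ≤ ‖star a * a‖ • (star x * x) :=
    CStarAlgebra.star_left_conjugate_le_norm_smul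
  have h2 := h.re_mono h1
  rw [CStarRing.norm_star_mul_self, ← Complex.coe_smul, map_smul, smul_eq_mul,
    Complex.re_ofReal_mul, ← h.nm_sq] at h2
  have h3 : star x * (star a * a) * x = star (a * x) * (a * x) := by simp [mul_assoc]
  rw [h3, ← h.nm_sq] at h2
  refine abs_le_of_sq_le_sq' ?_ (mul_nonneg (norm_nonneg _) (nm_nonneg _ _)) |>.2
  nlinarith

lemma IsState.nm_one (h : IsState ω) : nm ω 1 = 1 := by simp [nm, h.one]

lemma IsState.nm_le (h : IsState ω) (x : A) : nm ω x ≤ ‖x‖ := by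
  simpa [h.nm_one] using h.pos.nm_mul_le x 1

lemma IsState.norm_le_nm (h : IsState ω) (x : A) : ‖ω x‖ ≤ nm ω x := by
  simpa [h.nm_one] using h.pos.cs 1 x

lemma IsState.norm_le (h : IsState ω) (x : A) : ‖ω x‖ ≤ ‖x‖ := (h.norm_le_nm x).trans (h.nm_le x)

lemma IsPosF.eq_zero_left (h : IsPosF ω) {x : A} (hx : nm ω x = 0) (y : A) :
    ω (star x * y) = 0 := by
  simpa [hx] using h.cs x y

lemma IsPosF.eq_zero_right (h : IsPosF ω) {y : A} (hy : nm ω y = 0) (x : A) :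
    ω (x * y) = 0 := by
  simpa [hy] using h.cs (star x) y

lemma IsPosF.nm_eq_zero_iff (h : IsPosF ω) {x : A} : nm ω x = 0 ↔ ω (star x * x) = 0 := by
  rw [← h.nm_sq']; simp

lemma IsPosF.nm_mul_eq_zero (h : IsPosF ω) {x : A} (hx : nm ω x = 0) (a : A) :
    nm ω (a * x) = 0 :=
  le_antisymm (by simpa [hx] using h.nm_mul_le a x) (nm_nonneg _ _)

/-- if `w` fixes the cyclic vector -/
lemma IsPosF.conj_eq (h : IsPosF ω) {w w' : A} (hw : nm ω (w - 1) = 0) (hw' : nm ω (w' - 1) = 0)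
    (z : A) : ω (star w * z * w') = ω z := by
  have e : star w * z * w' = star (w - 1) * (z * w') + z * (w' - 1) + z := by
    simp only [star_sub, star_one]; noncomm_ring
  rw [e, map_add, map_add, h.eq_zero_left hw, h.eq_zero_right hw']
  simp

lemma IsState.nm_sub_one [PartialOrder A] [StarOrderedRing A] (h : IsState ω) {a : A}
    (h0 : 0 ≤ a) (h1 : a ≤ 1) (ha : ω a = 1) : nm ω (a - 1) = 0 := by
  rw [nm_sub_comm]
  have hs : IsSelfAdjoint (1 - a) := (IsSelfAdjoint.one A).sub h0.isSelfAdjoint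
  have h2 : (1 - a) * (1 - a) ≤ 1 - a := by
    have := CStarAlgebra.pow_antitone (sub_nonneg.2 h1) (sub_le_self 1 h0) (show 1 ≤ 2 by norm_num)
    simpa [pow_two] using this
  have h3 := h.pos.re_mono h2
  have h4 : (ω (1 - a)).re = 0 := by rw [map_sub, h.one, ha]; simp
  rw [h4] at h3
  unfold nm
  rw [hs.star_eq]
  exact Real.sqrt_eq_zero'.2 h3

lemma IsState.conj_self [PartialOrder A] [StarOrderedRing A] (h : IsState ω) {a a' : A}
    (h0 : 0 ≤ a) (h1 : a ≤ 1) (ha : ω a = 1) (h0' : 0 ≤ a') (h1' : a' ≤ 1) (ha' : ω a' = 1)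
    (z : A) : ω (a * z * a') = ω z := by
  have := h.pos.conj_eq (h.nm_sub_one h0 h1 ha) (h.nm_sub_one h0' h1' ha') z
  rwa [h0.isSelfAdjoint.star_eq] at this

/-- the functional `z ↦ ω (y⋆ z y)` -/
noncomputable def vec (ω : A →L[ℂ] ℂ) (y : A) : A →L[ℂ] ℂ :=
  ω.comp (ContinuousLinearMap.mulLeftRight ℂ A (star y) y)

@[simp] lemma vec_apply (ω : A →L[ℂ] ℂ) (y z : A) : vec ω y z = ω (star y * z * y) := rfl

lemma IsPosF.vec (h : IsPosF ω) (y : A) : IsPosF (vec ω y) := fun x => by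
  have := h (x * y)
  simpa [mul_assoc] using this

lemma IsPosF.smul (h : IsPosF ω) {c : ℝ} (hc : 0 ≤ c) : IsPosF ((c : ℂ) • ω) := fun x => by
  simpa using mul_nonneg (Complex.zero_le_real.2 hc) (h x)

lemma IsPosF.vec_state (h : IsPosF ω) {y : A} (hy : ω (star y * y) = 1) : IsState (R120.vec ω y) :=
  ⟨by simpa using hy, h.vec y⟩

lemma IsPosF.continuous_nm (_h : IsPosF ω) : Continuous (nm ω) := by
  unfold nm; fun_prop

lemma IsState.re_le_one [PartialOrder A] [StarOrderedRing A] (h : IsState ω) {a : A}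
    (h1 : a ≤ 1) : (ω a).re ≤ 1 := by
  simpa [h.one] using h.pos.re_mono h1

end pos

end Crest.Agent.R120
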