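import Crest.Agent.R120.CharDefs

/-! Transfinite recursion of characters and bookkeeping (written by helper10). -/

set_option autoImplicit false
open scoped ComplexOrder InnerProductSpace ComplexConjugate Topology
open Filter

namespace Crest.Agent.R120

section retr
variable {I : Type}

@[simp] lemma retr_inl (U : Set I) (n : ℕ) :
    retr U (FreeGroup.of (.inl n)) = FreeGroup.of (.inl n) := by simp [retr]

lemma retr_inr_of_mem {U : Set I} {i : I} (h : i ∈ U) :
    retr U (FreeGroup.of (.inr i)) = FreeGroup.of (.inr i) := by simp [retr, h]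

lemma retr_inr_of_notMem {U : Set I} {i : I} (h : i ∉ U) :
    retr U (FreeGroup.of (.inr i)) = 1 := by simp [retr, h]

lemma retr_retr (U V : Set I) (g : FreeGroup (ℕ ⊕ I)) : retr U (retr V g) = retr (U ∩ V) g := by
  have : (retr U).comp (retr V) = retr (U ∩ V) := by
    refine FreeGroup.ext_hom _ _ ?_
    rintro (n | i)
    · simp
    · by_cases hV : i ∈ V
      · by_cases hU : i ∈ U
        · simp [retr_inr_of_mem hV, retr_inr_of_mem hU, retr_inr_of_mem (U := U ∩ V) ⟨hU, hV⟩]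
        · simp [retr_inr_of_mem hV, retr_inr_of_notMem hU,
            retr_inr_of_notMem (U := U ∩ V) fun h => hU h.1]
      · simp [retr_inr_of_notMem hV, retr_inr_of_notMem (U := U ∩ V) fun h => hV h.2]
  exact DFunLike.congr_fun this g

lemma retr_univ (g : FreeGroup (ℕ ⊕ I)) : retr Set.univ g = g := by
  have : retr (Set.univ : Set I) = MonoidHom.id _ := by
    refine FreeGroup.ext_hom _ _ ?_
    rintro (n | i)
    · simp
    · simp [retr_inr_of_mem]
  rw [this]; rfl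

lemma exists_finite_retr (g : FreeGroup (ℕ ⊕ I)) :
    ∃ F : Finset I, ∀ U V : Set I, U ∩ F = V ∩ F → retr U g = retr V g := by
  classical
  induction g using FreeGroup.induction_on with
  | C1 => exact ⟨∅, fun _ _ _ => by simp⟩
  | of x =>
    rcases x with n | i
    · exact ⟨∅, fun _ _ _ => by simp⟩
    · refine ⟨{i}, fun U V h => ?_⟩
      have : i ∈ U ↔ i ∈ V := by simpa using Set.ext_iff.mp h i
      by_cases hU : i ∈ U
      · rw [retr_inr_of_mem hU, retr_inr_of_mem (this.mp hU)]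
      · rw [retr_inr_of_notMem hU, retr_inr_of_notMem (mt this.mpr hU)]
  | inv_of x ih =>
    obtain ⟨F, hF⟩ := ih
    exact ⟨F, fun U V h => by rw [map_inv, map_inv, hF U V h]⟩
  | mul x y hx hy =>
    obtain ⟨F, hF⟩ := hx
    obtain ⟨F', hF'⟩ := hy
    refine ⟨F ∪ F', fun U V h => ?_⟩
    have h' := Set.ext_iff.mp h
    simp only [Set.mem_inter_iff, Finset.coe_union, Set.mem_union] at h'
    rw [map_mul, map_mul, hF U V (Set.ext fun i => ?_), hF' U V (Set.ext fun i => ?_)]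
    · have := h' i; simp only [Set.mem_inter_iff]; tauto
    · have := h' i; simp only [Set.mem_inter_iff]; tauto

lemma IsChar.comp {G G' : Type} [Group G] [Group G'] {χ : G → ℂ} (h : IsChar χ) (f : G' →* G) :
    IsChar (fun g => χ (f g)) where
  one := by simp [h.one]
  comm := fun g g' => by simp only [map_mul, h.comm (f g)]
  psd := by
    have := h.psd.submatrix f
    convert this using 1
    ext g g'
    simp

/-- being a character is a finitary condition -/
lemma isChar_of_finite {G : Type} [Group G] {χ : G → ℂ}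
    (h : ∀ S : Finset G, ∃ χ', IsChar χ' ∧ ∀ g ∈ S, χ g = χ' g) : IsChar χ where
  one := by
    obtain ⟨χ', h1, h2⟩ := h {1}
    rw [h2 1 (by simp), h1.one]
  comm := fun g g' => by
    classical
    obtain ⟨χ', h1, h2⟩ := h {g * g', g' * g}
    rw [h2 _ (by simp), h2 _ (by simp), h1.comm]
  psd := by
    classical
    refine ⟨Matrix.IsHermitian.ext fun g g' => ?_, fun x => ?_⟩
    · obtain ⟨χ', h1, h2⟩ := h {g⁻¹ * g', g'⁻¹ * g}
      simp only [Matrix.of_apply]
      rw [h2 _ (by simp), h2 _ (by simp)]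
      exact h1.psd.isHermitian.apply g g'
    · obtain ⟨χ', h1, h2⟩ := h ((x.support ×ˢ x.support).image fun p => p.1⁻¹ * p.2)
      convert h1.psd.2 x using 1
      refine Finset.sum_congr rfl fun g hg => Finset.sum_congr rfl fun g' hg' => ?_
      simp only [Matrix.of_apply]
      rw [h2 _ (Finset.mem_image.mpr ⟨(g, g'), Finset.mem_product.mpr ⟨hg, hg'⟩, rfl⟩)]

end retr

theorem exists_char_rec {I : Type} [LinearOrder I] [WellFoundedLT I]
    (χ₀ : FreeGroup (ℕ ⊕ I) → ℂ) (h₀ : IsChar χ₀) (h₀' : ∀ g, χ₀ (retr ∅ g) = χ₀ g)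
    (R : I → (FreeGroup (ℕ ⊕ I) → ℂ) → Prop)
    (hstep : ∀ α χ, IsChar χ → (∀ g, χ (retr (Set.Iio α) g) = χ g) → ∃ χ', IsChar χ' ∧
      (∀ g, χ' (retr (Set.Iic α) g) = χ' g) ∧ (∀ g, χ' (retr (Set.Iio α) g) = χ g) ∧ R α χ') :
    ∃ χ, IsChar χ ∧ (∀ g, χ (retr ∅ g) = χ₀ g) ∧
      ∀ α, R α (fun g => χ (retr (Set.Iic α) g)) := by
  classical
  let P := {p : Set I × (FreeGroup (ℕ ⊕ I) → ℂ) // IsLowerSet p.1 ∧ IsChar p.2 ∧
    (∀ g, p.2 (retr p.1 g) = p.2 g) ∧ (∀ g, p.2 (retr ∅ g) = χ₀ g) ∧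
    ∀ α ∈ p.1, R α (fun g => p.2 (retr (Set.Iic α) g))}
  let r : P → P → Prop := fun p q => p.1.1 ⊆ q.1.1 ∧ ∀ g, q.1.2 (retr p.1.1 g) = p.1.2 g
  have rrefl : ∀ p, r p p := fun p => ⟨subset_rfl, p.2.2.2.1⟩
  have rtrans : ∀ {p q s}, r p q → r q s → r p s := fun {p q s} h1 h2 =>
    ⟨h1.1.trans h2.1, fun g => by
      rw [← h1.2 g, ← h2.2, retr_retr, Set.inter_eq_right.mpr h1.1]⟩
  let p₀ : P := ⟨(∅, χ₀), isLowerSet_empty, h₀, h₀', h₀', fun _ h => h.elim⟩
  obtain ⟨m, hm⟩ := exists_maximal_of_chains_bounded (r := r) (fun c hc => by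
    rcases c.eq_empty_or_nonempty with rfl | hne
    · exact ⟨p₀, fun _ h => h.elim⟩
    have hdir : ∀ p ∈ c, ∀ q ∈ c, ∃ s ∈ c, r p s ∧ r q s := fun p hp q hq => by
      rcases eq_or_ne p q with rfl | hpq
      · exact ⟨p, hp, rrefl p, rrefl p⟩
      · rcases hc hp hq hpq with h | h
        · exact ⟨q, hq, h, rrefl q⟩
        · exact ⟨p, hp, rrefl p, h⟩
    let U : Set I := ⋃ p ∈ c, p.1.1
    have hfin : ∀ F : Finset I, ∃ p ∈ c, U ∩ F ⊆ p.1.1 := fun F => by
      induction F using Finset.induction_on with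
      | empty => obtain ⟨p, hp⟩ := hne; exact ⟨p, hp, by simp⟩
      | insert i F _ ih =>
        obtain ⟨p, hp, h⟩ := ih
        by_cases hi : i ∈ U
        · obtain ⟨q, hq, hi⟩ := Set.mem_iUnion₂.mp hi
          obtain ⟨s, hs, h1, h2⟩ := hdir p hp q hq
          refine ⟨s, hs, fun j hj => ?_⟩
          rcases Finset.mem_insert.mp hj.2 with rfl | hj'
          · exact h2.1 hi
          · exact h1.1 (h ⟨hj.1, hj'⟩)
        · refine ⟨p, hp, fun j hj => ?_⟩
          rcases Finset.mem_insert.mp hj.2 with rfl | hj'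
          · exact (hi hj.1).elim
          · exact h ⟨hj.1, hj'⟩
    have hval : ∀ g, ∃ z : ℂ, ∃ p ∈ c, ∀ q ∈ c, r p q → q.1.2 (retr U g) = z := fun g => by
      obtain ⟨F, hF⟩ := exists_finite_retr g
      obtain ⟨p, hp, h⟩ := hfin F
      refine ⟨p.1.2 g, p, hp, fun q _ hpq => ?_⟩
      rw [← hpq.2, hF U p.1.1]
      exact Set.Subset.antisymm (fun j hj => ⟨h hj, hj.2⟩)
        (fun j hj => ⟨Set.mem_iUnion₂.mpr ⟨p, hp, hj.1⟩, hj.2⟩)
    choose χ hχ using hval
    have hχ' : ∀ S : Finset (FreeGroup (ℕ ⊕ I)), ∀ p ∈ c, ∃ q ∈ c, r p q ∧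
        ∀ s ∈ c, r q s → ∀ g ∈ S, s.1.2 (retr U g) = χ g := fun S p hp => by
      induction S using Finset.induction_on with
      | empty => exact ⟨p, hp, rrefl p, by simp⟩
      | insert g S _ ih =>
        obtain ⟨q, hq, h1, h2⟩ := ih
        obtain ⟨q', hq', h3⟩ := hχ g
        obtain ⟨s, hs, h4, h5⟩ := hdir q hq q' hq'
        refine ⟨s, hs, rtrans h1 h4, fun t ht hst g' hg' => ?_⟩
        rcases Finset.mem_insert.mp hg' with rfl | hg'
        · exact h3 t ht (rtrans h5 hst)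
        · exact h2 t ht (rtrans h4 hst) g' hg'
    have hle : ∀ p ∈ c, ∀ g, χ (retr p.1.1 g) = p.1.2 g := fun p hp g => by
      obtain ⟨q, hq, h1, h2⟩ := hχ' {retr p.1.1 g} p hp
      rw [← h2 q hq (rrefl q) _ (by simp), retr_retr,
        Set.inter_eq_right.mpr (Set.subset_biUnion_of_mem (u := fun p : P => p.1.1) hp), h1.2]
    obtain ⟨p, hp⟩ := hne
    refine ⟨⟨(U, χ), isLowerSet_iUnion₂ fun p _ => p.2.1, isChar_of_finite fun S => ?_,
      fun g => ?_, fun g => ?_, fun α hα => ?_⟩, fun q hq =>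
        ⟨Set.subset_biUnion_of_mem (u := fun p : P => p.1.1) hq, hle q hq⟩⟩
    · obtain ⟨q, hq, -, h2⟩ := hχ' S p hp
      exact ⟨_, q.2.2.1.comp (retr U), fun g hg => (h2 q hq (rrefl q) g hg).symm⟩
    · obtain ⟨q, hq, -, h2⟩ := hχ' {g, retr U g} p hp
      change χ (retr U g) = χ g
      rw [← h2 q hq (rrefl q) _ (by simp), ← h2 q hq (rrefl q) g (by simp), retr_retr,
        Set.inter_self]
    · change χ (retr ∅ g) = χ₀ g
      rw [← p.2.2.2.2.1 g, ← hle p hp, retr_retr, Set.inter_empty]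
    · obtain ⟨q, hq, hα⟩ := Set.mem_iUnion₂.mp hα
      convert q.2.2.2.2.2 α hα using 2 with g
      change χ (retr (Set.Iic α) g) = _
      rw [← hle q hq, retr_retr, Set.inter_eq_right.mpr (q.2.1.Iic_subset hα)]) rtrans
  obtain ⟨⟨U, χ⟩, hU, hχ, h1, h2, h3⟩ := m
  refine ⟨χ, hχ, h2, fun α => h3 α ?_⟩
  by_contra hα
  obtain ⟨β, hβ, hmin⟩ := WellFounded.has_min (wellFounded_lt (α := I)) Uᶜ ⟨α, hα⟩
  have hUβ : U = Set.Iio β := Set.ext fun γ =>
    ⟨fun hγ => lt_of_not_ge fun h => hβ (hU h hγ), fun hγ => by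
      by_contra h
      exact hmin γ h hγ⟩
  subst hUβ
  simp only at h1 h2 h3
  obtain ⟨χ', c1, c2, c3, c4⟩ := hstep β χ hχ h1
  have := hm ⟨(Set.Iic β, χ'), isLowerSet_Iic β, c1, c2, fun g => ?_, fun γ hγ => ?_⟩
    ⟨Set.Iio_subset_Iic_self, c3⟩
  · exact lt_irrefl β (this.1 (le_refl β))
  · change χ' (retr ∅ g) = χ₀ g
    rw [← h2 g, ← c3, retr_retr, Set.inter_empty]
  · rcases (Set.mem_Iic.mp hγ).eq_or_lt with rfl | hγ
    · convert c4 using 2 with g
      exact c2 g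
    · convert h3 γ hγ using 2 with g
      change χ' (retr (Set.Iic γ) g) = χ (retr (Set.Iic γ) g)
      rw [← c3, retr_retr, Set.inter_eq_right.mpr (Set.Iic_subset_Iio.mpr hγ)]

open Cardinal in
theorem exists_bookkeeping : ∃ (I : Type) (_ : LinearOrder I) (_ : WellFoundedLT I)
    (code : I → (Bool → ℕ → ℕ → MonoidAlgebra ℂ (FreeGroup (ℕ ⊕ I)))),
    ∀ c (T : Set I), T.Countable → ∃ α, T ⊆ Set.Iio α ∧ code α = c := by
  let I := continuum.{0}.ord.ToType
  have hI : #I = 𝔠 := mk_ord_toType _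
  have hG : #(FreeGroup (ℕ ⊕ I)) ≤ 𝔠 := by
    have : Nonempty (ℕ ⊕ I) := ⟨.inl 0⟩
    rw [mk_freeGroup, mk_sum, lift_id, lift_id, hI, mk_nat]
    simp [aleph0_le_continuum]
  have hA : #(MonoidAlgebra ℂ (FreeGroup (ℕ ⊕ I))) ≤ 𝔠 := by
    have : Infinite (FreeGroup (ℕ ⊕ I)) :=
      Infinite.of_injective (fun n : ℕ => FreeGroup.of (.inl n))
        (fun a b h => by simpa using FreeGroup.of_injective h)
    rw [mk_congr MonoidAlgebra.coeffEquiv, mk_finsupp_of_infinite, mk_complex]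
    exact max_le hG le_rfl
  have hC : #(Bool → ℕ → ℕ → MonoidAlgebra ℂ (FreeGroup (ℕ ⊕ I))) ≤ 𝔠 := by
    simp only [mk_pi, prod_const, lift_id, mk_nat, mk_bool]
    calc _ ≤ ((𝔠 ^ ℵ₀) ^ ℵ₀) ^ (2 : Cardinal) :=
          power_le_power_right (power_le_power_right (power_le_power_right hA))
      _ = 𝔠 := by
        rw [continuum_power_aleph0, continuum_power_aleph0]
        exact_mod_cast power_nat_eq aleph0_le_continuum (n := 2) one_le_two
  obtain ⟨f⟩ : Nonempty (((Bool → ℕ → ℕ → MonoidAlgebra ℂ (FreeGroup (ℕ ⊕ I))) × I) ↪ I) := by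
    rw [← Cardinal.le_def, mk_prod, lift_id, lift_id, hI]
    calc _ ≤ 𝔠 * 𝔠 := by gcongr
      _ = 𝔠 := continuum_mul_self
  have : Nonempty ((Bool → ℕ → ℕ → MonoidAlgebra ℂ (FreeGroup (ℕ ⊕ I))) × I) := by
    have : Nonempty I := by rw [← mk_ne_zero_iff, hI]; exact continuum_ne_zero
    infer_instance
  refine ⟨I, inferInstance, inferInstance, fun α => (Function.invFun f α).1, fun c T hT => ?_⟩
  by_contra! hn
  have h1 : Set.range (fun i => f (c, i)) ⊆ ⋃ t : T, Set.Iic (t : I) := by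
    rintro _ ⟨i, rfl⟩
    by_contra h
    refine hn (f (c, i)) (fun t ht => ?_) (by rw [Function.leftInverse_invFun f.injective])
    by_contra h'
    exact h (Set.mem_iUnion.mpr ⟨⟨t, ht⟩, Set.mem_Iic.mpr (not_lt.mp h')⟩)
  have h2 : 𝔠 ≤ #(⋃ t : T, Set.Iic (t : I)) := by
    refine le_trans ?_ (mk_le_mk_of_subset h1)
    rw [mk_range_eq _ (fun i j h => by simpa using f.injective h), hI]
  have h3 : #(⋃ t : T, Set.Iic (t : I)) < 𝔠 := by
    have hT' : #T ≤ ℵ₀ := le_aleph0_iff_set_countable.mpr hT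
    refine (mk_iUnion_le _).trans_lt (mul_lt_of_lt aleph0_le_continuum
      (hT'.trans_lt aleph0_lt_continuum) (iSup_lt_of_lt_cof_ord ?_ fun t => ?_))
    · refine hT'.trans_lt ?_
      rw [← two_power_aleph0]
      exact lt_cof_ord_power le_rfl one_lt_two
    · rw [← Set.Iio_insert]
      exact mk_insert_le.trans_lt (add_lt_of_lt aleph0_le_continuum (mk_Iio_toType_ord_lt _)
        (one_lt_aleph0.trans_le aleph0_le_continuum))
  exact lt_irrefl _ (h2.trans_lt h3)

end Crest.Agent.R120
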