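import Crest.Agent.R120.HTrace
import Crest.Agent.R120.Char
import Crest.Agent.R120.Rec
import Crest.Agent.R120.Base

/-! Row 120: existence of a transfinite HNN system catching all valid data. -/

set_option autoImplicit false
open scoped ComplexOrder InnerProductSpace ComplexConjugate Topology
open Filter Set

namespace Crest.Agent.R120

open Crest.Agent.Lib Crest.Agent.Lib.HNN

section gens
variable {I : Type} {A : Type*} [CStarAlgebra A]

/-- the base generators -/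
def gX (ρ : FreeGroup (ℕ ⊕ I) →* A) : Set A := range fun n => ρ (FreeGroup.of (.inl n))

/-- the letters -/
def gu (ρ : FreeGroup (ℕ ⊕ I) →* A) (i : I) : A := ρ (FreeGroup.of (.inr i))

lemma retr_mem_alg {ρ : FreeGroup (ℕ ⊕ I) →* A} (hρ : ∀ g, star (ρ g) = ρ g⁻¹) (U : Set I)
    (g : FreeGroup (ℕ ⊕ I)) : ρ (retr U g) ∈ alg (gX ρ) (gu ρ) U := by
  induction g using FreeGroup.induction_on with
  | C1 => simp
  | of x =>
    rcases x with n | i
    · rw [retr_inl]; exact gen_mem_alg (.inl ⟨n, rfl⟩)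
    · by_cases h : i ∈ U
      · rw [retr_inr_of_mem h]; exact gen_mem_alg (.inr ⟨i, h, rfl⟩)
      · rw [retr_inr_of_notMem h, map_one]; exact one_mem _
  | inv_of x ih => rw [map_inv, ← hρ]; exact star_mem ih
  | mul x y hx hy => rw [map_mul, map_mul]; exact mul_mem hx hy

lemma lift_mem {G : Type*} [Group G] (ρ : G →* A) (S : StarSubalgebra ℂ A) (h : ∀ g, ρ g ∈ S)
    (c : MonoidAlgebra ℂ G) : MonoidAlgebra.lift ℂ A G ρ c ∈ S := by
  induction c using MonoidAlgebra.induction_linear with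
  | zero => simp
  | add a b ha hb => rw [map_add]; exact add_mem ha hb
  | single g z => rw [MonoidAlgebra.lift_single]; exact SMulMemClass.smul_mem _ (h g)

lemma map_lift {G M : Type*} [Group G] [CStarAlgebra M] (Ψ : M →⋆ₐ[ℂ] A) {ρM : G →* M}
    {ρ : G →* A} (h : ∀ g, Ψ (ρM g) = ρ g) (c : MonoidAlgebra ℂ G) :
    Ψ (MonoidAlgebra.lift ℂ M G ρM c) = MonoidAlgebra.lift ℂ A G ρ c := by
  induction c using MonoidAlgebra.induction_linear with
  | zero => simp
  | add a b ha hb => simp only [map_add, ha, hb]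
  | single g z => simp only [MonoidAlgebra.lift_single, map_smul, h]

lemma range_eq_alg {M : Type*} [CStarAlgebra M] {ρ : FreeGroup (ℕ ⊕ I) →* A}
    (hρ : ∀ g, star (ρ g) = ρ g⁻¹) (U : Set I) {ρM : FreeGroup (ℕ ⊕ I) →* M}
    (hd : DenseRange (MonoidAlgebra.lift ℂ M _ ρM)) (Ψ : M →⋆ₐ[ℂ] A) (hi : Function.Injective Ψ)
    (h : ∀ g, Ψ (ρM g) = ρ (retr U g)) : Ψ.range = alg (gX ρ) (gu ρ) U := by
  have hiso := NonUnitalStarAlgHom.isometry Ψ hi
  refine le_antisymm ?_ (StarSubalgebra.topologicalClosure_minimal (StarAlgebra.adjoin_le ?_)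
    hiso.isClosedEmbedding.isClosed_range)
  · rintro _ ⟨x, rfl⟩
    change Ψ x ∈ _
    refine hd.induction_on x ((isClosed_alg _ _ _).preimage hiso.continuous) fun c => ?_
    rw [map_lift Ψ (ρ := ρ.comp (retr U)) h]
    exact lift_mem _ _ (retr_mem_alg hρ U) c
  · rintro _ (⟨n, rfl⟩ | ⟨i, hi, rfl⟩)
    · exact ⟨_, (h _).trans (by rw [retr_inl])⟩
    · exact ⟨_, (h _).trans (by rw [retr_inr_of_mem hi]; rfl)⟩

end gens

lemma valid_trivial {M : Type*} [CStarAlgebra M] (τ : M →L[ℂ] ℂ) :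
    Valid τ ⊤ (fun _ N => if N = 0 then 1 else 0) := by
  have h0 : ∀ {f : ℕ → ℝ}, (∀ N, f (N + 1) = 0) → Tendsto f atTop (𝓝 0) := fun {f} h =>
    (tendsto_add_atTop_iff_nat 1).1 (by simp [h])
  refine ⟨⟨fun a => ⟨fun N => ?_, fun {N N'} h => ?_⟩, fun a => by simp,
    fun _ _ => StarSubalgebra.mem_top⟩, fun a x _ => ⟨0, h0 (by simp)⟩, fun a x _ => h0 (by simp),
    fun a => h0 (by simp [CStarPure.nrm]), fun _ => rfl⟩
  · split_ifs
    · exact IsStarProjection.one _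
    · exact IsStarProjection.zero _
  · by_cases h1 : N' = 0
    · simp [h1, show N = 0 by omega]
    · simp [h1]

section step
variable {I : Type} [LinearOrder I]

/-- the property of the character at stage `α` -/
def RR (c : Bool → ℕ → ℕ → MonoidAlgebra ℂ (FreeGroup (ℕ ⊕ I))) (α : I)
    (χ : FreeGroup (ℕ ⊕ I) → ℂ) : Prop :=
  ∀ (A : Type) [CStarAlgebra A] (τ : A →L[ℂ] ℂ) (ρ : FreeGroup (ℕ ⊕ I) →* A), IsTr τ →
    (∀ g, star (ρ g) = ρ g⁻¹) → (∀ g, τ (ρ (retr (Iic α) g)) = χ g) →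
    ∃ σ, Valid τ (alg (gX ρ) (gu ρ) (Iio α)) σ ∧ Letter σ (sgn (gu ρ α)) ∧
      HNN.Free τ (alg (gX ρ) (gu ρ) (Iio α)) σ (sgn (gu ρ α)) ∧
      ∀ σ' : Bool → ℕ → A, (∀ a N, Tendsto (fun k =>
        MonoidAlgebra.lift ℂ A _ (ρ.comp (retr (Iio α))) (c a N k)) atTop (𝓝 (σ' a N))) →
        Valid τ (alg (gX ρ) (gu ρ) (Iio α)) σ' → σ = σ'

theorem char_step (c : Bool → ℕ → ℕ → MonoidAlgebra ℂ (FreeGroup (ℕ ⊕ I))) (α : I)
    (χ : FreeGroup (ℕ ⊕ I) → ℂ) (hχ : IsChar χ) (hχα : ∀ g, χ (retr (Iio α) g) = χ g) :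
    ∃ χ', IsChar χ' ∧ (∀ g, χ' (retr (Iic α) g) = χ' g) ∧ (∀ g, χ' (retr (Iio α) g) = χ g) ∧
      RR c α χ' := by
  classical
  obtain ⟨M, _, τM, ρM, hM, hρM, hτM, hd⟩ := exists_realization hχ
  obtain ⟨σ, hσ, hσu⟩ : ∃ σ, Valid τM ⊤ σ ∧ ∀ σ' : Bool → ℕ → M, (∀ a N, Tendsto (fun k =>
      MonoidAlgebra.lift ℂ M _ ρM (c a N k)) atTop (𝓝 (σ' a N))) → Valid τM ⊤ σ' → σ = σ' := by
    by_cases h : ∃ σ' : Bool → ℕ → M, (∀ a N, Tendsto (fun k =>
      MonoidAlgebra.lift ℂ M _ ρM (c a N k)) atTop (𝓝 (σ' a N))) ∧ Valid τM ⊤ σ'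
    · obtain ⟨σ, h1, h2⟩ := h
      exact ⟨σ, h2, fun σ' h3 _ => funext fun a => funext fun N =>
        tendsto_nhds_unique (h1 a N) (h3 a N)⟩
    · exact ⟨_, valid_trivial τM, fun σ' h1 h2 => (h ⟨σ', h1, h2⟩).elim⟩
  obtain ⟨D, _, π, ω, v, hω, hωπ, hv, hf⟩ := exists_hnn_model τM hM σ hσ.nests.nest hσ.nests.zero
    (fun a => by
      rw [tendsto_zero_iff_norm_tendsto_zero]
      exact squeeze_zero (fun _ => norm_nonneg _) (fun N => hM.toLib.norm_le_nrm _) (hσ.small a))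
    hσ.eq
  have hσ' := (valid_iff hM π hωπ σ).2 hσ
  have hU : ∀ g, π (ρM g) ∈ unitary D := fun g => by
    rw [Unitary.mem_iff, ← map_star, hρM, ← map_mul, ← map_mul, ← map_mul, ← map_mul]
    simp
  have hu : v true ∈ unitary D := by
    rw [Unitary.mem_iff, hv.star_eq]
    exact ⟨hv.mul_not false, hv.mul_not true⟩
  let f : ℕ ⊕ I → unitary D := fun x =>
    if x = .inr α then ⟨v true, hu⟩ else ⟨_, hU (retr (Iio α) (FreeGroup.of x))⟩
  let ψ : FreeGroup (ℕ ⊕ I) →* D := (unitary D).subtype.comp (FreeGroup.lift f)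
  have hψs : ∀ g, star (ψ g) = ψ g⁻¹ := fun g => by
    change star (FreeGroup.lift f g : D) = (FreeGroup.lift f g⁻¹ : unitary D)
    rw [map_inv, ← Unitary.star_eq_inv, Unitary.coe_star]
  have hψ : ∀ x, ψ (FreeGroup.of x) = f x := fun x => by simp [ψ]
  have hψα : ψ (FreeGroup.of (.inr α)) = v true := by simp [hψ, f]
  have hψ' : ∀ x, x ≠ .inr α → ψ (FreeGroup.of x) = π (ρM (retr (Iio α) (FreeGroup.of x))) :=
    fun x hx => by simp [hψ, f, hx]
  have ext : ∀ φ φ' : FreeGroup (ℕ ⊕ I) →* D, (∀ g, star (φ g) = φ g⁻¹) →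
      (∀ g, star (φ' g) = φ' g⁻¹) → (∀ x, φ (FreeGroup.of x) = φ' (FreeGroup.of x)) →
      ∀ g, φ g = φ' g := fun φ φ' h1 h2 h g => by
    induction g using FreeGroup.induction_on with
    | C1 => simp
    | of x => exact h x
    | inv_of x ih => rw [← h1, ← h2, ih]
    | mul x y hx hy => rw [map_mul, map_mul, hx, hy]
  have hc : ∀ g, ψ (retr (Iic α) g) = ψ g := by
    refine ext (ψ.comp (retr (Iic α))) ψ (fun g => by simp [hψs]) hψs ?_
    rintro (n | i)
    · simp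
    · by_cases h : i ≤ α
      · simp [retr_inr_of_mem (U := Iic α) h]
      · rw [hψ' _ (by rintro ⟨rfl⟩; exact h le_rfl), MonoidHom.comp_apply,
          retr_inr_of_notMem (U := Iic α) h,
          retr_inr_of_notMem (U := Iio α) fun h' => h (le_of_lt h')]
        simp
  have ho : ∀ g, ψ (retr (Iio α) g) = π (ρM (retr (Iio α) g)) := by
    refine ext (ψ.comp (retr (Iio α))) (((π : M →* D).comp ρM).comp (retr (Iio α)))
      (fun g => by simp [hψs]) (fun g => by simp [← map_star, hρM]) ?_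
    rintro (n | i)
    · simpa using hψ' (.inl n) (by simp)
    · by_cases h : i < α
      · simpa [retr_inr_of_mem (U := Iio α) h] using hψ' (.inr i) (by simpa using h.ne)
      · simp [retr_inr_of_notMem (U := Iio α) h]
  have hρM' : ∀ g, ρM (retr (Iio α) g) = ρM g := fun g => by
    rw [← sub_eq_zero]
    refine hM.faithful _ ?_
    simp only [star_sub, hρM, sub_mul, mul_sub, ← map_mul, map_sub, hτM, inv_mul_cancel, hχ.one]
    rw [← hχα (g⁻¹ * _), ← hχα (_ * g)]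
    simp [retr_retr, hχ.one]
  -- the generated algebra
  let C := (StarAlgebra.adjoin ℂ ((π.range : Set D) ∪ {v true})).topologicalClosure
  have hCm : ∀ x ∈ (π.range : Set D) ∪ {v true}, x ∈ C := fun x hx =>
    StarSubalgebra.le_topologicalClosure _ (StarAlgebra.subset_adjoin ℂ _ hx)
  have hgen : Gen π.range v C := by
    refine ⟨fun x hx => hCm x (.inl hx), fun a => ?_, fun V hV h1 hB hv' x hx => ?_⟩
    · cases a
      · exact (hv.star_eq true) ▸ star_mem (hCm _ (.inr rfl))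
      · exact hCm _ (.inr rfl)
    · refine closure_adjoin_subset _ V hV h1 ?_ hx
      rintro g (hg | rfl) w hw
      · exact ⟨hB _ hg w hw, hB _ (star_mem hg) w hw⟩
      · exact ⟨hv' _ w hw, by rw [hv.star_eq]; exact hv' _ w hw⟩
  have htr : TrOn ω C := trOn_of_free ⟨hω, by
      rintro _ ⟨x, rfl⟩ _ ⟨y, rfl⟩
      change ω (π x * π y) = ω (π y * π x)
      rw [← map_mul, ← map_mul, hωπ, hωπ, hM.comm]⟩ hσ'.nests hσ'.pk hv hf hσ'.eq hgen
    (StarSubalgebra.isClosed_topologicalClosure _)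
  have hψC : ∀ g, ψ g ∈ C := fun g => by
    induction g using FreeGroup.induction_on with
    | C1 => simp
    | of x =>
      by_cases h : x = .inr α
      · rw [h, hψα]; exact hgen.mem _
      · rw [hψ' x h]; exact hgen.le ⟨_, rfl⟩
    | inv_of x ih => rw [← hψs]; exact star_mem ih
    | mul x y hx hy => rw [map_mul]; exact mul_mem hx hy
  have hχ' : ∀ g, ω (ψ (retr (Iio α) g)) = χ g := fun g => by rw [ho, hωπ, hτM, hχα]
  refine ⟨fun g => ω (ψ g), ⟨by simp [hω.map_one], fun g h => ?_, ?_⟩, fun g => congrArg ω (hc g),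
    hχ', ?_⟩
  · rw [map_mul ψ, map_mul ψ, htr.comm _ (hψC g) _ (hψC h)]
  · have := (posSemidef_state (IsState.ofLib hω).pos).submatrix ψ
    convert this using 1
    ext g h
    simp [hψs]
  intro A _ τ ρ hτ hρ hτρ
  replace hτρ : ∀ g, τ (ρ (retr (Iic α) g)) = ω (ψ g) := hτρ
  obtain ⟨Ψ, hΨ, hτΨ⟩ := exists_transfer hτ hM.toIsState (ρ.comp (retr (Iio α))) ρM
    (fun g => by simp [hρ]) hρM (fun g => by
      rw [hτM, ← hχ', ← hτρ, retr_retr, inter_eq_right.mpr Iio_subset_Iic_self]; rfl) hd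
  have hi := injective_of_tr hM Ψ hτΨ
  have hiso := NonUnitalStarAlgHom.isometry Ψ hi
  have hr := range_eq_alg hρ (Iio α) hd Ψ hi hΨ
  obtain ⟨Γ, hΓc, hΓm, hΓ⟩ := exists_graph (ρ.comp (retr (Iic α))) ψ (fun g => by simp [hρ]) hψs
    hτρ
  have h1 : ∀ x, (Ψ x, π x) ∈ Γ := fun x => by
    change Ψ.prod π x ∈ Γ
    refine hd.induction_on x (hΓc.preimage (hiso.continuous.prodMk (NonUnitalStarAlgHom.isometry π (injective_of_tr hM π hωπ)).continuous)) fun c => ?_
    refine lift_mem ρM (Γ.comap (Ψ.prod π)) (fun g => ?_) c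
    have := hΓm (retr (Iio α) g)
    rw [MonoidHom.comp_apply, retr_retr, inter_eq_right.mpr Iio_subset_Iic_self, ho, hρM'] at this
    change (Ψ (ρM g), π (ρM g)) ∈ Γ
    rw [hΨ]
    exact this
  have h2 : ∀ a, (sgn (gu ρ α) a, v a) ∈ Γ := by
    have := hΓm (FreeGroup.of (.inr α))
    rw [MonoidHom.comp_apply, retr_inr_of_mem (U := Iic α) le_rfl, hψα] at this
    intro a
    cases a
    · have h3 := star_mem this
      rw [Prod.star_def, hv.star_eq] at h3
      exact h3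
    · exact this
  obtain ⟨h3, h4⟩ := graph_transfer hτ hΓ Ψ π h1 h2 hv hf
  rw [← hr]
  refine ⟨_, (valid_iff hM Ψ hτΨ σ).2 hσ, h3, h4, fun σ' h5 h6 => ?_⟩
  choose s hs using h6.nests.mem
  have e : σ' = fun a N => Ψ (s a N) := funext fun a => funext fun N => (hs a N).symm
  subst e
  rw [hσu s (fun a N => ?_) ((valid_iff hM Ψ hτΨ s).1 h6)]
  rw [hiso.isEmbedding.tendsto_nhds_iff]
  refine (h5 a N).congr fun k => ?_
  exact (map_lift Ψ hΨ _).symm

end step

theorem exists_sys : ∃ (A : Type) (_ : CStarAlgebra A) (Λ : Type) (_ : LinearOrder Λ)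
    (_ : WellFoundedLT Λ) (τ : A →L[ℂ] ℂ) (X : Set A) (u : Λ → A) (ρ : Λ → Bool → ℕ → A),
    Sys τ X u ρ ∧ X.Countable ∧ alg X u univ = ⊤ ∧
    (∃ g : Multiplicative (ℕ →₀ ZMod 2) →* A, (∀ x, star (g x) = g x) ∧
      (∀ x, x ≠ 1 → τ (g x) = 0) ∧ ∀ x, g x ∈ alg X u ∅) ∧
    ∀ (σ : Bool → ℕ → A) (T : Set Λ), T.Countable → ∃ α, T ⊆ Iio α ∧
      (∀ a N, σ a N ∈ alg X u (Iio α)) ∧ (Valid τ (alg X u (Iio α)) σ → ρ α = σ) := by
  classical
  obtain ⟨I, _, _, code, hcode⟩ := exists_bookkeeping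
  let φ : FreeGroup (ℕ ⊕ I) →* Multiplicative (ℕ →₀ ZMod 2) := FreeGroup.lift fun x =>
    Sum.elim (fun n => Multiplicative.ofAdd (Finsupp.single n 1)) (fun _ => 1) x
  have hφ : ∀ g, φ (retr ∅ g) = φ g := fun g => by
    have : φ.comp (retr ∅) = φ := by
      refine FreeGroup.ext_hom _ _ ?_
      rintro (n | i)
      · simp
      · simp [retr_inr_of_notMem, φ]
    exact DFunLike.congr_fun this g
  have hφs : Function.Surjective φ := fun x => by
    induction x with | ofAdd x => ?_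
    induction x using Finsupp.induction_linear with
    | zero => exact ⟨1, by simp⟩
    | add a b ha hb =>
      obtain ⟨g, hg⟩ := ha
      obtain ⟨h, hh⟩ := hb
      exact ⟨g * h, by rw [map_mul, hg, hh, ofAdd_add]⟩
    | single n z =>
      fin_cases z
      · exact ⟨1, by rw [map_one, eq_comm, ofAdd_eq_one]; exact Finsupp.single_zero n⟩
      · exact ⟨FreeGroup.of (.inl n), by simp [φ]; rfl⟩
  have hδ : IsChar (fun x : Multiplicative (ℕ →₀ ZMod 2) => if x = 1 then (1 : ℂ) else 0) := by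
    refine ⟨by simp, fun g h => by rw [mul_comm], ?_⟩
    convert Matrix.PosSemidef.one (n := Multiplicative (ℕ →₀ ZMod 2)) (R := ℂ) using 1
    ext g h
    simp [Matrix.one_apply, inv_mul_eq_one]
  obtain ⟨χ, hχ, hχ0, hR⟩ := exists_char_rec _ (hδ.comp φ) (fun g => by rw [hφ])
    (fun α => RR (code α) α) (fun α => char_step (code α) α)
  obtain ⟨A, _, τ, ρ, hτ, hρ, hτρ, hd⟩ := exists_realization hχ
  choose σ h1 h2 h3 h4 using fun α => hR α A τ ρ hτ hρ (fun g => hτρ _)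
  have hg : ∃ g : Multiplicative (ℕ →₀ ZMod 2) →* A, (∀ x, star (g x) = g x) ∧
      (∀ x, x ≠ 1 → τ (g x) = 0) ∧ ∀ x, g x ∈ alg (gX ρ) (gu ρ) ∅ := by
    have k : ∀ g h, φ g = φ h → ρ (retr ∅ g) = ρ (retr ∅ h) := fun g h e => by
      rw [← sub_eq_zero]
      refine hτ.faithful _ ?_
      simp only [star_sub, hρ, sub_mul, mul_sub, ← map_mul, ← map_inv, map_sub, hτρ, hχ0]
      simp [e]
    choose s hs using hφs
    refine ⟨⟨⟨fun x => ρ (retr ∅ (s x)), ?_⟩, fun x y => ?_⟩, fun x => ?_, fun x hx => ?_,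
      fun x => retr_mem_alg hρ _ _⟩
    · rw [k _ 1 (by simp [hs])]; simp
    · rw [← map_mul, ← map_mul]; exact k _ _ (by simp [hs])
    · change star (ρ _) = ρ _
      rw [hρ, ← map_inv]
      refine k _ _ ?_
      rw [map_inv, hs, inv_eq_iff_mul_eq_one]
      induction x with | ofAdd x => ?_
      rw [← ofAdd_add, ofAdd_eq_one]
      ext n
      simp [CharTwo.add_self_eq_zero]
    · change τ (ρ _) = 0
      rw [hτρ, hχ0, hs, if_neg hx]
  obtain ⟨g, g1, g2, g3⟩ := hg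
  refine ⟨A, inferInstance, I, inferInstance, inferInstance, τ, gX ρ, gu ρ, σ,
    ⟨hτ.toLib, small_of_base hτ.toLib.toIsState _ g g1 g2 g3, h1, h2, h3⟩, countable_range _, ?_,
    ⟨g, g1, g2, g3⟩, fun σ' T hT => ?_⟩
  · rw [← range_eq_alg hρ univ hd (StarAlgHom.id ℂ A) Function.injective_id
      (fun g => by rw [retr_univ]; rfl)]
    exact top_le_iff.1 fun x _ => ⟨x, rfl⟩
  have hc : ∀ a N, ∃ c : ℕ → MonoidAlgebra ℂ (FreeGroup (ℕ ⊕ I)),
      Tendsto (fun k => MonoidAlgebra.lift ℂ A _ ρ (c k)) atTop (𝓝 (σ' a N)) := fun a N => by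
    obtain ⟨y, hy, hl⟩ := mem_closure_iff_seq_limit.1 (hd (σ' a N))
    choose c hc using hy
    exact ⟨c, by simpa only [hc] using hl⟩
  choose c hc using hc
  have hF : ∀ b : MonoidAlgebra ℂ (FreeGroup (ℕ ⊕ I)), ∃ F : Set I, F.Countable ∧ ∀ U, F ⊆ U →
      MonoidAlgebra.lift ℂ A _ (ρ.comp (retr U)) b = MonoidAlgebra.lift ℂ A _ ρ b := fun b => by
    induction b using MonoidAlgebra.induction_linear with
    | zero => exact ⟨∅, countable_empty, by simp⟩
    | add a b ha hb =>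
      obtain ⟨F, hF, h⟩ := ha
      obtain ⟨F', hF', h'⟩ := hb
      exact ⟨F ∪ F', hF.union hF', fun U hU => by
        rw [map_add, map_add, h U (subset_union_left.trans hU), h' U (subset_union_right.trans hU)]⟩
    | single g z =>
      obtain ⟨F, hF⟩ := exists_finite_retr g
      refine ⟨F, F.countable_toSet, fun U hU => ?_⟩
      rw [MonoidAlgebra.lift_single, MonoidAlgebra.lift_single, MonoidHom.comp_apply,
        hF U univ (by rw [inter_eq_right.mpr hU, univ_inter]), retr_univ]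
  choose F hF hF' using hF
  obtain ⟨α, hα, hcα⟩ := hcode c (T ∪ ⋃ a, ⋃ N, ⋃ k, F (c a N k)) (hT.union
    (countable_iUnion fun a => countable_iUnion fun N => countable_iUnion fun k => hF _))
  have hl : ∀ a N, Tendsto (fun k => MonoidAlgebra.lift ℂ A _ (ρ.comp (retr (Iio α)))
      (code α a N k)) atTop (𝓝 (σ' a N)) := fun a N => by
    refine (hc a N).congr fun k => ?_
    rw [hcα, hF']
    exact fun i hi => hα (.inr (mem_iUnion.2 ⟨a, mem_iUnion.2 ⟨N, mem_iUnion.2 ⟨k, hi⟩⟩⟩))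
  exact ⟨α, subset_union_left.trans hα, fun a N => (isClosed_alg _ _ _).mem_of_tendsto (hl a N)
    (Eventually.of_forall fun k => lift_mem _ _ (retr_mem_alg hρ _) _), h4 α σ' hl⟩

end Crest.Agent.R120
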