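import Crest.Agent.R120.Base

/-! Interpolating projections with prescribed trace (written by helper10). -/

set_option autoImplicit false
open scoped ComplexOrder InnerProductSpace Topology
open Filter

namespace Crest.Agent.R120

open Crest.Agent.Lib.CStarPure

variable {A : Type*} [CStarAlgebra A] {τ : A →L[ℂ] ℂ}

lemma lower_bound_real {κ lam n s w p q t : ℝ} (hκ : 0 < κ) (hκ1 : κ ≤ 1) (hl : 0 < lam)
    (hl1 : lam ≤ 1) (n0 : 0 ≤ n) (s0 : 0 ≤ s) (w0 : 0 ≤ w) (q0 : 0 ≤ q)
    (k1 : κ * w ^ 2 ≤ 3 * n * s) (k2 : lam * p ^ 2 ≤ q ^ 2 + lam / 4 * n ^ 2) (k3 : t ≤ w + s)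
    (k4 : n ≤ p + t) (k5 : q ≤ s + t) : κ * (lam / 4) ^ 2 / 12 * n ≤ s := by
  by_contra! hcon
  set θ := lam / 4 with hθ
  have θ0 : 0 < θ := by positivity
  have θ1 : θ ≤ 1 / 4 := by linarith
  have npos : 0 < n := by
    rcases n0.eq_or_lt with h | h
    · rw [← h] at hcon; linarith
    · exact h
  have l1 : w ≤ θ / 2 * n := by
    refine (pow_le_pow_iff_left₀ w0 (by positivity) two_ne_zero).mp ?_
    refine le_of_mul_le_mul_left ?_ hκ
    nlinarith
  have l2 : 2 * s ≤ θ / 2 * n := by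
    have : κ * θ ^ 2 / 12 ≤ θ / 4 := by nlinarith
    nlinarith
  have l3 : q ≤ θ * n := by linarith
  have l4 : 3 / 4 * n ≤ p := by nlinarith
  have l5 : q ^ 2 ≤ (θ * n) ^ 2 := by gcongr
  have l6 : (3 / 4 * n) ^ 2 ≤ p ^ 2 := by gcongr
  have l7 : θ ^ 2 ≤ lam / 16 := by nlinarith
  nlinarith [mul_le_mul_of_nonneg_left l6 hl.le, mul_le_mul_of_nonneg_right l7 (sq_nonneg n),
    mul_pos hl (pow_pos npos 2)]

lemma lower_bound (hτ : IsTrace τ) {e α c : A} (he : IsStarProjection e)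
    (hα1 : ‖α‖ ≤ 1) (hc : star c = c) (hc1 : ‖c‖ ≤ 1) (hβ1 : ‖1 - c‖ ≤ 1) (hαc : α * c = c)
    (hpos : ∀ v, 0 ≤ (τ (star ((1 - c) * v) * (c * v))).re) {κ lam : ℝ} (hκ : 0 < κ) (hκ1 : κ ≤ 1)
    (hl : 0 < lam) (hl1 : lam ≤ 1)
    (h1 : ∀ w, κ * nrm τ (e * w) ^ 2 ≤ (τ (star (e * w) * (α * (e * w)))).re)
    (h2 : ‖c * (e - (lam : ℂ) • 1) * c‖ ≤ lam / 4) (v : A) :
    κ * (lam / 4) ^ 2 / 12 * nrm τ v ≤ nrm τ ((e * α + (1 - e) * (1 - c)) * v) := by
  set s := nrm τ ((e * α + (1 - e) * (1 - c)) * v) with hs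
  set n := nrm τ v with hn
  have hee := he.isIdempotentElem.eq
  have hes := he.isSelfAdjoint.star_eq
  have n0 : 0 ≤ n := nrm_nonneg _ _
  have s0 : 0 ≤ s := nrm_nonneg _ _
  have a1 : nrm τ (e * α * v) ≤ s := by
    have : e * α * v = e * ((e * α + (1 - e) * (1 - c)) * v) := by
      simp only [← mul_assoc, mul_add, mul_sub, add_mul, hee, mul_one, sub_self, sub_mul]
      noncomm_ring
    rw [this]
    exact (hτ.nrm_mul_le _ _).trans (by nlinarith [he.norm_le])
  have a2 : nrm τ ((1 - e) * (1 - c) * v) ≤ s := by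
    have h' := he.one_sub.isIdempotentElem.eq
    have h'' : (1 - e) * e = 0 := by rw [sub_mul, hee, one_mul, sub_self]
    have : (1 - e) * (1 - c) * v = (1 - e) * ((e * α + (1 - e) * (1 - c)) * v) := by
      rw [← mul_assoc, mul_add, ← mul_assoc, ← mul_assoc, h', h'', zero_mul, zero_add]
    rw [this]
    exact (hτ.nrm_mul_le _ _).trans (by nlinarith [he.one_sub.norm_le])
  set w := e * ((1 - c) * v) with hw
  set A₂ := (1 - e) * (1 - c) * v with hA₂
  have hβv : (1 - c) * v = w + A₂ := by rw [hw, hA₂]; noncomm_ring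
  have b0 : nrm τ ((1 - c) * v) ≤ n := (hτ.nrm_mul_le _ _).trans (by nlinarith)
  have b1 : nrm τ w ≤ n := (hτ.nrm_mul_le _ _).trans (by
    nlinarith [he.norm_le, nrm_nonneg τ ((1 - c) * v)])
  have b2 : nrm τ (c * v) ≤ n := (hτ.nrm_mul_le _ _).trans (by nlinarith)
  have w0 := nrm_nonneg τ w
  have k1 : κ * nrm τ w ^ 2 ≤ 3 * n * s := by
    refine (h1 _).trans ?_
    rw [← hw]
    have e1 : star w * (α * w) = star w * (e * α * v) - star ((1 - c) * v) * (c * v)
        + star A₂ * (c * v) - star w * (α * A₂) := by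
      have f1 : star w * e = star w := by
        rw [hw, star_mul, hes, mul_assoc, hee]
      have f2 : α * v = c * v + α * (w + A₂) := by
        rw [← hβv, ← mul_assoc, mul_sub, mul_one, hαc]; noncomm_ring
      rw [mul_assoc e, ← mul_assoc (star w) e, f1, f2, hβv, star_add]
      noncomm_ring
    rw [e1, map_sub, map_add, map_sub]
    simp only [Complex.sub_re, Complex.add_re]
    have c1 := (Complex.re_le_norm _).trans (hτ.norm_star_mul_le w (e * α * v))
    have c2 := (Complex.re_le_norm _).trans (hτ.norm_star_mul_le A₂ (c * v))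
    have c3 := (neg_le_abs _).trans ((Complex.abs_re_le_norm _).trans
      (hτ.norm_star_mul_le w (α * A₂)))
    have c4 : nrm τ (α * A₂) ≤ s := (hτ.nrm_mul_le _ _).trans (by nlinarith [nrm_nonneg τ A₂])
    have c5 := hpos v
    have d1 : nrm τ w * nrm τ (e * α * v) ≤ n * s :=
      mul_le_mul b1 a1 (nrm_nonneg _ _) n0
    have d2 : nrm τ A₂ * nrm τ (c * v) ≤ s * n := mul_le_mul a2 b2 (nrm_nonneg _ _) s0
    have d3 : nrm τ w * nrm τ (α * A₂) ≤ n * s := mul_le_mul b1 c4 (nrm_nonneg _ _) n0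
    nlinarith
  have k2 : lam * nrm τ (c * v) ^ 2 ≤ nrm τ (e * (c * v)) ^ 2 + lam / 4 * n ^ 2 := by
    have e1 : star v * (c * (e - (lam : ℂ) • 1) * c) * v
        = star (e * (c * v)) * (e * (c * v)) - (lam : ℂ) • (star (c * v) * (c * v)) := by
      simp only [star_mul, hes, hc, mul_sub, sub_mul, mul_smul_comm, smul_mul_assoc, mul_one,
        mul_assoc]
      rw [← mul_assoc e e, hee]
    have c1 := hτ.norm_conj_le v (c * (e - (lam : ℂ) • 1) * c)
    rw [e1, map_sub, map_smul, ← hτ.nrm_sq', ← hτ.nrm_sq', smul_eq_mul, ← Complex.ofReal_mul,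
      ← Complex.ofReal_sub, Complex.norm_real, Real.norm_eq_abs] at c1
    have c2 := neg_le_of_abs_le c1
    nlinarith [mul_le_mul_of_nonneg_right h2 (sq_nonneg n)]
  have k3 : nrm τ ((1 - c) * v) ≤ nrm τ w + s := by
    rw [hβv]; exact (hτ.nrm_add_le _ _).trans (by linarith)
  have k4 : n ≤ nrm τ (c * v) + nrm τ ((1 - c) * v) := by
    have := hτ.nrm_add_le (c * v) ((1 - c) * v)
    rwa [← add_mul, add_sub_cancel, one_mul] at this
  have k5 : nrm τ (e * (c * v)) ≤ s + nrm τ ((1 - c) * v) := by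
    have : e * (c * v) = e * α * v - e * α * ((1 - c) * v) := by
      rw [← mul_sub, sub_mul, one_mul, sub_sub_cancel, mul_assoc, ← mul_assoc α, hαc]
    rw [this]
    refine (hτ.nrm_sub_le _ _).trans (add_le_add a1 ((hτ.nrm_mul_le _ _).trans ?_))
    have : ‖e * α‖ ≤ 1 := (norm_mul_le _ _).trans (by nlinarith [he.norm_le, norm_nonneg α])
    nlinarith [nrm_nonneg τ ((1 - c) * v)]
  exact lower_bound_real hκ hκ1 hl hl1 n0 s0 w0 (nrm_nonneg _ _) k1 k2 k3 k4 k5

/-- From invertibility of `e α + (1 - e) β` to an interpolating projection. -/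
lemma exists_proj_of_isUnit (hτ : IsTrace τ) {e α β : A} (he : IsStarProjection e)
    (hα : star α = α) (hβ : star β = β) (hαβ : α * β = β * α)
    (hS : IsUnit (e * α + (1 - e) * β)) :
    ∃ r, IsStarProjection r ∧ τ r = τ e ∧ (∃ y, r = α * y) ∧ ∃ y, 1 - r = β * y := by
  obtain ⟨S, hS⟩ := hS
  set X : A := ↑S⁻¹ with hX
  have hee := he.isIdempotentElem.eq
  have hes := he.isSelfAdjoint.star_eq
  have h1 : (1 - e) * e = 0 := by rw [sub_mul, hee, one_mul, sub_self]
  have h2 : e * (1 - e) = 0 := by rw [mul_sub, hee, mul_one, sub_self]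
  have h3 := he.one_sub.isIdempotentElem.eq
  have hSX : (e * α + (1 - e) * β) * X = 1 := by rw [← hS, hX, S.mul_inv]
  have f1 : e * (α * X) = e := by
    have := congrArg (e * ·) hSX
    simp only [← mul_assoc, mul_add, hee, h2, zero_mul, add_zero, mul_one] at this
    rw [← mul_assoc, this]
  have f2 : (1 - e) * (β * X) = 1 - e := by
    have := congrArg ((1 - e) * ·) hSX
    simp only [← mul_assoc, mul_add, h3, h1, zero_mul, zero_add, mul_one] at this
    rw [← mul_assoc, this]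
  set W := α * X * e with hW
  set W' := β * X * (1 - e) with hW'
  have g1 : β * X * e = e * (β * X * e) := by
    have : (1 - e) * (β * X * e) = 0 := by rw [← mul_assoc, f2, h1]
    rw [sub_mul, one_mul, sub_eq_zero] at this
    exact this
  have g2 : e * (α * X * (1 - e)) = 0 := by rw [← mul_assoc, f1, h2]
  have hWW : star W * W' = 0 := by
    have : star W * W' = star (β * X * e) * (α * X * (1 - e)) := by
      simp only [hW, hW', star_mul, hα, hβ, mul_assoc]
      rw [← mul_assoc α β, hαβ, mul_assoc]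
    rw [this, g1, star_mul, hes, mul_assoc, g2, mul_zero]
  have eW : e * W = e := by rw [hW, ← mul_assoc, f1, hee]
  have eW' : (1 - e) * W' = 1 - e := by rw [hW', ← mul_assoc, f2, h3]
  have hU : IsUnit (W + W') := by
    refine hτ.isUnit_of_nrm one_pos (fun v => ?_)
    have p1 := hτ.nrm_add_sq (w := W * v) (u := W' * v) (by
      rw [star_mul, mul_assoc, ← mul_assoc (star W), hWW]; simp)
    have p2 := hτ.nrm_add_sq (w := e * v) (u := (1 - e) * v) (by
      rw [star_mul, hes, mul_assoc, ← mul_assoc e, h2]; simp)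
    rw [← add_mul, add_sub_cancel, one_mul] at p2
    rw [← add_mul] at p1
    have q1 : nrm τ (e * v) ≤ nrm τ (W * v) := by
      conv_lhs => rw [← eW, mul_assoc]
      exact (hτ.nrm_mul_le _ _).trans (by nlinarith [he.norm_le, nrm_nonneg τ (W * v)])
    have q2 : nrm τ ((1 - e) * v) ≤ nrm τ (W' * v) := by
      conv_lhs => rw [← eW', mul_assoc]
      exact (hτ.nrm_mul_le _ _).trans (by nlinarith [he.one_sub.norm_le, nrm_nonneg τ (W' * v)])
    rw [one_mul]
    refine (pow_le_pow_iff_left₀ (nrm_nonneg _ _) (nrm_nonneg _ _) two_ne_zero).mp ?_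
    rw [p1, p2]
    have := nrm_nonneg τ (e * v)
    have := nrm_nonneg τ ((1 - e) * v)
    gcongr
  obtain ⟨U, hU⟩ := hU
  set Y : A := ↑U⁻¹ with hY
  have hUY : (W + W') * Y = 1 := by rw [← hU, hY, U.mul_inv]
  have hYU : Y * (W + W') = 1 := by rw [← hU, hY, U.inv_mul]
  have hr' : 1 - W * Y = W' * Y := by rw [← hUY, add_mul, add_sub_cancel_left]
  have hr1 : star (W * Y) * (1 - W * Y) = 0 := by
    rw [hr', star_mul, mul_assoc, ← mul_assoc (star W), hWW]; simp
  have hr2 : star (W * Y) = star (W * Y) * (W * Y) := by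
    rwa [mul_sub, mul_one, sub_eq_zero] at hr1
  have hr3 : star (W * Y) = W * Y := by
    have := congrArg star hr2
    rw [star_star, star_mul (star _), star_star] at this
    rw [hr2, ← this]
  refine ⟨W * Y, ⟨?_, hr3⟩, ?_, ⟨X * e * Y, by simp only [hW, mul_assoc]⟩,
    ⟨X * (1 - e) * Y, by rw [hr']; simp only [hW', mul_assoc]⟩⟩
  · change _ * _ = _
    nth_rewrite 1 [← hr3]
    rw [← hr2, hr3]
  · have : W = (W + W') * e := by
      rw [add_mul, hW, hW', mul_assoc _ e, hee, mul_assoc _ (1 - e), h1, mul_zero, add_zero]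
    rw [hτ.comm, this, ← mul_assoc, hYU, one_mul]

end Crest.Agent.R120
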