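import Crest.Agent.R120.Fin1
import Crest.Agent.Lib.HNN.Sys

/-! Peak nests with prescribed traces (written by helper10). -/

set_option autoImplicit false
open scoped ComplexOrder InnerProductSpace Topology
open Filter

namespace Crest.Agent.R120

open Crest.Agent.Lib.CStarPure Crest.Agent.Lib.HNN

variable {A : Type*} [CStarAlgebra A] {τ : A →L[ℂ] ℂ}

/-- A unitary that is free from `B`, in the quantitative form used below. -/
structure FreeU (τ : A →L[ℂ] ℂ) (B : StarSubalgebra ℂ A) (w : A) : Prop where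
  mul_star : w * star w = 1
  star_mul : star w * w = 1
  small : ∀ a, ∀ x ∈ B, τ x = 0 → ∀ η > 0, ∃ δ > 0, ∀ y ∈ B, ‖y‖ ≤ 1 → nrm τ y ≤ δ →
    ‖y * (sgn w a * x * sgn w (!a)) * star y‖ ≤ η

lemma FreeU.norm_conj {B : StarSubalgebra ℂ A} {w : A} (h : FreeU τ B w) (x : A) :
    ‖w * x * star w‖ ≤ ‖x‖ := by
  have h1 : ‖w‖ ≤ 1 := by
    have : ‖w‖ * ‖w‖ ≤ 1 := by
      rw [← CStarRing.norm_self_mul_star, h.mul_star]; exact norm_one_le_one
    nlinarith [norm_nonneg w]
  calc _ ≤ ‖w‖ * ‖x‖ * ‖star w‖ := norm_mul₃_le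
    _ ≤ 1 * ‖x‖ * 1 := by rw [norm_star]; gcongr
    _ = _ := by ring

lemma FreeU.proj {B : StarSubalgebra ℂ A} {w : A} (h : FreeU τ B w) {e : A}
    (he : IsStarProjection e) : IsStarProjection (w * e * star w) := by
  constructor
  · change _ * _ = _
    have : w * e * star w * (w * e * star w) = w * e * (star w * w) * e * star w := by
      simp only [mul_assoc]
    rw [this, h.star_mul, mul_one, mul_assoc w e e, he.isIdempotentElem.eq]
  · change star _ = _
    simp only [StarMul.star_mul, star_star, he.isSelfAdjoint.star_eq, mul_assoc]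

/-- compressions of a centred element by conjugated small projections are small -/
lemma FreeU.compress {B B₀ : StarSubalgebra ℂ A} {w : A} (h : FreeU τ B w) {E : ℕ → Set A}
    (hE : Dyadic τ B₀ E) (hB : B₀ ≤ B) {x : A} (hx : x ∈ B) (h0 : τ x = 0) {η : ℝ} (hη : 0 < η) :
    ∃ m₀, ∀ m ≥ m₀, ∀ e ∈ E m, ‖(w * e * star w) * x * (w * e * star w)‖ ≤ η := by
  obtain ⟨δ, hδ, H⟩ := h.small false x hx h0 η hη
  obtain ⟨m₀, hm₀⟩ := eventually_atTop.mp (tendsto_sqrt_half_pow.eventually (ge_mem_nhds hδ))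
  refine ⟨m₀, fun m hm e he => ?_⟩
  have := H e (hB (hE.mem m e he)) (hE.proj m e he).norm_le (by
    rw [hE.nrm_eq he]; exact hm₀ m hm)
  rw [(hE.proj m e he).isSelfAdjoint.star_eq] at this
  refine le_trans (le_of_eq ?_) ((h.norm_conj _).trans this)
  simp only [sgn, mul_assoc, cond_false, Bool.not_false, cond_true]

/-- A bump function equal to one on `(-∞, η]` and zero on `[2η, ∞)`. -/
noncomputable def bump (η t : ℝ) : ℝ := max 0 (min 1 (2 - t / η))

@[fun_prop] lemma continuous_bump (η : ℝ) : Continuous (bump η) := by unfold bump; fun_prop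

lemma bump_nonneg (η t : ℝ) : 0 ≤ bump η t := le_max_left _ _
lemma bump_le_one (η t : ℝ) : bump η t ≤ 1 := max_le zero_le_one (min_le_left _ _)

lemma bump_eq_one {η t : ℝ} (hη : 0 < η) (h : t ≤ η) : bump η t = 1 := by
  have : t / η ≤ 1 := (div_le_one hη).mpr h
  rw [bump, min_eq_left (by linarith), max_eq_right zero_le_one]

lemma bump_eq_zero {η t : ℝ} (hη : 0 < η) (h : 2 * η ≤ t) : bump η t = 0 := by
  have : 2 ≤ t / η := (le_div_iff₀ hη).mpr h
  exact max_eq_left ((min_le_right _ _).trans (by linarith))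

lemma bump_mul {η η' : ℝ} (hη' : 0 < η') (h : 2 * η' ≤ η) (t : ℝ) :
    bump η t * bump η' t = bump η' t := by
  rcases le_total t η with h1 | h1
  · rw [bump_eq_one (by linarith) h1, one_mul]
  · rw [bump_eq_zero hη' (by linarith), mul_zero]

/-- `φ` is the unique state killing the self-adjoint element `b` with nonnegative spectrum. -/
structure Peaked (φ : A →L[ℂ] ℂ) (b : A) : Prop where
  state : Lib.CStarPure.IsState φ
  sa : IsSelfAdjoint b
  spec : ∀ t ∈ spectrum ℝ b, 0 ≤ t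
  kill : nrm φ b = 0
  uniq : ∀ χ, Lib.CStarPure.IsState χ → nrm χ b = 0 → χ = φ

namespace Peaked
variable {φ : A →L[ℂ] ℂ} {b : A}

lemma bpure (h : Peaked φ b) : BPure ⊤ φ :=
  ⟨h.state, fun χ hχ hk x _ => by rw [h.uniq χ hχ (hk b trivial h.kill)]⟩

lemma one_sub (h : Peaked φ b) (η : ℝ) : 1 - cfc (bump η) b = cfc (fun t => 1 - bump η t) b := by
  have := h.sa
  rw [cfc_sub _ _ b, cfc_const_one ℝ b]

lemma nrm_one_sub (h : Peaked φ b) {η : ℝ} (hη : 0 < η) : nrm φ (1 - cfc (bump η) b) = 0 := by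
  have := h.sa
  have hc : Continuous fun t => (1 - bump η t) / max t η :=
    Continuous.div (by fun_prop) (by fun_prop) fun t => (lt_max_of_lt_right hη).ne'
  have e : 1 - cfc (bump η) b = cfc (fun t => (1 - bump η t) / max t η) b * b := by
    nth_rewrite 3 [← cfc_id' ℝ b]
    rw [h.one_sub, ← cfc_mul _ _ b hc.continuousOn]
    refine cfc_congr fun t _ => ?_
    rcases le_total t η with h1 | h1
    · simp [bump_eq_one hη h1]
    · simp only [max_eq_left h1]
      rw [div_mul_cancel₀ _ (by linarith)]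
  rw [e]
  exact h.state.nrm_mul_eq_zero _ h.kill

lemma norm_bump (η : ℝ) : ‖cfc (bump η) b‖ ≤ 1 := norm_cfc_le zero_le_one fun t _ => by
  rw [Real.norm_of_nonneg (bump_nonneg _ _)]; exact bump_le_one _ _

lemma bump_mul (h : Peaked φ b) {η η' : ℝ} (hη' : 0 < η') (h2 : 2 * η' ≤ η) :
    cfc (bump η) b * cfc (bump η') b = cfc (bump η') b := by
  have := h.sa
  rw [← cfc_mul _ _ b]
  exact cfc_congr fun t _ => R120.bump_mul hη' h2 t

lemma bump_mul' (h : Peaked φ b) {η η' : ℝ} (hη' : 0 < η') (h2 : 2 * η' ≤ η) :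
    cfc (bump η') b * cfc (bump η) b = cfc (bump η') b := by
  have := h.sa
  rw [← cfc_mul _ _ b]
  exact cfc_congr fun t _ => by rw [mul_comm]; exact R120.bump_mul hη' h2 t

lemma tendsto_bump (h : Peaked φ b) (hτ : IsTrace τ) (hs : Small τ ⊤) :
    Tendsto (fun n : ℕ => nrm τ (cfc (bump (1 / (n + 1))) b)) atTop (𝓝 0) := by
  have : IsClosed ((⊤ : StarSubalgebra ℂ A) : Set A) := isClosed_univ
  have := h.sa
  refine hτ.tendsto_nrm_zero hs h.bpure (fun n => norm_bump _) {b} ?_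
    (fun χ hχ hy x _ => by rw [h.uniq χ hχ (hy b rfl)])
  intro b' hb'
  rw [Set.mem_singleton_iff.mp hb']
  have t := tendsto_one_div_add_atTop_nhds_zero_nat (𝕜 := ℝ).const_mul 2
  rw [mul_zero] at t
  refine squeeze_zero (fun _ => norm_nonneg _) (fun n => ?_) t
  nth_rewrite 1 [← cfc_id' ℝ b]
  rw [← cfc_mul _ _ b]
  have hp : (0 : ℝ) < 1 / (n + 1) := by positivity
  refine norm_cfc_le (by positivity) fun t ht => ?_
  have h0 := h.spec t ht
  rw [Real.norm_of_nonneg (mul_nonneg h0 (bump_nonneg _ _))]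
  rcases le_total t (2 * (1 / (n + 1))) with h1 | h1
  · nlinarith [bump_le_one (1 / (n + 1)) t]
  · rw [bump_eq_zero hp h1, mul_zero]; positivity

/-- a state fixing an element of `α_η A` nearly kills `b` -/
lemma nrm_le (h : Peaked φ b) {η : ℝ} (hη : 0 < η) {f : A →L[ℂ] ℂ} (hf : Lib.CStarPure.IsState f)
    {y : A} (hy : nrm f (cfc (bump η) b * y - 1) = 0) : nrm f b ≤ 2 * η := by
  have := h.sa
  let g : ℝ → ℝ := fun t => max (t - 2 * η) 0
  have e1 : cfc g b * cfc (bump η) b = 0 := by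
    rw [← cfc_mul _ _ b, ← cfc_zero (R := ℝ) b]
    refine cfc_congr fun t _ => ?_
    rcases le_total t (2 * η) with h1 | h1
    · simp [g, max_eq_right (sub_nonpos.mpr h1)]
    · simp [bump_eq_zero hη h1]
  have e2 : nrm f (cfc g b) = 0 := by
    have := hf.nrm_mul_eq_zero (cfc g b) hy
    rwa [mul_sub, ← mul_assoc, e1, zero_mul, mul_one, zero_sub, hf.nrm_neg] at this
  have e3 : ‖b - cfc g b‖ ≤ 2 * η := by
    nth_rewrite 1 [← cfc_id' ℝ b]
    rw [← cfc_sub _ _ b]
    refine norm_cfc_le (by positivity) fun t ht => ?_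
    have h0 := h.spec t ht
    rcases le_total t (2 * η) with h1 | h1
    · simp only [g, max_eq_right (sub_nonpos.mpr h1), sub_zero]
      rwa [Real.norm_of_nonneg h0]
    · simp only [g, max_eq_left (sub_nonneg.mpr h1), sub_sub_cancel]
      rw [Real.norm_of_nonneg (by positivity)]
  have := hf.nrm_add_le (b - cfc g b) (cfc g b)
  rw [sub_add_cancel, e2, add_zero] at this
  exact this.trans ((hf.nrm_le_norm _).trans e3)

theorem step (h : Peaked φ b) (hτ : IsTrace τ) {B B₀ : StarSubalgebra ℂ A} [IsClosed (B : Set A)]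
    {w : A} (hw : FreeU τ B w) {E : ℕ → Set A} (hE : Dyadic τ B₀ E) (hB : B₀ ≤ B) (hb : b ∈ B)
    {η : ℝ} (hη : 0 < η) : ∃ m₀, ∀ m ≥ m₀, ∃ η' > 0, 2 * η' ≤ η ∧ ∃ r, IsStarProjection r ∧
      τ r = (((1 / 2 : ℝ) ^ m : ℝ) : ℂ) ∧ (∃ y, r = cfc (bump η) b * y) ∧
      ∃ y, 1 - r = (1 - cfc (bump η') b) * y := by
  let _ := CStarAlgebra.spectralOrder A
  have _ := CStarAlgebra.spectralOrderedRing A
  have hsa := h.sa
  set α := cfc (bump η) b with hα
  have hα0 : 0 ≤ α := cfc_nonneg fun t _ => bump_nonneg _ _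
  have hαB : α ∈ B := cfc_mem (𝕜' := ℂ) _ hb
  set a := (τ α).re with ha
  have haτ : τ α = a := Complex.ext rfl (by
    simpa using hτ.im_eq_zero (IsSelfAdjoint.of_nonneg hα0))
  have ha0 : 0 < a := by
    by_contra! hn
    have h1 := h.nrm_one_sub hη
    rw [← hα, hτ.eq_zero_of_nonneg hα0 hn, sub_zero, h.state.nrm_one] at h1
    exact one_ne_zero h1
  have ha1 : a ≤ 1 := (Complex.re_le_norm _).trans ((hτ.norm_apply_le _).trans (norm_bump _))
  obtain ⟨m₀, hm₀⟩ := hw.compress hE hB (x := α - (a : ℂ) • 1)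
    (sub_mem hαB (SMulMemClass.smul_mem _ (one_mem _))) (by simp [haτ, hτ.map_one]) (half_pos ha0)
  refine ⟨m₀, fun m hm => ?_⟩
  obtain ⟨e₀, he₀⟩ := hE.nonempty m
  have hp := hw.proj (hE.proj m e₀ he₀)
  have h1 := hm₀ m hm e₀ he₀
  set e := w * e₀ * star w with he
  set lam : ℝ := (1 / 2) ^ m with hlam
  have hl0 : 0 < lam := by positivity
  have hl1 : lam ≤ 1 := pow_le_one₀ (by norm_num) (by norm_num)
  obtain ⟨δ, hδ, H⟩ := hw.small true (e₀ - (lam : ℂ) • 1)
    (sub_mem (hB (hE.mem m e₀ he₀)) (SMulMemClass.smul_mem _ (one_mem _)))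
    (by simp [hE.tr m e₀ he₀, hτ.map_one, hlam]) (lam / 4) (by positivity)
  have t1 := (h.tendsto_bump hτ (hE.small.mono le_top)).eventually (ge_mem_nhds hδ)
  have t2 := (tendsto_one_div_add_atTop_nhds_zero_nat (𝕜 := ℝ)).eventually
    (ge_mem_nhds (half_pos hη))
  obtain ⟨n, hn1, hn2⟩ := (t1.and t2).exists
  set η' : ℝ := 1 / (n + 1) with hη'
  have hη'0 : 0 < η' := by positivity
  have h2η : 2 * η' ≤ η := by linarith
  set c := cfc (bump η') b with hc
  have hcs : star c = c := (cfc_predicate (bump η') b : IsSelfAdjoint _).star_eq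
  have hαs : star α = α := (IsSelfAdjoint.of_nonneg hα0).star_eq
  have h2 := H c (cfc_mem (𝕜' := ℂ) _ hb) (norm_bump _) hn1
  have e2 : sgn w true * (e₀ - (lam : ℂ) • 1) * sgn w (!true) = e - (lam : ℂ) • 1 := by
    simp only [sgn, cond_true, Bool.not_true, cond_false, mul_sub, sub_mul, mul_smul_comm, mul_one,
      smul_mul_assoc, hw.mul_star, he]
  rw [e2, hcs] at h2
  have hαc : α * c = c := h.bump_mul hη'0 h2η
  have hcα : c * α = c := h.bump_mul' hη'0 h2η
  have hβ1 : ‖1 - c‖ ≤ 1 := by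
    rw [hc, h.one_sub]
    refine norm_cfc_le zero_le_one fun t _ => ?_
    rw [Real.norm_of_nonneg (sub_nonneg.mpr (bump_le_one _ _))]
    linarith [bump_nonneg η' t]
  have hpos : 0 ≤ (1 - c) * c := by
    rw [hc, h.one_sub, ← cfc_mul _ _ b]
    exact cfc_nonneg fun t _ => mul_nonneg (sub_nonneg.mpr (bump_le_one _ _)) (bump_nonneg _ _)
  have hU := hτ.isUnit_of_nrm (by positivity) (lower_bound hτ hp (norm_bump _) hcs (norm_bump _)
    hβ1 hαc (fun v => by
      have := hτ.re_nonneg (star_left_conjugate_nonneg hpos v)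
      simpa only [star_mul, star_sub, star_one, hcs, mul_assoc] using this)
    (half_pos ha0) (by linarith) hl0 hl1 (fun v => by
      have e1 : star (e * v) * (α * (e * v)) = star (e * v) * (e * (α - (a : ℂ) • 1) * e) * (e * v)
          + (a : ℂ) • (star (e * v) * (e * v)) := by
        have hee := hp.isIdempotentElem.eq
        have hee' : ∀ x, e * (e * x) = e * x := fun x => by rw [← mul_assoc, hee]
        simp only [star_mul, hp.isSelfAdjoint.star_eq, mul_sub, sub_mul, mul_smul_comm,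
          smul_mul_assoc, mul_one, mul_assoc, hee', sub_add_cancel]
      have c1 := hτ.norm_conj_le (e * v) (e * (α - (a : ℂ) • 1) * e)
      have c2 := (neg_le_abs _).trans ((Complex.abs_re_le_norm _).trans c1)
      rw [e1, map_add, map_smul, ← hτ.nrm_sq', smul_eq_mul, ← Complex.ofReal_mul, Complex.add_re,
        Complex.ofReal_re]
      nlinarith [mul_le_mul_of_nonneg_right h1 (sq_nonneg (nrm τ (e * v)))]) h2)
  obtain ⟨r, hr1, hr2, hr3, hr4⟩ := exists_proj_of_isUnit hτ hp hαs (β := 1 - c)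
    (by rw [star_sub, star_one, hcs]) (by rw [mul_sub, sub_mul, hαc, hcα, mul_one, one_mul]) hU
  refine ⟨η', hη'0, h2η, r, hr1, ?_, hr3, hr4⟩
  rw [hr2, he, hτ.comm, ← mul_assoc, hw.star_mul, one_mul, hE.tr m e₀ he₀]

end Peaked

lemma nest_of_succ {r : ℕ → A} (hp : ∀ N, IsStarProjection (r N))
    (h : ∀ N, r N * r (N + 1) = r (N + 1)) : Nest r where
  proj := hp
  mul_of_le := fun {N M} hNM => by
    induction hNM with
    | refl => exact (hp N).isIdempotentElem.eq
    | step _ ih => rw [← h, ← mul_assoc, ih]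

theorem exists_nests (hτ : IsTrace τ) {φ : Bool → A →L[ℂ] ℂ} {b : Bool → A}
    (h : ∀ a, Peaked (φ a) (b a)) {B B₀ : StarSubalgebra ℂ A} [IsClosed (B : Set A)]
    {w : A} (hw : FreeU τ B w) {E : ℕ → Set A} (hE : Dyadic τ B₀ E) (hB : B₀ ≤ B)
    (hb : ∀ a, b a ∈ B) :
    ∃ σ : Bool → ℕ → A, (∀ a, Nest (σ a)) ∧ (∀ a, σ a 0 = 1) ∧ (∀ a N, φ a (σ a N) = 1) ∧
      (∀ a f, Lib.CStarPure.IsState f → (∀ N, f (σ a N) = 1) → f = φ a) ∧
      (∀ a, Tendsto (fun N => nrm τ (σ a N)) atTop (𝓝 0)) ∧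
      ∀ N, τ (σ true N) = τ (σ false N) := by
  have step : ∀ (η : {η : Bool → ℝ // ∀ a, 0 < η a}) (N : ℕ),
      ∃ (η' : {η : Bool → ℝ // ∀ a, 0 < η a}) (m : ℕ) (r : Bool → A), N ≤ m ∧ ∀ a,
        4 * η'.1 a ≤ η.1 a ∧ IsStarProjection (r a) ∧ τ (r a) = (((1 / 2 : ℝ) ^ m : ℝ) : ℂ) ∧
        (∃ y, r a = cfc (bump (η.1 a)) (b a) * y) ∧
        ∃ y, 1 - r a = (1 - cfc (bump (2 * η'.1 a)) (b a)) * y := by
    intro η N
    choose m₀ hm₀ using fun a => (h a).step hτ hw hE hB (hb a) (η.2 a)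
    have := fun a => hm₀ a (N + m₀ true + m₀ false) (by cases a <;> omega)
    choose η' h1 h2 r h3 using this
    refine ⟨⟨fun a => η' a / 2, fun a => half_pos (h1 a)⟩, N + m₀ true + m₀ false, r, by omega,
      fun a => ⟨by linarith [h2 a], (h3 a).1, (h3 a).2.1, (h3 a).2.2.1, ?_⟩⟩
    simpa only [mul_div_cancel₀ _ (two_ne_zero (α := ℝ))] using (h3 a).2.2.2
  choose F m r hm hF using step
  let η : ℕ → {η : Bool → ℝ // ∀ a, 0 < η a} := fun N =>
    Nat.rec ⟨fun _ => 1, fun _ => one_pos⟩ (fun N η => F η N) N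
  have hη : ∀ N, η (N + 1) = F (η N) N := fun N => rfl
  have hη0 : ∀ a, Tendsto (fun N => (η N).1 a) atTop (𝓝 0) := fun a => by
    refine squeeze_zero (fun N => ((η N).2 a).le) (g := fun N => (1 / 4 : ℝ) ^ N) (fun N => ?_)
      (tendsto_pow_atTop_nhds_zero_of_lt_one (by norm_num) (by norm_num))
    induction N with
    | zero => exact le_of_eq (by simp [η])
    | succ N ih =>
      have := (hF (η N) N a).1
      rw [hη, pow_succ]
      linarith
  let σ : Bool → ℕ → A := fun a N => Nat.casesOn N 1 (fun N => r (η N) N a)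
  have hσp : ∀ a N, IsStarProjection (σ a N) := fun a N => by
    cases N with
    | zero => exact IsStarProjection.one A
    | succ N => exact (hF (η N) N a).2.1
  refine ⟨σ, fun a => nest_of_succ (hσp a) fun N => ?_, fun a => rfl, fun a N => ?_,
    fun a f hf h1 => (h a).uniq f hf ?_, fun a => ?_, fun N => ?_⟩
  · cases N with
    | zero => exact one_mul _
    | succ N =>
      obtain ⟨y, hy⟩ := (hF (η N) N a).2.2.2.2
      obtain ⟨y', hy'⟩ := (hF (η (N + 1)) (N + 1) a).2.2.2.1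
      change r (η N) N a * r (η (N + 1)) (N + 1) a = r (η (N + 1)) (N + 1) a
      have e1 : star (1 - r (η N) N a) * r (η (N + 1)) (N + 1) a = 0 := by
        have hs : star (cfc (bump (2 * (F (η N) N).1 a)) (b a)) = _ :=
          (cfc_predicate _ (b a) : IsSelfAdjoint _).star_eq
        rw [hy, hy', star_mul, star_sub, star_one, hs, mul_assoc, ← mul_assoc (1 - _), sub_mul,
          hη, (h a).bump_mul ((F (η N) N).2 a) le_rfl]
        simp
      rwa [(hF (η N) N a).2.1.one_sub.isSelfAdjoint.star_eq, sub_mul, one_mul, sub_eq_zero,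
        eq_comm] at e1
  · cases N with
    | zero => exact (h a).state.map_one
    | succ N =>
      obtain ⟨y, hy⟩ := (hF (η N) N a).2.2.2.2
      have hs : star (1 - cfc (bump (2 * (F (η N) N).1 a)) (b a))
          = 1 - cfc (bump (2 * (F (η N) N).1 a)) (b a) := by
        rw [star_sub, star_one, (cfc_predicate _ (b a) : IsSelfAdjoint _).star_eq]
      have := (h a).state.map_star_mul_eq_zero
        ((h a).nrm_one_sub (mul_pos two_pos ((F (η N) N).2 a))) y
      rw [hs, ← hy, map_sub, (h a).state.map_one, sub_eq_zero] at this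
      exact this.symm
  · refine le_antisymm ?_ (nrm_nonneg _ _)
    refine ge_of_tendsto (by simpa using (hη0 a).const_mul 2) (Eventually.of_forall fun N => ?_)
    obtain ⟨y, hy⟩ := (hF (η N) N a).2.2.2.1
    refine (h a).nrm_le ((η N).2 a) hf (y := y) ?_
    rw [← hy]
    exact hf.nrm_sub_one_of_proj (hF (η N) N a).2.1 (h1 (N + 1))
  · rw [← tendsto_add_atTop_iff_nat 1]
    refine squeeze_zero (fun _ => nrm_nonneg _ _) (fun N => ?_) tendsto_sqrt_half_pow
    change nrm τ (r (η N) N a) ≤ _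
    rw [hτ.nrm_proj (hF (η N) N a).2.1, (hF (η N) N a).2.2.1, Complex.ofReal_re]
    exact Real.sqrt_le_sqrt (pow_le_pow_of_le_one (by norm_num) (by norm_num) (hm _ _))
  · cases N with
    | zero => rfl
    | succ N => exact (hF (η N) N true).2.2.1.trans (hF (η N) N false).2.2.1.symm

end Crest.Agent.R120
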