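import Crest.Agent.R120.Fin2

/-! Closing off: every pure state of the limit algebra is a peak state (written by helper10). -/

set_option autoImplicit false
open scoped ComplexOrder InnerProductSpace Topology
open Filter Set

namespace Crest.Agent.R120

open Crest.Agent.Lib.CStarPure Crest.Agent.Lib.HNN

variable {A : Type*} [CStarAlgebra A] {τ : A →L[ℂ] ℂ}

/-- The value of a pure state at a point is determined by countably many elements of its left
kernel. -/
lemma exists_countable_kernel {φ : A →L[ℂ] ℂ} (hφ : IsPure φ) (x : A) :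
    ∃ D : Set A, D.Countable ∧ (∀ d ∈ D, nrm φ d = 0) ∧
      ∀ χ, Lib.CStarPure.IsState χ → (∀ d ∈ D, nrm χ d = 0) → χ x = φ x := by
  classical
  have key : ∀ ε > 0, ∃ F : Finset {d // nrm φ d = 0},
      ∀ χ, Lib.CStarPure.IsState χ → (∀ d ∈ F, nrm χ d.1 = 0) → ‖χ x - φ x‖ ≤ ε := by
    intro ε hε
    by_contra! hn
    choose χ h1 h2 h3 using hn
    obtain ⟨U, hU⟩ := Ultrafilter.exists_le (atTop : Filter (Finset {d // nrm φ d = 0}))
    obtain ⟨g, hg, hlim⟩ := exists_state_tendsto U χ (Eventually.of_forall h1)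
    have : g = φ := hφ.eq_of_ker hg fun y hy =>
      tendsto_nhds_unique (tendsto_nrm hlim y) (tendsto_const_nhds.congr' (by
        filter_upwards [hU (eventually_ge_atTop {⟨y, hy⟩})] with F hF
        exact (h2 F ⟨y, hy⟩ (hF (Finset.mem_singleton_self _))).symm))
    have h4 := ge_of_tendsto ((hlim x).sub_const (φ x)).norm
      (Eventually.of_forall fun F => (h3 F).le)
    rw [this, sub_self, norm_zero] at h4
    linarith
  choose F hF using fun n : ℕ => key (1 / (n + 1)) (by positivity)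
  refine ⟨⋃ n, Subtype.val '' (F n : Set {d // nrm φ d = 0}),
    countable_iUnion fun n => (F n).countable_toSet.image _, ?_, fun χ hχ h => ?_⟩
  · rintro _ ⟨_, ⟨n, rfl⟩, d, -, rfl⟩
    exact d.2
  · rw [← sub_eq_zero, ← norm_le_zero_iff]
    exact ge_of_tendsto tendsto_one_div_add_atTop_nhds_zero_nat (Eventually.of_forall fun n =>
      hF n χ hχ fun d hd => h _ (mem_iUnion.mpr ⟨n, d, hd, rfl⟩))

/-- A countably generated C⋆-algebra has a countable total subset. -/
lemma exists_countable_total (Y : Set A) (hY : Y.Countable) :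
    ∃ M : Set A, M.Countable ∧ ∀ x ∈ (StarAlgebra.adjoin ℂ Y).topologicalClosure,
      x ∈ (Submodule.span ℂ M).topologicalClosure := by
  let Z : Set A := Y ∪ star '' Y
  have : Countable Z := (hY.union (hY.image _)).to_subtype
  let M : Set A := range fun l : List Z => (l.map Subtype.val).prod
  have hV : IsClosed ((Submodule.span ℂ M).topologicalClosure : Set A) :=
    Submodule.isClosed_topologicalClosure _
  have m : ∀ y ∈ M, y ∈ (Submodule.span ℂ M).topologicalClosure := fun y hy =>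
    Submodule.le_topologicalClosure _ (Submodule.subset_span hy)
  have key : ∀ z ∈ Z, ∀ w ∈ (Submodule.span ℂ M).topologicalClosure,
      z * w ∈ (Submodule.span ℂ M).topologicalClosure := by
    intro z hz w hw
    rw [← mul_one (z * w)]
    refine sandwich_closure hV ?_ hw
    rintro _ ⟨l, rfl⟩
    exact m _ ⟨⟨z, hz⟩ :: l, by simp⟩
  refine ⟨M, countable_range _, fun x hx => closure_adjoin_subset Y _ hV (m 1 ⟨[], rfl⟩)
    (fun g hg w hw => ⟨key g (.inl hg) w hw, key _ (.inr ⟨g, hg, rfl⟩) w hw⟩) hx⟩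

lemma exists_countable_support' {Λ : Type*} {X : Set A} {u : Λ → A} {T : Set Λ} {x : A}
    (hx : x ∈ alg X u T) : ∃ S : Set Λ, S.Countable ∧ S ⊆ T ∧ x ∈ alg X u S := by
  have h1 := alg_subset_closure {S | S.Countable ∧ S ⊆ T} (fun S hS S' hS' =>
    ⟨S ∪ S', ⟨Countable.union hS.1 hS'.1, union_subset hS.2 hS'.2⟩, subset_union_left,
      subset_union_right⟩) ⟨∅, countable_empty, empty_subset _⟩
    (fun β hβ => ⟨{β}, ⟨countable_singleton β, singleton_subset_iff.mpr hβ⟩, rfl⟩) hx
  obtain ⟨y, hy, hlim⟩ := mem_closure_iff_seq_limit.mp h1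
  choose S hS hyS using fun n => mem_iUnion₂.mp (hy n)
  exact ⟨⋃ n, S n, countable_iUnion fun n => (hS n).1, iUnion_subset fun n => (hS n).2,
    (isClosed_alg X u _).mem_of_tendsto hlim
      (Eventually.of_forall fun n => alg_mono (subset_iUnion S n) (hyS n))⟩

/-- A single element with the same killing states as a countable set. -/
lemma exists_peaked_of_countable {φ : A →L[ℂ] ℂ} (hφ : Lib.CStarPure.IsState φ) {D : Set A}
    (hD : D.Countable) (h0 : ∀ d ∈ D, nrm φ d = 0)
    (hu : ∀ χ, Lib.CStarPure.IsState χ → (∀ d ∈ D, nrm χ d = 0) → χ = φ) : ∃ b, Peaked φ b := by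
  let _ := CStarAlgebra.spectralOrder A
  have _ := CStarAlgebra.spectralOrderedRing A
  obtain ⟨d, hd⟩ := (hD.insert 0).exists_eq_range (insert_nonempty _ _)
  have hd0 : ∀ n, nrm φ (d n) = 0 := fun n => by
    have : d n ∈ insert 0 D := hd ▸ mem_range_self n
    rcases this with h | h
    · simp [h, nrm]
    · exact h0 _ h
  let c : ℕ → ℝ := fun n => (1 / 2) ^ n * (1 + ‖star (d n) * d n‖)⁻¹
  have hc : ∀ n, 0 < c n := fun n => by positivity
  let t : ℕ → A := fun n => c n • (star (d n) * d n)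
  have ht : ∀ n, 0 ≤ t n := fun n => smul_nonneg (hc n).le (star_mul_self_nonneg _)
  have hs : Summable t := by
    refine .of_norm_bounded summable_geometric_two fun n => ?_
    rw [norm_smul, Real.norm_of_nonneg (hc n).le, mul_assoc]
    refine mul_le_of_le_one_right (by positivity) ?_
    rw [inv_mul_le_iff₀ (by positivity)]
    linarith
  have hb : 0 ≤ ∑' n, t n := tsum_nonneg ht
  refine ⟨∑' n, t n, hφ, .of_nonneg hb, fun _ h => spectrum_nonneg_of_nonneg hb h, ?_,
    fun χ hχ h => hu χ hχ fun y hy => ?_⟩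
  · have h1 := ((continuous_nrm φ).tendsto _).comp hs.hasSum.tendsto_sum_nat
    refine tendsto_nhds_unique h1 (tendsto_const_nhds.congr fun N => ?_)
    symm
    change nrm φ (∑ n ∈ Finset.range N, t n) = 0
    induction N with
    | zero => simp [nrm]
    | succ N ih =>
      refine le_antisymm ?_ (nrm_nonneg _ _)
      rw [Finset.sum_range_succ]
      refine (hφ.nrm_add_le _ _).trans ?_
      rw [ih, zero_add]
      simp only [t]
      rw [← Complex.coe_smul, hφ.nrm_smul, hφ.nrm_mul_eq_zero _ (hd0 N), mul_zero]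
  · obtain ⟨n, rfl⟩ : y ∈ range d := hd ▸ mem_insert_of_mem _ hy
    have h1 := hχ.re_mono (hs.le_tsum n fun m _ => ht m)
    have h2 : χ (∑' n, t n) = 0 := by simpa using hχ.map_mul_eq_zero h 1
    rw [h2, Complex.zero_re] at h1
    simp only [t] at h1
    rw [← Complex.coe_smul, map_smul, smul_eq_mul, Complex.re_ofReal_mul, ← hχ.nrm_sq] at h1
    have h3 : nrm χ (d n) ^ 2 ≤ 0 := by
      by_contra! hn
      linarith [mul_pos (hc n) hn]
    exact pow_eq_zero_iff two_ne_zero |>.mp (le_antisymm h3 (sq_nonneg _))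

theorem exists_peaked {Λ : Type*} [LinearOrder Λ] [WellFoundedLT Λ] {X : Set A} {u : Λ → A}
    {ρ : Λ → Bool → ℕ → A} (h : Sys τ X u ρ) (hX : X.Countable) (htop : alg X u univ = ⊤)
    {φ : A →L[ℂ] ℂ} (hφ : IsPure φ) : ∃ b, Peaked φ b := by
  have hsupp : ∀ x : A, ∃ S : Set Λ, S.Countable ∧ x ∈ alg X u S := fun x =>
    exists_countable_support (T := univ) (by rw [htop]; trivial)
  choose supp hsupp1 hsupp2 using hsupp
  choose supp' hs1 hs2 hs3 using fun α a N => exists_countable_support' ((h.valid α).nests.mem a N)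
  choose K hK1 hK2 hK3 using exists_countable_kernel hφ
  have step : ∀ S : {S : Set Λ // S.Countable}, ∃ (S' : {S : Set Λ // S.Countable}) (D : Set A),
      S.1 ⊆ S'.1 ∧ D.Countable ∧ (∀ d ∈ D, nrm φ d = 0 ∧ d ∈ alg X u S'.1) ∧
      (∀ α ∈ S.1, ∀ a N, ρ α a N ∈ alg X u (S'.1 ∩ Iio α)) ∧
      ∀ χ, Lib.CStarPure.IsState χ → (∀ d ∈ D, nrm χ d = 0) → ∀ x ∈ alg X u S.1, χ x = φ x := by
    rintro ⟨S, hS⟩
    obtain ⟨M, hM, hMt⟩ := exists_countable_total (X ∪ u '' S) (hX.union (hS.image _))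
    have hD : (⋃ x ∈ M, K x).Countable := hM.biUnion fun x _ => hK1 x
    refine ⟨⟨S ∪ (⋃ d ∈ ⋃ x ∈ M, K x, supp d) ∪ ⋃ α ∈ S, ⋃ a, ⋃ N, supp' α a N,
      (hS.union (hD.biUnion fun d _ => hsupp1 d)).union (hS.biUnion fun α _ =>
        countable_iUnion fun a => countable_iUnion fun N => hs1 α a N)⟩, ⋃ x ∈ M, K x,
      subset_union_left.trans subset_union_left, hD, fun d hd => ⟨?_, ?_⟩, fun α hα a N => ?_,
      fun χ hχ hk x hx => ?_⟩
    · obtain ⟨x, -, hx⟩ := mem_iUnion₂.mp hd
      exact hK2 x d hx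
    · exact alg_mono (fun β hβ => .inl (.inr (mem_iUnion₂.mpr ⟨d, hd, hβ⟩))) (hsupp2 d)
    · refine alg_mono (subset_inter (fun β hβ => .inr (mem_iUnion₂.mpr ⟨α, hα, ?_⟩)) (hs2 α a N))
        (hs3 α a N)
      exact mem_iUnion₂.mpr ⟨a, N, hβ⟩
    · have : (Submodule.span ℂ M).topologicalClosure ≤ (χ - φ).ker :=
        Submodule.topologicalClosure_minimal _ (Submodule.span_le.mpr fun y hy => by
          change χ y - φ y = 0
          rw [hK3 y χ hχ fun d hd => hk d (mem_iUnion₂.mpr ⟨y, hy, hd⟩), sub_self])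
          (ContinuousLinearMap.isClosed_ker _)
      exact sub_eq_zero.mp (this (hMt x hx))
  choose F D h1 h2 h3 h4 h5 using step
  let S : ℕ → {S : Set Λ // S.Countable} := fun n => F^[n] ⟨∅, countable_empty⟩
  have hS : ∀ n, S (n + 1) = F (S n) := fun n => Function.iterate_succ_apply' _ _ _
  have hmono : Monotone fun n => (S n).1 := monotone_nat_of_le_succ fun n => by
    rw [hS]; exact h1 _
  have hsub : ∀ n, (F (S n)).1 ⊆ ⋃ n, (S n).1 := fun n => by
    rw [← hS]; exact subset_iUnion (fun n => (S n).1) (n + 1)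
  have hclo : Clo X u ρ (⋃ n, (S n).1) := fun α hα a N => by
    obtain ⟨n, hn⟩ := mem_iUnion.mp hα
    exact alg_mono (inter_subset_inter_left _ (hsub n)) (h4 _ α hn a N)
  have hdet : ∀ χ, Lib.CStarPure.IsState χ → (∀ d ∈ ⋃ n, D (S n), nrm χ d = 0) →
      ∀ x ∈ alg X u (⋃ n, (S n).1), χ x = φ x := by
    intro χ hχ hk x hx
    have := alg_subset_closure (range fun n => (S n).1)
      (directedOn_range.mpr hmono.directed_le) (range_nonempty _) (by rw [sUnion_range]) hx
    refine closure_minimal (t := {x | χ x = φ x}) ?_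
      (isClosed_eq χ.continuous φ.continuous) this
    refine iUnion₂_subset ?_
    rintro _ ⟨n, rfl⟩ y hy
    exact h5 _ χ hχ (fun d hd => hk d (mem_iUnion.mpr ⟨n, hd⟩)) y hy
  have hpure : BPure (alg X u (⋃ n, (S n).1)) φ := ⟨hφ.1, fun χ hχ hk => hdet χ hχ fun d hd => by
    obtain ⟨n, hn⟩ := mem_iUnion.mp hd
    exact hk d (alg_mono (hsub n) (h3 _ d hn).2) (h3 _ d hn).1⟩
  refine exists_peaked_of_countable hφ.1 (countable_iUnion fun n => h2 (S n)) (fun d hd => ?_)
    fun χ hχ hk => ?_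
  · obtain ⟨n, hn⟩ := mem_iUnion.mp hd
    exact (h3 _ d hn).1
  · ext x
    exact (h.ext_univ hclo).eqOn hpure hχ (hdet χ hχ hk) (by rw [htop]; trivial)

end Crest.Agent.R120
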