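import Crest.Agent.R120.Fin3
import Crest.Prelude.Def_CStarRep

/-! The final deduction from a transfinite system with bookkeeping (written by helper10). -/

set_option autoImplicit false
open scoped ComplexOrder InnerProductSpace Topology
open Filter Set

namespace Crest.Agent.R120

open Crest.Agent.Lib.CStarPure Crest.Agent.Lib.HNN

variable {A : Type*} [CStarAlgebra A] {τ : A →L[ℂ] ℂ}

/-- The trivial nests. -/
noncomputable def triv (A : Type*) [CStarAlgebra A] : Bool → ℕ → A :=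
  fun _ N => if N = 0 then 1 else 0

lemma triv_eventually (a : Bool) : ∀ᶠ N in atTop, triv A a N = 0 :=
  (eventually_gt_atTop 0).mono fun N hN => by simp [triv, hN.ne']

lemma valid_triv (B : StarSubalgebra ℂ A) : Valid τ B (triv A) where
  nests :=
    { nest := fun a => nest_of_succ (fun N => by
        unfold triv; split_ifs
        exacts [IsStarProjection.one A, IsStarProjection.zero A]) fun N => by simp [triv]
      zero := fun a => by simp [triv]
      mem := fun a N => by unfold triv; split_ifs; exacts [one_mem _, zero_mem _] }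
  pk := fun a x _ => ⟨0, tendsto_const_nhds.congr' ((triv_eventually (A := A) a).mono fun N hN => by
    simp [hN])⟩
  inq := fun a x _ => tendsto_const_nhds.congr' ((triv_eventually (A := A) a).mono fun N hN => by
    simp [hN])
  small := fun a => tendsto_const_nhds.congr' ((triv_eventually (A := A) a).mono fun N hN => by
    simp [hN, nrm])
  eq := fun N => rfl

/-- The bookkeeping property. -/
def Book {Λ : Type*} [LinearOrder Λ] (τ : A →L[ℂ] ℂ) (X : Set A) (u : Λ → A)
    (ρ : Λ → Bool → ℕ → A) : Prop :=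
  ∀ (σ : Bool → ℕ → A) (T : Set Λ), T.Countable → ∃ α, T ⊆ Iio α ∧
    (∀ a N, σ a N ∈ alg X u (Iio α)) ∧ (Valid τ (alg X u (Iio α)) σ → ρ α = σ)

section
variable {Λ : Type*} [LinearOrder Λ] [WellFoundedLT Λ] {X : Set A} {u : Λ → A}
  {ρ : Λ → Bool → ℕ → A} (h : Sys τ X u ρ) (htop : alg X u univ = ⊤) (hbk : Book τ X u ρ)
include h htop hbk

omit [WellFoundedLT Λ] in
lemma exists_freeU (b : Bool → A) :
    ∃ (T : Set Λ) (w : A), FreeU τ (alg X u T) w ∧ ∀ a, b a ∈ alg X u T := by
  choose S hS1 hS2 using fun a => exists_countable_support (X := X) (u := u) (T := univ) (x := b a)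
    (by rw [htop]; trivial)
  obtain ⟨β, h1, -, h2⟩ := hbk (triv A) (⋃ a, S a) (countable_iUnion hS1)
  have h3 := h2 (valid_triv _)
  have st : Step τ (alg X u (Iio β)) (ρ β) (sgn (u β)) (alg X u (insert β (Iio β))) :=
    ⟨h.tr, (h.valid β).nests, (h.valid β).pk, h.letter β, h.free β, gen_insert _ _,
      isClosed_alg _ _ _⟩
  refine ⟨Iio β, u β, ⟨(h.letter β).mul_not true, (h.letter β).mul_not false,
    fun a x hx h0 η hη => ?_⟩, fun a => alg_mono ((subset_iUnion S a).trans h1) (hS2 a)⟩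
  refine st.free_small (fun a => by simp [h3, triv]) (Word.cons hx (.inr ?_) (.one _)) hη
  rintro _ ⟨N, rfl⟩
  rw [h3, triv]
  split_ifs <;> simp [h0]

variable {E : ℕ → Set A} (hE : Dyadic τ (alg X u ∅) E)
include hE

omit [WellFoundedLT Λ] in
theorem simple (I : TwoSidedIdeal A) : I = ⊥ ∨ I = ⊤ := by
  by_cases hI : I = ⊥
  · exact .inl hI
  right
  obtain ⟨y, hy, hy0⟩ : ∃ y ∈ I, y ≠ 0 := by
    by_contra! hn
    exact hI (eq_bot_iff.mpr fun y hy => by simpa using hn y hy)
  obtain ⟨T, w, hw, hb⟩ := exists_freeU h htop hbk (fun _ => star y * y)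
  set a : ℝ := nrm τ y ^ 2 with ha
  have ha0 : 0 < a := pow_pos ((nrm_nonneg _ _).lt_of_ne' fun h0 => hy0 (h.tr.faithful y h0)) 2
  obtain ⟨m, hm⟩ := hw.compress hE (alg_mono (empty_subset _)) (x := star y * y - (a : ℂ) • 1)
    (sub_mem (hb true) (SMulMemClass.smul_mem _ (one_mem _)))
    (by simp [ha, ← h.tr.nrm_sq', h.tr.map_one]) (half_pos ha0)
  have h1 : ∀ e ∈ E m, e ∈ I := by
    intro e₀ he₀
    have h2 := hm m le_rfl e₀ he₀
    have hp := hw.proj (hE.proj m e₀ he₀)
    set e := w * e₀ * star w with he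
    have hee := hp.isIdempotentElem.eq
    have ha' : (a : ℂ) ≠ 0 := by exact_mod_cast ha0.ne'
    have hu : IsUnit (1 - (-(a : ℂ)⁻¹) • (e * (star y * y - (a : ℂ) • 1) * e)) := by
      refine isUnit_one_sub_of_norm_lt_one ?_
      rw [norm_smul, norm_neg, norm_inv, Complex.norm_real, Real.norm_of_nonneg ha0.le,
        inv_mul_lt_iff₀ ha0]
      linarith
    obtain ⟨U, hU⟩ := hu
    have h3 : (U : A) * e = ((a : ℂ)⁻¹ • (e * star y)) * y * e := by
      rw [hU, neg_smul, sub_neg_eq_add, add_mul, one_mul, smul_mul_assoc, mul_assoc _ e e, hee,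
        mul_sub, sub_mul, mul_smul_comm, mul_one, smul_mul_assoc, hee, smul_sub, smul_smul,
        inv_mul_cancel₀ ha', one_smul, add_sub_cancel]
      simp only [smul_mul_assoc, mul_assoc]
    have h4 : e ∈ I := by
      rw [← U.inv_mul_cancel_left e, h3]
      exact I.mul_mem_left _ _ (I.mul_mem_right _ _ (I.mul_mem_left _ _ hy))
    have h5 : e₀ = star w * e * w := by
      rw [he]
      simp only [mul_assoc, hw.star_mul, mul_one]
      rw [← mul_assoc, hw.star_mul, one_mul]
    rw [h5]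
    exact I.mul_mem_right _ _ (I.mul_mem_left _ _ h4)
  have h2 : ∀ k n, n + k = m → ∀ e ∈ E n, e ∈ I := by
    intro k
    induction k with
    | zero => intro n hn; obtain rfl : n = m := hn; exact h1
    | succ k ih =>
      intro n hn e he
      obtain ⟨e₁, h₁, e₂, h₂, rfl⟩ := hE.split n e he
      exact I.add_mem (ih (n + 1) (by omega) _ h₁) (ih (n + 1) (by omega) _ h₂)
  exact I.one_mem_iff.mp (h2 m 0 (by simp) 1 hE.one)

/-- Every pure state is a vector state of every irreducible representation. -/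
theorem exists_vector (hX : X.Countable) {φ : A →L[ℂ] ℂ} (hφ : IsPure φ) {H : Type*}
    [NormedAddCommGroup H] [InnerProductSpace ℂ H] [CompleteSpace H]
    {π : A →⋆ₐ[ℂ] (H →L[ℂ] H)} (hπ : Irred π) {ξ : H} (hξ : ‖ξ‖ = 1) :
    ∃ η : H, ‖η‖ = 1 ∧ vecFun π η η = φ := by
  let ψ : Bool → A →L[ℂ] ℂ := fun a => cond a φ (vecFun π ξ ξ)
  have hψ : ∀ a, IsPure (ψ a) := fun a => by
    cases a
    · exact hπ.isPure hξ
    · exact hφ
  choose b hb using fun a => exists_peaked h hX htop (hψ a)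
  obtain ⟨T, w, hw, hbT⟩ := exists_freeU h htop hbk b
  obtain ⟨σ, s1, s2, s3, s4, s5, s6⟩ :=
    exists_nests h.tr hb hw hE (alg_mono (empty_subset _)) hbT
  have hpk : ∀ a x, Tendsto (fun N => ‖σ a N * (x - ψ a x • 1) * σ a N‖) atTop (𝓝 0) :=
    fun a x => (s1 a).tendsto_of_peak fun f hf h1 => by
      rw [s4 a f hf h1]; simp [(hψ a).1.map_one]
  obtain ⟨α, -, hmem, hval⟩ := hbk σ ∅ countable_empty
  have hn : Nests (alg X u (Iio α)) σ := ⟨s1, s2, hmem⟩
  by_cases hin : Inq (alg X u (Iio α)) σ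
  · have hL := h.letter α
    rw [hval ⟨hn, fun a x _ => ⟨_, hpk a x⟩, hin, s5, s6⟩] at hL
    have h1 : u α * star (u α) = 1 := hL.mul_not true
    have hη : ‖π (star (u α)) ξ‖ = 1 := norm_eq_one_of_inner (by
      rw [inner_rep_rep, star_star, h1]; simp [hξ])
    refine ⟨π (star (u α)) ξ, hη, s4 true _ (isState_vecFun π hη) fun N => ?_⟩
    have h2 : u α * σ true N = σ false N * u α := hL.inter true N
    rw [vecFun_apply, ← rep_mul_apply, inner_rep_rep, star_star, ← mul_assoc, h2, mul_assoc, h1,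
      mul_one]
    exact s3 false N
  · obtain ⟨x, hx⟩ : ∃ x, ¬ TZ σ true x false := by
      by_contra! hc
      refine hin fun a x _ => ?_
      cases a
      · simpa [TZ] using (hc (star x)).star hn
      · exact hc x
    obtain ⟨η, hη, hk⟩ := exists_unit_killed π (π x ξ) (l := atTop) (σ true)
      (fun N => ((s1 true).proj N).norm_le) (range fun N => 1 - σ true N) (by
        rintro _ ⟨N, rfl⟩
        refine tendsto_const_nhds.congr' ((eventually_ge_atTop N).mono fun M hM => ?_)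
        simp [sub_mul, (s1 true).mul_of_le hM]) (fun ht => hx (by
        have ht' : Tendsto (fun M => ψ false (star x * σ true M * x)) atTop (𝓝 0) :=
          ht.congr fun M => by
            rw [← rep_mul_apply, inner_rep_rep, ← mul_assoc]; rfl
        rw [TZ, Metric.tendsto_nhds]
        intro ε hε
        obtain ⟨M, hM⟩ := ((tendsto_zero_iff_norm_tendsto_zero.mp ht').eventually
          (gt_mem_nhds (by positivity : 0 < ε ^ 2 / 2))).exists
        filter_upwards [(hpk false (star x * σ true M * x)).eventually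
          (gt_mem_nhds (by positivity : 0 < ε ^ 2 / 2)), eventually_ge_atTop M] with N hN hMN
        rw [dist_zero_right, norm_norm]
        refine (norm_compress_le (s1 true) _ (s1 false) hMN le_rfl x).trans_lt ?_
        have hp := (s1 false).proj N
        have hq := (s1 true).proj M
        set c := ψ false (star x * σ true M * x)
        have e : star (σ true M * x * σ false N) * (σ true M * x * σ false N) =
            σ false N * (star x * σ true M * x - c • 1) * σ false N + c • σ false N := by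
          rw [mul_sub, sub_mul, mul_smul_comm, mul_one, smul_mul_assoc, hp.isIdempotentElem.eq,
            sub_add_cancel]
          simp only [star_mul, hp.isSelfAdjoint.star_eq, hq.isSelfAdjoint.star_eq, mul_assoc]
          rw [← mul_assoc (σ true M) (σ true M), hq.isIdempotentElem.eq]
        have e2 : ‖σ true M * x * σ false N‖ ^ 2 < ε ^ 2 := by
          rw [sq, ← CStarRing.norm_star_mul_self, e]
          refine (norm_add_le _ _).trans_lt ?_
          rw [norm_smul]
          nlinarith [hp.norm_le, norm_nonneg c]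
        exact lt_of_pow_lt_pow_left₀ 2 hε.le e2))
    refine ⟨η, hη, s4 true _ (isState_vecFun π hη) fun N => ?_⟩
    have := hk _ ⟨N, rfl⟩
    rw [map_sub, map_one, sub_apply, one_apply_eq_self, sub_eq_zero] at this
    rw [vecFun_apply, ← this]
    simp [hη]

end

lemma Dyadic.not_finiteDimensional (hτ : IsTrace τ) {B : StarSubalgebra ℂ A} {E : ℕ → Set A}
    (hE : Dyadic τ B E) : ¬ FiniteDimensional ℂ A := by
  intro hfd
  obtain ⟨H, _, _, _, π, ξ, -, -, h⟩ := hτ.toIsState.exists_gns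
  obtain ⟨K, -, hK⟩ := LinearMap.exists_antilipschitzWith (orb π ξ : A →ₗ[ℂ] H) (by
    rw [LinearMap.ker_eq_bot']
    intro x hx
    refine hτ.faithful x ?_
    rw [nrm_eq_of_gns h, norm_eq_zero]
    exact hx)
  have t := tendsto_sqrt_half_pow.const_mul (K : ℝ)
  rw [mul_zero] at t
  obtain ⟨m, hm⟩ := (t.eventually (gt_mem_nhds one_pos)).exists
  obtain ⟨e, he⟩ := hE.nonempty m
  have h1 : ‖e‖ ≤ K * ‖π e ξ‖ := by simpa using hK.le_mul_dist e 0
  rw [← nrm_eq_of_gns h, hE.nrm_eq he] at h1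
  have hp := hE.proj m e he
  have h2 : ‖e‖ * ‖e‖ = ‖e‖ := by
    rw [← CStarRing.norm_star_mul_self, hp.isSelfAdjoint.star_eq, hp.isIdempotentElem.eq]
  have h3 : e ≠ 0 := fun h0 => by
    have := hE.tr m e he
    rw [h0, map_zero] at this
    have h4 : ((1 / 2 : ℝ) ^ m) = 0 := by exact_mod_cast this.symm
    exact absurd h4 (by positivity)
  have h4 : 0 < ‖e‖ := norm_pos_iff.mpr h3
  nlinarith

/-- An irreducible representation in the sense of the statement is unital. -/
lemma exists_unital {H : Type*} [NormedAddCommGroup H] [InnerProductSpace ℂ H] [CompleteSpace H]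
    {π : A →⋆ₙₐ[ℂ] (H →L[ℂ] H)} (hπ : Crest.OpAlg.IsIrreducibleRep π) :
    ∃ (π' : A →⋆ₐ[ℂ] (H →L[ℂ] H)) (ξ : H), (∀ a, π' a = π a) ∧ Irred π' ∧ ‖ξ‖ = 1 := by
  have h1 : π 1 = 1 := by
    rcases hπ.2 (π 1).ker (ContinuousLinearMap.isClosed_ker _) (fun a v hv => by
      have hv' : π 1 v = 0 := hv
      change π 1 (π a v) = 0
      rw [← mul_apply_eq_comp, ← map_mul, one_mul, ← mul_one a, map_mul, mul_apply_eq_comp, hv',
        map_zero]) with h | h
    · ext v
      have : π 1 v - v ∈ (π 1).ker := by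
        change π 1 (π 1 v - v) = 0
        rw [map_sub, ← mul_apply_eq_comp, ← map_mul, one_mul, sub_self]
      rw [h] at this
      exact sub_eq_zero.mp this
    · refine (hπ.1 ?_).elim
      ext a v
      have : v ∈ (π 1).ker := by rw [h]; trivial
      have hv' : π 1 v = 0 := this
      rw [← mul_one a, map_mul, mul_apply_eq_comp, hv', map_zero]
      rfl
  obtain ⟨v, hv⟩ : ∃ v : H, v ≠ 0 := by
    by_contra! hn
    refine hπ.1 ?_
    ext a v
    rw [hn (π a v)]
    rfl
  have hpos : 0 < ‖v‖ := norm_pos_iff.mpr hv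
  exact ⟨{ π with
      map_one' := h1
      commutes' := fun c => by simp [Algebra.algebraMap_eq_smul_one, h1] },
    ((‖v‖⁻¹ : ℝ) : ℂ) • v, fun _ => rfl, hπ.2, by simp [norm_smul, hpos.ne']⟩

theorem final_of_sys
    (hex : ∃ (A : Type) (_ : CStarAlgebra A) (Λ : Type) (_ : LinearOrder Λ) (_ : WellFoundedLT Λ)
      (τ : A →L[ℂ] ℂ) (X : Set A) (u : Λ → A) (ρ : Λ → Bool → ℕ → A),
      Sys τ X u ρ ∧ X.Countable ∧ alg X u univ = ⊤ ∧
      (∃ g : Multiplicative (ℕ →₀ ZMod 2) →* A, (∀ x, star (g x) = g x) ∧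
        (∀ x, x ≠ 1 → τ (g x) = 0) ∧ ∀ x, g x ∈ alg X u ∅) ∧
      ∀ (σ : Bool → ℕ → A) (T : Set Λ), T.Countable → ∃ α, T ⊆ Iio α ∧
        (∀ a N, σ a N ∈ alg X u (Iio α)) ∧ (Valid τ (alg X u (Iio α)) σ → ρ α = σ)) :
    ∃ (A : Type) (_ : CStarAlgebra A),
      ¬ FiniteDimensional ℂ A ∧
      (∀ I : TwoSidedIdeal A, IsClosed (I : Set A) → I = ⊥ ∨ I = ⊤) ∧
      (∃ τ : A →ₗ[ℂ] ℂ, Crest.OpAlg.IsFaithfulTracialState τ) ∧
      ∀ (H₁ : Type) [NormedAddCommGroup H₁] [InnerProductSpace ℂ H₁] [CompleteSpace H₁]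
        (H₂ : Type) [NormedAddCommGroup H₂] [InnerProductSpace ℂ H₂] [CompleteSpace H₂]
        (π₁ : A →⋆ₙₐ[ℂ] (H₁ →L[ℂ] H₁)) (π₂ : A →⋆ₙₐ[ℂ] (H₂ →L[ℂ] H₂)),
        Crest.OpAlg.IsIrreducibleRep π₁ → Crest.OpAlg.IsIrreducibleRep π₂ →
          Crest.OpAlg.AreUnitarilyEquivalent π₁ π₂ := by
  obtain ⟨A, _, Λ, _, _, τ, X, u, ρ, h, hX, htop, ⟨g, g1, g2, g3⟩, hbk⟩ := hex
  obtain ⟨E, hE⟩ := exists_dyadic h.tr.toIsState _ g g1 g2 g3
  refine ⟨A, inferInstance, hE.not_finiteDimensional h.tr, fun I _ => simple h htop hbk hE I,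
    ⟨τ, h.tr.map_one, fun a => ?_, fun a ha => h.tr.faithful a ((h.tr.nrm_eq_zero_iff a).mpr ha),
      h.tr.comm⟩, fun H₁ _ _ _ H₂ _ _ _ π₁ π₂ h₁ h₂ => ?_⟩
  · have := Complex.le_def.mp (h.tr.star_mul_self_nonneg a)
    exact ⟨this.2.symm, this.1⟩
  · obtain ⟨π₁', ξ₁, e₁, i₁, n₁⟩ := exists_unital h₁
    obtain ⟨π₂', ξ₂, e₂, i₂, n₂⟩ := exists_unital h₂
    obtain ⟨η, hη, he⟩ := exists_vector h htop hbk hE hX (i₁.isPure n₁) i₂ n₂
    obtain ⟨U, hU⟩ := exists_unitary π₁' π₂' (i₁.denseRange n₁) (i₂.denseRange hη)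
      (fun a => by rw [← vecFun_apply, ← vecFun_apply, he])
    exact ⟨U, fun a v => by rw [← e₁, ← e₂, hU]⟩

end Crest.Agent.R120
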