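import Crest.Agent.R120.Trace

/-! Alternating words, normal forms and the ping-pong estimate. -/

set_option autoImplicit false
open scoped ComplexOrder InnerProductSpace ComplexConjugate Topology
open Filter

namespace Crest.Agent.R120

section core
variable {R : Type*} [Monoid R] {X Y : Set R}

lemma Core.append {c c' x : R} (hc : Core X Y c) (hx : x ∈ X) (hc' : Core X Y c') :
    Core X Y (c * x * c') := by
  induction hc with
  | single hy => exact .cons hy hx hc'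
  | @cons y x' c'' hy hx' _ ih =>
    have := Core.cons hy hx' ih
    simpa only [mul_assoc] using this

lemma Core.mono {X' Y' : Set R} {c : R} (hc : Core X Y c) (hX : X ⊆ X') (hY : Y ⊆ Y') :
    Core X' Y' c := by
  induction hc with
  | single hy => exact .single (hY hy)
  | cons hy hx _ ih => exact .cons (hY hy) (hX hx) ih

lemma Core.snoc_cases {c : R} (hc : Core X Y c) :
    c ∈ Y ∨ ∃ c' x y, Core X Y c' ∧ x ∈ X ∧ y ∈ Y ∧ c = c' * x * y := by
  induction hc with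
  | single hy => exact .inl hy
  | @cons y x c hy hx _ ih =>
    rcases ih with h | ⟨c', x', y', h1, h2, h3, rfl⟩
    · exact .inr ⟨y, x, c, .single hy, hx, h, rfl⟩
    · exact .inr ⟨y * x * c', x', y', .cons hy hx h1, h2, h3, by simp only [mul_assoc]⟩

lemma Core.mem {S : Type*} [SetLike S R] [MulMemClass S R] {N : S} {c : R} (hc : Core X Y c)
    (hX : X ⊆ N) (hY : Y ⊆ N) : c ∈ N := by
  induction hc with
  | single hy => exact hY hy
  | cons hy hx _ ih => exact mul_mem (mul_mem (hY hy) (hX hx)) ih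

lemma Core.star [StarMul R] {c : R} (hc : Core X Y c) (hX : ∀ x ∈ X, star x ∈ X)
    (hY : ∀ y ∈ Y, star y ∈ Y) : Core X Y (star c) := by
  induction hc with
  | single hy => exact .single (hY _ hy)
  | cons hy hx _ ih =>
    have := ih.append (hX _ hx) (.single (hY _ hy))
    simpa only [star_mul, mul_assoc] using this

lemma Core.map {R' F : Type*} [Monoid R'] [FunLike F R R'] [MulHomClass F R R'] (f : F) {c : R}
    (hc : Core X Y c) : Core (f '' X) (f '' Y) (f c) := by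
  induction hc with
  | single hy => exact .single ⟨_, hy, rfl⟩
  | cons hy hx _ ih =>
    rw [map_mul, map_mul]
    exact .cons ⟨_, hy, rfl⟩ ⟨_, hx, rfl⟩ ih

lemma Core.of_image {R' F : Type*} [Monoid R'] [FunLike F R R'] [MulHomClass F R R'] (f : F)
    {c : R'} (hc : Core (f '' X) (f '' Y) c) : ∃ c', Core X Y c' ∧ c = f c' := by
  induction hc with
  | single hy => obtain ⟨y, hy, rfl⟩ := hy; exact ⟨y, .single hy, rfl⟩
  | cons hy hx _ ih =>
    obtain ⟨y, hy, rfl⟩ := hy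
    obtain ⟨x, hx, rfl⟩ := hx
    obtain ⟨c', hc', rfl⟩ := ih
    exact ⟨_, .cons hy hx hc', by simp only [map_mul]⟩

end core

variable {A : Type*} [CStarAlgebra A] {τ : A →L[ℂ] ℂ}

/-- reduced words -/
def Red (B : StarSubalgebra ℂ A) (X Y : Set A) : Set A :=
  {w | ∃ a ∈ B, ∃ b ∈ B, ∃ c, Core X Y c ∧ w = a * c * b}

/-- the algebraic span of `B` and the reduced words -/
noncomputable def NF (B : StarSubalgebra ℂ A) (X Y : Set A) : Submodule ℂ A :=
  Subalgebra.toSubmodule B.toSubalgebra ⊔ Submodule.span ℂ (Red B X Y)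

lemma mem_NF {B : StarSubalgebra ℂ A} {X Y : Set A} {z : A} :
    z ∈ NF B X Y ↔ ∃ d ∈ B, z - d ∈ Submodule.span ℂ (Red B X Y) := by
  rw [NF, Submodule.mem_sup]
  constructor
  · rintro ⟨d, hd, v, hv, rfl⟩
    exact ⟨d, hd, by simpa using hv⟩
  · rintro ⟨d, hd, h⟩
    exact ⟨d, hd, _, h, by simp⟩

lemma NF.of_mem {B : StarSubalgebra ℂ A} {X Y : Set A} {z : A} (hz : z ∈ B) : z ∈ NF B X Y :=
  Submodule.mem_sup_left hz

lemma NF.of_red {B : StarSubalgebra ℂ A} {X Y : Set A} {a b c : A} (ha : a ∈ B) (hb : b ∈ B)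
    (hc : Core X Y c) : a * c * b ∈ NF B X Y :=
  Submodule.mem_sup_right (Submodule.subset_span ⟨a, ha, b, hb, c, hc, rfl⟩)

lemma NF.induction {B : StarSubalgebra ℂ A} {X Y : Set A} (V : Submodule ℂ A)
    (h1 : ∀ a ∈ B, a ∈ V) (h2 : ∀ a ∈ B, ∀ b ∈ B, ∀ c, Core X Y c → a * c * b ∈ V) :
    NF B X Y ≤ V :=
  sup_le (fun a ha => h1 a ha) (Submodule.span_le.2 (by
    rintro _ ⟨a, ha, b, hb, c, hc, rfl⟩
    exact h2 a ha b hb c hc))

/-- algebraic hypotheses for the normal form -/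
structure PreSys (D B : StarSubalgebra ℂ A) (X Y : Set A) : Prop where
  le : D ≤ B
  sub : X ⊆ B
  dec : ∀ a ∈ B, ∃ d ∈ D, a - d ∈ X
  ystar : ∀ y ∈ Y, star y ∈ Y
  ymul : ∀ y ∈ Y, ∀ d ∈ D, ∀ y' ∈ Y, ∃ d' ∈ D, y * d * y' - d' ∈ Y ∨ y * d * y' = d'

section NF
variable {D B : StarSubalgebra ℂ A} {X Y : Set A}

lemma NF.mul_mem_B {a v : A} (ha : a ∈ B) (hv : v ∈ NF B X Y) : a * v ∈ NF B X Y :=
  NF.induction (V := (NF B X Y).comap (LinearMap.mulLeft ℂ a))
    (fun _ hb => NF.of_mem (mul_mem ha hb))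
    (fun a' ha' b hb c hc => by
      have := NF.of_red (mul_mem ha ha') hb hc
      simpa [mul_assoc] using this) hv

lemma PreSys.mul_mem_Y (h : PreSys D B X Y) {y v : A} (hy : y ∈ Y) (hv : v ∈ NF B X Y) :
    y * v ∈ NF B X Y := by
  refine NF.induction (V := (NF B X Y).comap (LinearMap.mulLeft ℂ y)) (fun b hb => ?_)
    (fun a ha b hb c hc => ?_) hv
  · simpa using NF.of_red (one_mem B) hb (.single hy)
  · obtain ⟨d, hd, hx⟩ := h.dec a ha
    have e : y * (a * c * b) = 1 * (y * (a - d) * c) * b + y * d * c * b := by noncomm_ring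
    simp only [Submodule.mem_comap, LinearMap.mulLeft_apply]
    rw [e]
    refine add_mem (NF.of_red (one_mem B) hb (.cons hy hx hc)) ?_
    cases hc with
    | single hy' =>
      obtain ⟨d', hd', h1 | h1⟩ := h.ymul y hy d hd c hy'
      · have e : y * d * c * b = 1 * (y * d * c - d') * b + d' * b := by noncomm_ring
        rw [e]
        exact add_mem (NF.of_red (one_mem B) hb (.single h1)) (NF.of_mem (mul_mem (h.le hd') hb))
      · rw [h1]; exact NF.of_mem (mul_mem (h.le hd') hb)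
    | @cons y' x c' hy' hx' hc' =>
      obtain ⟨d', hd', h1 | h1⟩ := h.ymul y hy d hd y' hy'
      · have e : y * d * (y' * x * c') * b =
            1 * ((y * d * y' - d') * x * c') * b + (d' * x) * c' * b := by noncomm_ring
        rw [e]
        exact add_mem (NF.of_red (one_mem B) hb (.cons h1 hx' hc'))
          (NF.of_red (mul_mem (h.le hd') (h.sub hx')) hb hc')
      · have e : y * d * (y' * x * c') * b = (y * d * y' * x) * c' * b := by noncomm_ring
        rw [e, h1]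
        exact NF.of_red (mul_mem (h.le hd') (h.sub hx')) hb hc'

lemma PreSys.mul_mem_adjoin (h : PreSys D B X Y) {z : A}
    (hz : z ∈ StarAlgebra.adjoin ℂ ((B : Set A) ∪ Y)) : ∀ v ∈ NF B X Y, z * v ∈ NF B X Y := by
  have hz' : z ∈ Algebra.adjoin ℂ (((B : Set A) ∪ Y) ∪ star ((B : Set A) ∪ Y)) := hz
  clear hz
  induction hz' using Algebra.adjoin_induction with
  | mem x hx =>
    intro v hv
    rcases hx with (hx | hx) | hx | hx
    · exact NF.mul_mem_B hx hv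
    · exact h.mul_mem_Y hx hv
    · exact NF.mul_mem_B (by simpa using star_mem hx) hv
    · exact h.mul_mem_Y (by simpa using h.ystar _ hx) hv
  | algebraMap r => intro v hv; exact NF.mul_mem_B (algebraMap_mem B r) hv
  | add x y _ _ hx hy => intro v hv; rw [add_mul]; exact add_mem (hx v hv) (hy v hv)
  | mul x y _ _ hx hy => intro v hv; rw [mul_assoc]; exact hx _ (hy v hv)

lemma PreSys.mem_NF (h : PreSys D B X Y) {z : A}
    (hz : z ∈ StarAlgebra.adjoin ℂ ((B : Set A) ∪ Y)) : z ∈ NF B X Y := by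
  simpa using h.mul_mem_adjoin hz 1 (NF.of_mem (one_mem B))

lemma PreSys.mem_closure_NF (h : PreSys D B X Y) {z : A}
    (hz : z ∈ (StarAlgebra.adjoin ℂ ((B : Set A) ∪ Y)).topologicalClosure) :
    z ∈ closure (NF B X Y : Set A) :=
  closure_mono (fun _ hw => h.mem_NF hw) hz

end NF

lemma cen_sub (B D : StarSubalgebra ℂ A) : cen τ B D ⊆ B := fun _ hx => hx.1

lemma cen_star (hτ : IsTr τ) {B D : StarSubalgebra ℂ A} {x : A} (hx : x ∈ cen τ B D) :
    star x ∈ cen τ B D := ⟨star_mem hx.1, hx.2.star hτ⟩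

lemma cen_mul_left (hτ : IsTr τ) {B D : StarSubalgebra ℂ A} (h : D ≤ B) {x d : A}
    (hx : x ∈ cen τ B D) (hd : d ∈ D) : d * x ∈ cen τ B D :=
  ⟨mul_mem (h hd) hx.1, hx.2.mul_left hτ hd⟩

lemma cen_mul_right {B D : StarSubalgebra ℂ A} (h : D ≤ B) {x d : A}
    (hx : x ∈ cen τ B D) (hd : d ∈ D) : x * d ∈ cen τ B D :=
  ⟨mul_mem hx.1 (h hd), hx.2.mul_right hd⟩

/-- a free system: `B` and `Y` are free with amalgamation over `D` -/
structure Sys (τ : A →L[ℂ] ℂ) (D B : StarSubalgebra ℂ A) (Y : Set A) : Prop where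
  le : D ≤ B
  dec : Dec τ B D
  ystar : ∀ y ∈ Y, star y ∈ Y
  ymul : ∀ y ∈ Y, ∀ d ∈ D, ∀ y' ∈ Y, ∃ d' ∈ D, y * d * y' - d' ∈ Y ∨ y * d * y' = d'
  free : Free τ B (cen τ B D) Y

section sys
variable {D B : StarSubalgebra ℂ A} {Y : Set A}

lemma Sys.pre (h : Sys τ D B Y) : PreSys D B (cen τ B D) Y where
  le := h.le
  sub := cen_sub B D
  dec a ha := let ⟨d, hd, hp⟩ := h.dec a ha; ⟨d, hd, sub_mem ha (h.le hd), hp⟩
  ystar := h.ystar
  ymul := h.ymul

lemma Free.red (hτ : IsTr τ) {X : Set A} (h : Free τ B X Y) {a b c : A} (ha : a ∈ B) (hb : b ∈ B)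
    (hc : Core X Y c) : τ (a * c * b) = 0 := by
  rw [hτ.comm, ← mul_assoc]; exact h _ (mul_mem hb ha) c hc

lemma Free.perp_red (hτ : IsTr τ) {X : Set A} (h : Free τ B X Y) {v : A}
    (hv : v ∈ Submodule.span ℂ (Red B X Y)) : Perp τ B v := by
  refine (Submodule.span_le (p := perpSub τ B)).2 ?_ hv
  rintro _ ⟨a, ha, b, hb, c, hc, rfl⟩ d hd
  rw [mul_assoc]
  exact h.red hτ ha (mul_mem hb hd) hc

/-- decomposition in the closed algebra generated by a free system -/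
lemma Sys.exists_dec (hτ : IsTr τ) (h : Sys τ D B Y) (hB : IsClosed (B : Set A)) {z : A}
    (hz : z ∈ (StarAlgebra.adjoin ℂ ((B : Set A) ∪ Y)).topologicalClosure) :
    ∃ d ∈ B, z - d ∈ closure (Submodule.span ℂ (Red B (cen τ B D) Y) : Set A) :=
  exists_dec_closure hτ hB _ (fun _ hv => h.free.perp_red hτ hv)
    (closure_mono (fun _ hw => mem_NF.1 hw) (h.pre.mem_closure_NF hz))

lemma Sys.perp_closure (hτ : IsTr τ) (h : Sys τ D B Y) {v : A}
    (hv : v ∈ closure (Submodule.span ℂ (Red B (cen τ B D) Y) : Set A)) : Perp τ B v :=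
  isClosed_perp.closure_subset (closure_mono (fun _ hw => h.free.perp_red hτ hw) hv)

/-- the first ping-pong space -/
noncomputable def K1 (τ : A →L[ℂ] ℂ) (D B : StarSubalgebra ℂ A) (Y : Set A) : Submodule ℂ A :=
  Submodule.span ℂ ((D : Set A) ∪
    {w | ∃ d ∈ D, ∃ b ∈ B, ∃ c, Core (cen τ B D) Y c ∧ w = d * c * b})

/-- the second ping-pong space -/
noncomputable def K2 (τ : A →L[ℂ] ℂ) (D B : StarSubalgebra ℂ A) (Y : Set A) : Submodule ℂ A :=
  Submodule.span ℂ (cen τ B D ∪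
    {w | ∃ x ∈ cen τ B D, ∃ b ∈ B, ∃ c, Core (cen τ B D) Y c ∧ w = x * c * b})

lemma Sys.NF_le (h : Sys τ D B Y) : NF B (cen τ B D) Y ≤ K1 τ D B Y ⊔ K2 τ D B Y := by
  refine NF.induction _ (fun a ha => ?_) fun a ha b hb c hc => ?_
  · obtain ⟨d, hd, hx⟩ := h.pre.dec a ha
    rw [← add_sub_cancel d a]
    exact Submodule.add_mem_sup (Submodule.subset_span (.inl hd)) (Submodule.subset_span (.inl hx))
  · obtain ⟨d, hd, hx⟩ := h.pre.dec a ha
    rw [← add_sub_cancel d a, add_mul, add_mul]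
    exact Submodule.add_mem_sup (Submodule.subset_span (.inr ⟨d, hd, b, hb, c, hc, rfl⟩))
      (Submodule.subset_span (.inr ⟨_, hx, b, hb, c, hc, rfl⟩))

lemma Sys.orth (hτ : IsTr τ) (h : Sys τ D B Y) {u v : A} (hu : u ∈ K1 τ D B Y)
    (hv : v ∈ K2 τ D B Y) : τ (star u * v) = 0 := by
  have hcs : ∀ c, Core (cen τ B D) Y c → Core (cen τ B D) Y (star c) := fun c hc =>
    hc.star (fun _ hx => cen_star hτ hx) h.ystar
  induction hu using Submodule.span_induction with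
  | zero => simp
  | add x y _ _ hx hy => rw [star_add, add_mul, map_add, hx, hy, add_zero]
  | smul c x _ hx => rw [star_smul, smul_mul_assoc, map_smul, hx, smul_zero]
  | mem u hu =>
    induction hv using Submodule.span_induction with
    | zero => simp
    | add x y _ _ hx hy => rw [mul_add, map_add, hx, hy, add_zero]
    | smul c x _ hx => rw [mul_smul_comm, map_smul, hx, smul_zero]
    | mem v hv =>
      rcases hu with hu | ⟨d, hd, b, hb, c, hc, rfl⟩ <;>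
        rcases hv with hv | ⟨x, hx, b', hb', c', hc', rfl⟩
      · exact hv.2.left hτ (star_mem hu)
      · have := h.free.red hτ (mul_mem (star_mem (h.le hu)) hx.1) hb' hc'
        simpa only [mul_assoc] using this
      · have := h.free.red hτ (star_mem hb) (mul_mem (star_mem (h.le hd)) hv.1) (hcs c hc)
        simpa only [star_mul, mul_assoc] using this
      · have := h.free.red hτ (star_mem hb) hb'
          ((hcs c hc).append (cen_mul_left hτ h.le hx (star_mem hd)) hc')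
        simpa only [star_mul, mul_assoc] using this

lemma Sys.orth' (hτ : IsTr τ) (h : Sys τ D B Y) {u v : A} (hu : u ∈ K1 τ D B Y)
    (hv : v ∈ K2 τ D B Y) : τ (star v * u) = 0 := by
  have := hτ.pos.map_star (star u * v)
  rw [h.orth hτ hu hv] at this
  simpa using this

lemma Sys.core_mul {c v : A} (hc : Core (cen τ B D) Y c) (hv : v ∈ K2 τ D B Y) :
    c * v ∈ K1 τ D B Y := by
  refine (Submodule.span_le (p := (K1 τ D B Y).comap (LinearMap.mulLeft ℂ c))).2 ?_ hv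
  rintro v (hv | ⟨x, hx, b, hb, c', hc', rfl⟩)
  · exact Submodule.subset_span (.inr ⟨1, one_mem D, v, hv.1, c, hc, by simp⟩)
  · exact Submodule.subset_span (.inr ⟨1, one_mem D, b, hb, _, hc.append hx hc', by
      simp [mul_assoc]⟩)

lemma Sys.cen_mul (h : Sys τ D B Y) {x u : A} (hx : x ∈ cen τ B D) (hu : u ∈ K1 τ D B Y) :
    x * u ∈ K2 τ D B Y := by
  refine (Submodule.span_le (p := (K2 τ D B Y).comap (LinearMap.mulLeft ℂ x))).2 ?_ hu
  rintro v (hv | ⟨d, hd, b, hb, c', hc', rfl⟩)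
  · exact Submodule.subset_span (.inl (cen_mul_right h.le hx hv))
  · exact Submodule.subset_span (.inr ⟨_, cen_mul_right h.le hx hd, b, hb, _, hc', by
      simp [mul_assoc]⟩)

lemma le_of_sq_le_mul {a C : ℝ} (ha : 0 ≤ a) (hC : 0 ≤ C) (h : a ^ 2 ≤ a * C) : a ≤ C := by
  rcases ha.eq_or_lt with h0 | h0
  · rw [← h0]; exact hC
  · rw [sq] at h; exact le_of_mul_le_mul_left h h0

lemma Sys.nm_mul_K1 (hτ : IsTr τ) (h : Sys τ D B Y) {a u : A} {ε : ℝ} (ha : a ∈ B) (hε : 0 ≤ ε)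
    (hE : ELe τ D (star a * a) (ε ^ 2)) (hu : u ∈ K1 τ D B Y) : nm τ (a * u) ≤ ε * nm τ u := by
  obtain ⟨d, hd, hp, hn⟩ := hE
  have h1 := h.orth hτ hu (h.cen_mul ⟨sub_mem (mul_mem (star_mem ha) ha) (h.le hd), hp⟩ hu)
  have h2 : τ (star (a * u) * (a * u)) = τ (star u * (d * u)) := by
    rw [sub_mul, mul_sub, map_sub, sub_eq_zero] at h1
    rw [← h1]; simp only [star_mul, mul_assoc]
  refine (pow_le_pow_iff_left₀ (nm_nonneg _ _) (mul_nonneg hε (nm_nonneg _ _)) two_ne_zero).1 ?_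
  rw [hτ.pos.nm_sq, h2]
  refine (Complex.re_le_norm _).trans ((hτ.pos.cs _ _).trans ?_)
  have := hτ.pos.nm_mul_le d u
  have h0 := nm_nonneg τ u
  calc nm τ u * nm τ (d * u) ≤ nm τ u * (ε ^ 2 * nm τ u) := by gcongr; exact this.trans (by gcongr)
    _ = _ := by ring

/-- splitting `b v` into the two ping-pong spaces -/
lemma Sys.split (hτ : IsTr τ) (h : Sys τ D B Y) {b v : A} {ε : ℝ} (hb : b ∈ B) (hε : 0 ≤ ε)
    (hE : ELe τ D (b * star b) (ε ^ 2)) (hv : v ∈ NF B (cen τ B D) Y) :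
    ∃ u₁ ∈ K1 τ D B Y, ∃ u₂ ∈ K2 τ D B Y, b * v = u₁ + u₂ ∧ nm τ u₁ ≤ ε * nm τ v ∧
      nm τ u₂ ≤ ‖b‖ * nm τ v := by
  obtain ⟨u₁, h₁, u₂, h₂, e⟩ := Submodule.mem_sup.1 (h.NF_le (NF.mul_mem_B hb hv))
  refine ⟨u₁, h₁, u₂, h₂, e.symm, ?_, ?_⟩
  · refine le_of_sq_le_mul (nm_nonneg _ _) (mul_nonneg hε (nm_nonneg _ _)) ?_
    have e1 : τ (star u₁ * u₁) = τ (star (star b * u₁) * v) := by
      rw [star_mul, star_star, mul_assoc, ← e, mul_add, map_add, h.orth hτ h₁ h₂, add_zero]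
    rw [hτ.pos.nm_sq, e1]
    refine (Complex.re_le_norm _).trans ((hτ.pos.cs _ _).trans ?_)
    have := h.nm_mul_K1 hτ (star_mem hb) hε (by rwa [star_star]) h₁
    have h0 := nm_nonneg τ v
    calc _ ≤ ε * nm τ u₁ * nm τ v := by gcongr
      _ = _ := by ring
  · refine le_of_sq_le_mul (nm_nonneg _ _) (mul_nonneg (norm_nonneg _) (nm_nonneg _ _)) ?_
    have e1 : τ (star u₂ * u₂) = τ (star u₂ * (b * v)) := by
      rw [← e, mul_add, map_add, h.orth' hτ h₁ h₂, zero_add]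
    rw [hτ.pos.nm_sq, e1]
    exact (Complex.re_le_norm _).trans ((hτ.pos.cs _ _).trans
      (mul_le_mul_of_nonneg_left (hτ.pos.nm_mul_le _ _) (nm_nonneg _ _)))

/-- the ping-pong estimate -/
theorem Sys.est (hτ : IsTr τ) (h : Sys τ D B Y) {a b c : A} {ε₁ ε₂ μ : ℝ} (ha : a ∈ B)
    (hb : b ∈ B) (hc : Core (cen τ B D) Y c) (hε₁ : 0 ≤ ε₁) (hε₂ : 0 ≤ ε₂) (hμ0 : 0 ≤ μ)
    (hE₁ : ELe τ D (star a * a) (ε₁ ^ 2)) (hE₂ : ELe τ D (b * star b) (ε₂ ^ 2))
    (hμ : ∀ u ∈ K2 τ D B Y, nm τ (c * u) ≤ μ * nm τ u)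
    (hμ' : ∀ u ∈ K2 τ D B Y, nm τ (star c * u) ≤ μ * nm τ u) :
    ‖a * c * b‖ ≤ ε₁ * ε₂ * ‖c‖ + μ * (ε₁ * ‖b‖ + ‖a‖ * ε₂) := by
  set κ := ε₁ * ε₂ * ‖c‖ + μ * (ε₁ * ‖b‖ + ‖a‖ * ε₂) with hκ
  have hκ0 : 0 ≤ κ := by positivity
  have key : ∀ v' ∈ NF B (cen τ B D) Y, ∀ v ∈ NF B (cen τ B D) Y,
      ‖τ (star v' * (a * c * b * v))‖ ≤ nm τ v' * (κ * nm τ v) := by
    intro v' hv' v hv
    obtain ⟨u₁, h₁, u₂, h₂, e, n₁, n₂⟩ := h.split hτ hb hε₂ hE₂ hv
    obtain ⟨w₁, k₁, w₂, k₂, e', m₁, m₂⟩ := h.split hτ (star_mem ha) hε₁ (by rwa [star_star]) hv'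
    have e2 : star v' * (a * c * b * v) = star w₁ * (c * u₁) + star w₁ * (c * u₂) +
        star (star c * w₂) * u₁ + star w₂ * (c * u₂) := by
      have : star v' * (a * c * b * v) = star (star a * v') * (c * (b * v)) := by
        simp only [star_mul, star_star, mul_assoc]
      rw [this, e, e']
      simp only [star_add, star_mul, star_star]
      noncomm_ring
    rw [e2, map_add, h.orth' hτ (Sys.core_mul hc h₂) k₂, add_zero, map_add, map_add]
    rw [norm_star] at m₂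
    have p1 := nm_nonneg τ v
    have p2 := nm_nonneg τ v'
    have t1 : ‖τ (star w₁ * (c * u₁))‖ ≤ (ε₁ * nm τ v') * (‖c‖ * (ε₂ * nm τ v)) :=
      (hτ.pos.cs _ _).trans (mul_le_mul m₁ ((hτ.pos.nm_mul_le _ _).trans (by gcongr))
        (nm_nonneg _ _) (by positivity))
    have t2 : ‖τ (star w₁ * (c * u₂))‖ ≤ (ε₁ * nm τ v') * (μ * (‖b‖ * nm τ v)) :=
      (hτ.pos.cs _ _).trans (mul_le_mul m₁ ((hμ _ h₂).trans (by gcongr))
        (nm_nonneg _ _) (by positivity))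
    have t3 : ‖τ (star (star c * w₂) * u₁)‖ ≤ (μ * (‖a‖ * nm τ v')) * (ε₂ * nm τ v) :=
      (hτ.pos.cs _ _).trans (mul_le_mul ((hμ' _ k₂).trans (by gcongr)) n₁
        (nm_nonneg _ _) (by positivity))
    refine (norm_add₃_le).trans ((add_le_add (add_le_add t1 t2) t3).trans (le_of_eq ?_))
    rw [hκ]; ring
  set N := (StarAlgebra.adjoin ℂ ((B : Set A) ∪ Y)).topologicalClosure
  have hBN : ∀ x ∈ B, x ∈ N := fun x hx =>
    StarSubalgebra.le_topologicalClosure _ (StarAlgebra.subset_adjoin ℂ _ (.inl hx))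
  have hw : a * c * b ∈ N := mul_mem (mul_mem (hBN a ha) (hc.mem (fun x hx => hBN x hx.1)
    fun y hy => StarSubalgebra.le_topologicalClosure _ (StarAlgebra.subset_adjoin ℂ _ (.inr hy))))
    (hBN b hb)
  have key2 : ∀ v' ∈ N, ∀ v ∈ N, ‖τ (star v' * (a * c * b * v))‖ ≤ nm τ v' * (κ * nm τ v) := by
    intro v' hv' v hv
    have hcl : IsClosed {p : A × A | ‖τ (star p.1 * (a * c * b * p.2))‖ ≤
        nm τ p.1 * (κ * nm τ p.2)} := by
      have := hτ.pos.continuous_nm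
      exact isClosed_le (by fun_prop) (by fun_prop)
    have hm : (v', v) ∈ closure ((NF B (cen τ B D) Y : Set A) ×ˢ (NF B (cen τ B D) Y : Set A)) := by
      rw [closure_prod_eq]
      exact ⟨h.pre.mem_closure_NF hv', h.pre.mem_closure_NF hv⟩
    exact hcl.closure_subset (closure_mono (fun p hp => key p.1 hp.1 p.2 hp.2) hm)
  refine hτ.norm_le_of (StarSubalgebra.isClosed_topologicalClosure _) hw hκ0 fun v hv => ?_
  refine le_of_sq_le_mul (nm_nonneg _ _) (mul_nonneg hκ0 (nm_nonneg _ _)) ?_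
  rw [hτ.pos.nm_sq]
  exact (Complex.re_le_norm _).trans (key2 _ (mul_mem hw hv) v hv)

theorem Sys.est1 (hτ : IsTr τ) (h : Sys τ D B Y) {a b c : A} {ε : ℝ} (ha : a ∈ B)
    (hb : b ∈ B) (hc : Core (cen τ B D) Y c) (hε : 0 ≤ ε)
    (hE₁ : ELe τ D (star a * a) (ε ^ 2)) (hE₂ : ELe τ D (b * star b) (ε ^ 2)) :
    ‖a * c * b‖ ≤ ε * (‖c‖ * (ε + ‖b‖ + ‖a‖)) := by
  refine (h.est hτ ha hb hc hε hε (norm_nonneg c) hE₁ hE₂ (fun u _ => hτ.pos.nm_mul_le _ _)
    (fun u _ => by simpa using hτ.pos.nm_mul_le (star c) u)).trans (le_of_eq ?_)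
  ring

theorem Sys.est2 (hτ : IsTr τ) {s : A} (hs : star s = s) (hs2 : s * s = 1) (h : Sys τ D B {s})
    {a y : A} {ε μ : ℝ} (ha : a ∈ B) (hy : y ∈ cen τ B D) (hys : star y = y) (hε : 0 ≤ ε)
    (hμ : 0 ≤ μ) (hE : ELe τ D (a * a) (ε ^ 2)) (has : star a = a)
    (hE' : ELe τ D (y * y) (μ ^ 2)) :
    ‖a * (s * y * s) * a‖ ≤ ε ^ 2 * ‖y‖ + 2 * μ * ε * ‖a‖ := by
  have hsn : ‖s‖ ≤ 1 := by
    have := CStarRing.norm_star_mul_self (x := s)
    rw [hs, hs2] at this
    have h1 : ‖(1 : A)‖ ≤ 1 := by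
      rcases subsingleton_or_nontrivial A with _ | _
      · simp [Subsingleton.elim (1 : A) 0]
      · simp
    nlinarith [norm_nonneg s]
  have hc : Core (cen τ B D) {s} (s * y * s) := .cons rfl hy (.single rfl)
  have hb : ∀ u ∈ K2 τ D B {s}, nm τ (s * y * s * u) ≤ μ * nm τ u := fun u hu => by
    have h1 := h.nm_mul_K1 hτ hy.1 hμ (by rwa [hys]) (Sys.core_mul (.single rfl) hu)
    have h2 := hτ.pos.nm_mul_le s (y * (s * u))
    have h3 := hτ.pos.nm_mul_le s u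
    have h4 := nm_nonneg τ u
    have h5 := nm_nonneg τ (y * (s * u))
    simp only [mul_assoc]
    calc _ ≤ 1 * nm τ (y * (s * u)) := h2.trans (by gcongr)
      _ ≤ μ * (1 * nm τ u) := by
        rw [one_mul]; exact h1.trans (mul_le_mul_of_nonneg_left (h3.trans (by gcongr)) hμ)
      _ = _ := by ring
  have hn : ‖s * y * s‖ ≤ ‖y‖ := by
    calc _ ≤ ‖s‖ * ‖y‖ * ‖s‖ := norm_mul₃_le
      _ ≤ 1 * ‖y‖ * 1 := by gcongr
      _ = _ := by ring
  refine (h.est hτ ha ha hc hε hε hμ (by rwa [has]) (by rwa [has]) hb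
    (by simpa only [star_mul, hs, hys, ← mul_assoc] using hb)).trans ?_
  have : ε * ε * ‖s * y * s‖ ≤ ε ^ 2 * ‖y‖ := by rw [sq]; gcongr
  linarith

end sys

end Crest.Agent.R120
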