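import Crest.Agent.R120.Free

/-! Transitivity of freeness. -/

set_option autoImplicit false
open scoped ComplexOrder InnerProductSpace ComplexConjugate Topology
open Filter

namespace Crest.Agent.R120

variable {A : Type*} [CStarAlgebra A] {τ : A →L[ℂ] ℂ}

lemma closure_span_le {S : Set A} (V : Submodule ℂ A) (hV : IsClosed (V : Set A)) (h : S ⊆ V) :
    closure (Submodule.span ℂ S : Set A) ⊆ V :=
  closure_minimal (Submodule.span_le.2 h) hV

lemma bilin_closure {S T : Set A} (V : Submodule ℂ A) (hV : IsClosed (V : Set A)) (y : A)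
    (h : ∀ x ∈ S, ∀ k ∈ T, y * x * k ∈ V) {x k : A}
    (hx : x ∈ closure (Submodule.span ℂ S : Set A))
    (hk : k ∈ closure (Submodule.span ℂ T : Set A)) : y * x * k ∈ V := by
  refine closure_span_le (V.comap (LinearMap.mulLeft ℂ (y * x)))
    (hV.preimage (f := fun k => y * x * k) (by fun_prop)) (fun k hk => ?_) hk
  exact closure_span_le (V.comap ((LinearMap.mulRight ℂ k).comp (LinearMap.mulLeft ℂ y)))
    (hV.preimage (f := fun x => y * x * k) (by fun_prop)) (fun x hx => h x hx k hk) hx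

lemma cen_mono {B B' D : StarSubalgebra ℂ A} (h : B ≤ B') : cen τ B D ⊆ cen τ B' D :=
  fun _ hx => ⟨h hx.1, hx.2⟩

lemma Sys.ofSub (hτ : IsTr τ) {D B B₂ : StarSubalgebra ℂ A} (h1 : D ≤ B) (h2 : D ≤ B₂)
    (hd1 : Dec τ B D) (hd2 : Dec τ B₂ D) (hf : Free τ B (cen τ B D) (cen τ B₂ D)) :
    Sys τ D B (cen τ B₂ D) where
  le := h1
  dec := hd1
  ystar _ hy := cen_star hτ hy
  ymul y hy d hd y' hy' := by
    have hm := mul_mem (mul_mem hy.1 (h2 hd)) hy'.1
    obtain ⟨d', hd', hp⟩ := hd2 _ hm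
    exact ⟨d', hd', .inl ⟨sub_mem hm (h2 hd'), hp⟩⟩
  free := hf

lemma Sys.restrict {D B B' : StarSubalgebra ℂ A} {Y : Set A} (h : Sys τ D B Y) (h1 : D ≤ B')
    (h2 : B' ≤ B) : Sys τ D B' Y where
  le := h1
  dec := h.dec.of_le h2
  ystar := h.ystar
  ymul := h.ymul
  free a ha c hc := h.free a (h2 ha) c (hc.mono (cen_mono h2) le_rfl)

lemma free_self (hτ : IsTr τ) {D B₂ : StarSubalgebra ℂ A} :
    Free τ D (cen τ D D) (cen τ B₂ D) := by
  intro a ha c hc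
  cases hc with
  | single hy => exact hy.2.left hτ ha
  | cons hy hx hc => rw [hx.2.eq_zero hτ hx.1]; simp

theorem Sys.trans (hτ : IsTr τ) {Ds B D₁ D₀ B₂ : StarSubalgebra ℂ A} {Y : Set A}
    (h : Sys τ Ds B Y) (h1 : Ds ≤ D₁) (h2 : D₁ ≤ B) (hD₁ : IsClosed (D₁ : Set A)) (h3 : B₂ ≤ B)
    (h4 : D₀ ≤ D₁) (ih : Free τ D₁ (cen τ D₁ D₀) (cen τ B₂ D₀)) :
    Free τ (StarAlgebra.adjoin ℂ ((D₁ : Set A) ∪ Y)).topologicalClosure
      (cen τ (StarAlgebra.adjoin ℂ ((D₁ : Set A) ∪ Y)).topologicalClosure D₀) (cen τ B₂ D₀) := by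
  have h' := h.restrict h1 h2
  have hW : ∀ w, Core (cen τ D₁ D₀) (cen τ B₂ D₀) w → w ∈ B := fun w hw =>
    hw.mem (fun x hx => h2 hx.1) fun y hy => h3 hy.1
  have hWc : ∀ w, Core (cen τ D₁ D₀) (cen τ B₂ D₀) w → ∀ d ∈ D₁, ∀ d' ∈ D₁,
      d * w * d' ∈ cen τ B Ds := fun w hw d hd d' hd' =>
    ⟨mul_mem (mul_mem (h2 hd) (hW w hw)) (h2 hd'), fun e he => by
      rw [mul_assoc]; exact ih.red hτ hd (mul_mem hd' (h1 he)) hw⟩
  set T : Set A := {w | Core (cen τ D₁ D₀) (cen τ B₂ D₀) w} ∪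
    {k | ∃ w, Core (cen τ D₁ D₀) (cen τ B₂ D₀) w ∧ ∃ d ∈ D₁, ∃ b ∈ B, ∃ c,
      Core (cen τ B Ds) Y c ∧ k = w * d * c * b} with hT
  set K := (Submodule.span ℂ T).topologicalClosure
  have hKT : ∀ k ∈ T, k ∈ K := fun k hk =>
    Submodule.le_topologicalClosure _ (Submodule.subset_span hk)
  have step1 : ∀ c, Core (cen τ (StarAlgebra.adjoin ℂ ((D₁ : Set A) ∪ Y)).topologicalClosure D₀)
      (cen τ B₂ D₀) c → c ∈ K := by
    intro c hc
    induction hc with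
    | single hy => exact hKT _ (.inl (.single hy))
    | @cons y x c hy hx _ ih' =>
      obtain ⟨d, hd, hv⟩ := h'.exists_dec hτ hD₁ hx.1
      have hdp : Perp τ D₀ d := by
        have := hx.2.sub ((h'.perp_closure hτ hv).mono h4)
        simpa using this
      have hx' : x ∈ closure (Submodule.span ℂ (cen τ D₁ D₀ ∪ Red D₁ (cen τ D₁ Ds) Y) : Set A) := by
        rw [← add_sub_cancel d x]
        exact (Submodule.span ℂ _).topologicalClosure.add_mem
          (subset_closure (Submodule.subset_span (.inl ⟨hd, hdp⟩)))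
          (closure_mono (Submodule.span_mono Set.subset_union_right) hv)
      refine bilin_closure K (Submodule.isClosed_topologicalClosure _) y ?_ hx' ih'
      rintro x (hx | ⟨d₀, hd₀, d₁, hd₁, c₁, hc₁, rfl⟩) k (hk | ⟨w, hw, d, hd, b, hb, c, hc, rfl⟩)
      · exact hKT _ (.inl (.cons hy hx hk))
      · exact hKT _ (.inr ⟨_, .cons hy hx hw, d, hd, b, hb, c, hc, by simp only [mul_assoc]⟩)
      · exact hKT _ (.inr ⟨y, .single hy, d₀, hd₀, d₁ * k, mul_mem (h2 hd₁) (hW k hk), c₁,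
          hc₁.mono (cen_mono h2) le_rfl, by simp only [mul_assoc]⟩)
      · exact hKT _ (.inr ⟨y, .single hy, d₀, hd₀, b, hb, _,
          (hc₁.mono (cen_mono h2) le_rfl).append (hWc w hw d₁ hd₁ d hd) hc,
          by simp only [mul_assoc]⟩)
  intro a ha c hc
  have ha' : a ∈ closure (Submodule.span ℂ ((D₁ : Set A) ∪ Red D₁ (cen τ D₁ Ds) Y) : Set A) := by
    refine closure_mono (fun z hz => ?_) (h'.pre.mem_closure_NF ha)
    obtain ⟨d, hd, hv⟩ := mem_NF.1 hz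
    rw [← add_sub_cancel d z]
    exact add_mem (Submodule.subset_span (.inl hd)) (Submodule.span_mono Set.subset_union_right hv)
  have := bilin_closure (LinearMap.ker τ.toLinearMap) τ.isClosed_ker 1 ?_ ha' (step1 c hc)
  · simpa using this
  rintro x (hx | ⟨d₀, hd₀, d₁, hd₁, c₁, hc₁, rfl⟩) k (hk | ⟨w, hw, d, hd, b, hb, c, hc, rfl⟩) <;>
    rw [one_mul, LinearMap.mem_ker, ContinuousLinearMap.coe_coe]
  · exact ih x hx k hk
  · have := h.free.red hτ (mul_mem (mul_mem (h2 hx) (hW w hw)) (h2 hd)) hb hc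
    simpa only [mul_assoc] using this
  · have := h.free.red hτ (h2 hd₀) (mul_mem (h2 hd₁) (hW k hk)) (hc₁.mono (cen_mono h2) le_rfl)
    simpa only [mul_assoc] using this
  · have := h.free.red hτ (h2 hd₀) hb
      ((hc₁.mono (cen_mono h2) le_rfl).append (hWc w hw d₁ hd₁ d hd) hc)
    simpa only [mul_assoc] using this

/-- freeness passes to directed unions -/
theorem free_of_directed (hτ : IsTr τ) {D₀ B : StarSubalgebra ℂ A} (hD₀ : IsClosed (D₀ : Set A))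
    {Y : Set A} {𝓕 : Set (StarSubalgebra ℂ A)} (hne : 𝓕.Nonempty) (hdir : DirectedOn (· ≤ ·) 𝓕)
    (hle : ∀ C ∈ 𝓕, D₀ ≤ C) (hdec : ∀ C ∈ 𝓕, Dec τ C D₀)
    (hf : ∀ C ∈ 𝓕, Free τ C (cen τ C D₀) Y)
    (hB : ∀ x ∈ B, x ∈ closure {z | ∃ C ∈ 𝓕, z ∈ C}) : Free τ B (cen τ B D₀) Y := by
  set Z : Set A := {c | ∃ C ∈ 𝓕, Core (cen τ C D₀) Y c}
  have step1 : ∀ c, Core (cen τ B D₀) Y c → c ∈ closure Z := by
    intro c hc
    induction hc with
    | single hy => exact subset_closure ⟨_, hne.some_mem, .single hy⟩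
    | @cons y x c hy hx _ ih =>
      have hx' : x ∈ closure {z | ∃ C ∈ 𝓕, z ∈ cen τ C D₀} := by
        refine perp_mem_closure hτ hD₀ ?_ (hB x hx.1) hx.2
        rintro w ⟨C, hC, hw⟩
        obtain ⟨d, hd, hp⟩ := hdec C hC w hw
        exact ⟨d, hd, hp, C, hC, sub_mem hw (hle C hC hd), hp⟩
      refine map_mem_closure₂ (f := fun x c => y * x * c) (by fun_prop) hx' ih ?_
      rintro x ⟨C, hC, hx⟩ c ⟨C', hC', hc⟩
      obtain ⟨C'', hC'', h1, h2⟩ := hdir C hC C' hC'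
      exact ⟨C'', hC'', .cons hy (cen_mono h1 hx) (hc.mono (cen_mono h2) le_rfl)⟩
  intro a ha c hc
  have := map_mem_closure₂ (f := fun a c => τ (a * c)) (u := {0}) (by fun_prop) (hB a ha)
    (step1 c hc) (by
      rintro x ⟨C, hC, hx⟩ c ⟨C', hC', hc⟩
      obtain ⟨C'', hC'', h1, h2⟩ := hdir C hC C' hC'
      exact hf C'' hC'' x (h1 hx) c (hc.mono (cen_mono h2) le_rfl))
  simpa using this

/-- a functional killing the reduced words kills the complement of `B` -/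
lemma Sys.kill (hτ : IsTr τ) {D B : StarSubalgebra ℂ A} {Y : Set A} (h : Sys τ D B Y)
    (hB : IsClosed (B : Set A)) {ω : A →L[ℂ] ℂ}
    (hω : ∀ a ∈ B, ∀ b ∈ B, ∀ c, Core (cen τ B D) Y c → ω (a * c * b) = 0) {z : A}
    (hz : z ∈ (StarAlgebra.adjoin ℂ ((B : Set A) ∪ Y)).topologicalClosure) :
    ∃ d ∈ B, Perp τ B (z - d) ∧ ω z = ω d := by
  obtain ⟨d, hd, hv⟩ := h.exists_dec hτ hB hz
  refine ⟨d, hd, h.perp_closure hτ hv, ?_⟩
  have := closure_span_le (LinearMap.ker ω.toLinearMap) ω.isClosed_ker (by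
    rintro _ ⟨a, ha, b, hb, c, hc, rfl⟩
    exact hω a ha b hb c hc) hv
  simpa [sub_eq_zero] using this

end Crest.Agent.R120
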