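import Crest.Agent.R120.Model

/-! Row 120: creation isometries and the two-sided parity projections. -/

set_option autoImplicit false
open scoped ComplexOrder InnerProductSpace ComplexConjugate Topology
open Filter

namespace Crest.Agent.R120

/-- the isometry `V` -/
theorem exists_isometry2 {M : Type} [CStarAlgebra M] (τ : M →L[ℂ] ℂ) (hτ : IsTr τ) {J : Type}
    (g g' : J → M) (hg : ∀ j, IsStarProjection (g j)) (hg' : ∀ j, IsStarProjection (g' j))
    (horth : ∀ j l, j ≠ l → g j * g l = 0) (htr : ∀ j, τ (g' j) = τ (g j)) (F : ℕ → Finset J)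
    (hF : Monotone F) (hlim : Tendsto (fun N => τ (1 - ∑ j ∈ F N, g j)) atTop (𝓝 0))
    {H : Type} [NormedAddCommGroup H] [InnerProductSpace ℂ H] [CompleteSpace H]
    (κ : M × List M → H) (π : M →⋆ₐ[ℂ] (H →L[ℂ] H)) (C : M → (H →L[ℂ] H))
    (hκ : DenseRange (Finsupp.linearCombination ℂ κ))
    (hin : ∀ x y w w', ⟪κ (x, w), κ (y, w')⟫_ℂ = τ (star x * y) * KL τ w w')
    (hπ : ∀ a x w, π a (κ (x, w)) = κ (a * x, w))
    (hC : ∀ y x w, C y (κ (x, w)) = κ (y, x :: w))
    (hCs : ∀ (l : ℂ) y, C (l • y) = l • C y) (hπC : ∀ a y, π a * C y = C (a * y))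
    (hCC : ∀ y y', star (C y) * C y' = τ (star y * y') • 1) :
    ∃ V : H →L[ℂ] H, star V * V = 1 ∧ (∀ x, (∀ j, τ (x * g' j) = 0) → star V * π x * V = 0) ∧
      (∀ c c', (∀ j, ∃ l : ℂ, g j * c = l • g j ∧ c' * g' j = l • g' j) → V * π c = π c' * V) ∧
      ∀ (w : List M) (x : M) (η : H),
        (∀ a w', w = a :: w' → ∀ b, ⟪κ (b, w'), η⟫_ℂ = 0) → ⟪κ (x, w), V η⟫_ℂ = 0 := by
  classical
  -- normalising constants
  have hr : ∀ j, ∃ r : ℂ, τ (star (r • g' j) * (r • g' j)) • g j = g j := fun j => by
    have e : star (g j) * g j = g j := by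
      rw [(hg j).isSelfAdjoint.star_eq, (hg j).isIdempotentElem.eq]
    have e' : star (g' j) * g' j = g' j := by
      rw [(hg' j).isSelfAdjoint.star_eq, (hg' j).isIdempotentElem.eq]
    by_cases h0 : nm τ (g j) = 0
    · have : g j = 0 := hτ.faithful _ (hτ.pos.nm_eq_zero_iff.1 h0)
      exact ⟨0, by simp [this]⟩
    · refine ⟨((nm τ (g j))⁻¹ : ℝ), ?_⟩
      have h1 := hτ.pos.nm_sq' (g j)
      rw [e] at h1
      rw [star_smul, smul_mul_smul_comm, e', map_smul, htr, ← h1, smul_eq_mul]
      have h0' : ((nm τ (g j) : ℝ) : ℂ) ≠ 0 := by exact_mod_cast h0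
      have : star (((nm τ (g j))⁻¹ : ℝ) : ℂ) * (((nm τ (g j))⁻¹ : ℝ) : ℂ) *
          ((nm τ (g j) ^ 2 : ℝ) : ℂ) = 1 := by
        rw [← starRingEnd_apply, Complex.conj_ofReal]
        push_cast
        field_simp
      rw [this, one_smul]
  choose r hr using hr
  set y : J → M := fun j => r j • g' j with hy
  set P : ℕ → M := fun N => ∑ j ∈ F N, g j with hP
  set W : ℕ → H →L[ℂ] H := fun N => ∑ j ∈ F N, C (y j) * π (g j) with hW
  have hPp : ∀ N, IsStarProjection (P N) := fun N => isStarProjection_sum g hg horth _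
  have hWW : ∀ N x, star (W N) * π x * W N =
      ∑ j ∈ F N, τ (star (y j) * (x * y j)) • π (g j) := fun N x => by
    simp only [hW, star_sum, Finset.sum_mul, Finset.mul_sum]
    refine Finset.sum_congr rfl fun l hl => ?_
    have e : ∀ j, star (C (y j) * π (g j)) * π x * (C (y l) * π (g l)) =
        τ (star (y j) * (x * y l)) • π (g j * g l) := fun j => by
      calc star (C (y j) * π (g j)) * π x * (C (y l) * π (g l))
          = π (g j) * (star (C (y j)) * (π x * C (y l))) * π (g l) := by
            rw [star_mul, ← map_star, (hg j).isSelfAdjoint.star_eq]; simp only [mul_assoc]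
        _ = _ := by rw [hπC, hCC, map_mul π]; simp
    simp only [e]
    rw [Finset.sum_eq_single l (fun j _ hj => by rw [horth j l hj]; simp) (fun h => (h hl).elim),
      (hg l).isIdempotentElem.eq]
  have hW1 : ∀ N, star (W N) * W N = π (P N) := fun N => by
    have := hWW N 1
    rw [map_one, mul_one] at this
    rw [this, hP, map_sum]
    refine Finset.sum_congr rfl fun j _ => ?_
    rw [one_mul, ← map_smul, hr]
  have hπP : ∀ N, ‖π (P N)‖ ≤ 1 := fun N => ((hPp N).map π).norm_le
  have hWn : ∀ N, ‖W N‖ ≤ 1 := fun N => by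
    have := hπP N
    rw [← hW1, CStarRing.norm_star_mul_self] at this
    nlinarith [norm_nonneg (W N)]
  have hWP : ∀ m N, m ≤ N → W N * π (P m) = W m := fun m N h => by
    simp only [hW, Finset.sum_mul, mul_assoc, ← map_mul]
    rw [← Finset.sum_subset (hF h)]
    · refine Finset.sum_congr rfl fun j hj => ?_
      rw [hP, Finset.mul_sum, Finset.sum_eq_single j (fun l _ hl => horth j l (Ne.symm hl))
        (fun h => (h hj).elim), (hg j).isIdempotentElem.eq]
    · intro j _ hj
      rw [hP, Finset.mul_sum, Finset.sum_eq_zero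
        (fun l hl => horth j l (by rintro rfl; exact hj hl))]
      simp
  have hPlim : ∀ ξ, Tendsto (fun N => π (P N) ξ) atTop (𝓝 ξ) := by
    refine tendsto_of_total hκ (fun N => π (P N)) hπP 1 fun p => ?_
    obtain ⟨x, w⟩ := p
    rw [one_apply_eq_self, tendsto_iff_norm_sub_tendsto_zero]
    have hq : ∀ N, star (1 - P N) * (1 - P N) = 1 - P N := fun N => by
      rw [(hPp N).one_sub.isSelfAdjoint.star_eq, (hPp N).one_sub.isIdempotentElem.eq]
    have h1 : ∀ N, ‖π (P N) (κ (x, w)) - κ (x, w)‖ ^ 2 ≤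
        nm τ (1 - P N) * (nm τ (x * star x) * ‖KL τ w w‖) := fun N => by
      have e : π (P N) (κ (x, w)) - κ (x, w) = -κ ((1 - P N) * x, w) := by
        rw [← hπ (1 - P N), map_sub, map_one]; simp
      have e2 : star ((1 - P N) * x) * ((1 - P N) * x) = star x * ((1 - P N) * x) := by
        rw [star_mul, mul_assoc, ← mul_assoc (star (1 - P N)), hq]
      rw [e, norm_neg, ← inner_self_eq_norm_sq (𝕜 := ℂ), inner_self_re_eq_norm, hin, norm_mul, e2, hτ.comm, mul_assoc,
        ← mul_assoc (nm τ (1 - P N))]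
      refine mul_le_mul_of_nonneg_right ?_ (norm_nonneg _)
      have := hτ.pos.cs (1 - P N) (x * star x)
      rwa [(hPp N).one_sub.isSelfAdjoint.star_eq] at this
    have h2 : Tendsto (fun N => nm τ (1 - P N)) atTop (𝓝 0) := by
      simp only [nm, hq]
      have := (Real.continuous_sqrt.tendsto _).comp ((Complex.continuous_re.tendsto _).comp hlim)
      simpa only [Function.comp_def, Complex.zero_re, Real.sqrt_zero] using this
    have h3 : Tendsto (fun N => ‖π (P N) (κ (x, w)) - κ (x, w)‖ ^ 2) atTop (𝓝 0) :=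
      squeeze_zero (fun _ => sq_nonneg _) h1 (by simpa using h2.mul_const _)
    have := (Real.continuous_sqrt.tendsto _).comp h3
    simpa [Function.comp_def, Real.sqrt_sq (norm_nonneg _)] using this
  obtain ⟨V, hV⟩ := exists_strong_lim hκ W hWn fun p => by
    refine cauchySeq_of_le_tendsto_0' (fun m => ‖π (P m) (κ p) - κ p‖) (fun m N h => ?_)
      (tendsto_iff_norm_sub_tendsto_zero.1 (hPlim _))
    rw [dist_eq_norm, ← hWP m N h, mul_apply_eq_comp, ← map_sub]
    exact ((W N).le_opNorm _).trans (mul_le_of_le_one_left (norm_nonneg _) (hWn N))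
  have hVV : ∀ x ξ η, Tendsto (fun N => ⟪ξ, (star (W N) * π x * W N) η⟫_ℂ) atTop
      (𝓝 ⟪ξ, (star V * π x * V) η⟫_ℂ) := fun x ξ η => by
    simp only [mul_apply_eq_comp, ContinuousLinearMap.star_eq_adjoint,
      ContinuousLinearMap.adjoint_inner_right]
    exact (hV ξ).inner (((π x).continuous.tendsto _).comp (hV η))
  refine ⟨V, ?_, fun x hx => ?_, fun c c' h => ?_, ?_⟩
  · ext η
    refine ext_inner_left ℂ fun ξ => ?_
    have h1 := hVV 1 ξ η
    simp only [map_one, mul_one, hW1] at h1
    exact tendsto_nhds_unique h1 (tendsto_const_nhds.inner (hPlim η))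
  · ext η
    refine ext_inner_left ℂ fun ξ => ?_
    have h1 := hVV x ξ η
    have h2 : ∀ N, star (W N) * π x * W N = 0 := fun N => by
      rw [hWW]
      refine Finset.sum_eq_zero fun j _ => ?_
      have : τ (star (y j) * (x * y j)) = 0 := by
        simp only [hy, star_smul, smul_mul_assoc, mul_smul_comm, map_smul]
        rw [hτ.comm, mul_assoc, (hg' j).isSelfAdjoint.star_eq, (hg' j).isIdempotentElem.eq, hx]
        simp
      rw [this, zero_smul]
    simp only [h2] at h1
    exact tendsto_nhds_unique h1 tendsto_const_nhds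
  · have h2 : ∀ N, W N * π c = π c' * W N := fun N => by
      simp only [hW, Finset.sum_mul, Finset.mul_sum]
      refine Finset.sum_congr rfl fun j _ => ?_
      obtain ⟨l, h1, h2⟩ := h j
      rw [mul_assoc, ← map_mul, h1, ← mul_assoc, hπC, hy]
      simp only
      rw [mul_smul_comm, h2, smul_comm, hCs l, map_smul, mul_smul_comm, smul_mul_assoc]
    ext ξ
    have h3 := hV (π c ξ)
    simp only [← mul_apply_eq_comp, h2] at h3
    exact tendsto_nhds_unique h3 (((π c').continuous.tendsto _).comp (hV ξ))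
  · have key : ∀ (w : List M) (x : M) (η : H),
        (∀ a w', w = a :: w' → ∀ b, ⟪κ (b, w'), η⟫_ℂ = 0) → ⟪κ (x, w), V η⟫_ℂ = 0 := by
      intro w x η h
      have h1 : ∀ N, ⟪κ (x, w), W N η⟫_ℂ = 0 := fun N => by
        simp only [hW, sum_apply, inner_sum, mul_apply_eq_comp]
        refine Finset.sum_eq_zero fun j _ => ?_
        rw [← ContinuousLinearMap.adjoint_inner_left, ← ContinuousLinearMap.star_eq_adjoint]
        cases w with
        | nil =>
          have : star (C (y j)) (κ (x, [])) = 0 := eq_of_inner_total hκ fun p => by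
            obtain ⟨a, w'⟩ := p
            rw [ContinuousLinearMap.star_eq_adjoint, ContinuousLinearMap.adjoint_inner_right, hC,
              hin, KL]
            simp
          rw [this, inner_zero_left]
        | cons a w' =>
          rw [← hC, ← mul_apply_eq_comp, hCC, smul_apply, one_apply_eq_self, inner_smul_left,
            ← ContinuousLinearMap.adjoint_inner_left, ← ContinuousLinearMap.star_eq_adjoint,
            ← map_star, hπ, h a w' rfl, mul_zero]
      have h2 : Tendsto (fun N => ⟪κ (x, w), W N η⟫_ℂ) atTop (𝓝 ⟪κ (x, w), V η⟫_ℂ) :=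
        tendsto_const_nhds.inner (hV η)
      simp only [h1] at h2
      exact tendsto_nhds_unique h2 tendsto_const_nhds
    exact key

section parity
variable {X H : Type*} [NormedAddCommGroup H] [InnerProductSpace ℂ H] [CompleteSpace H]

/-- alternating products of adjoints -/
noncomputable def alt (V : Bool → H →L[ℂ] H) : ℕ → Bool → H →L[ℂ] H
  | 0, _ => 1
  | n + 1, a => alt V n (!a) * star (V a)

lemma alt_add (V : Bool → H →L[ℂ] H) (n k : ℕ) (a : Bool) :
    ∃ S, alt V (n + k) a = S * alt V n a := by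
  induction n generalizing a with
  | zero => exact ⟨alt V (0 + k) a, by simp [alt]⟩
  | succ n ih =>
    obtain ⟨S, hS⟩ := ih (!a)
    refine ⟨S, ?_⟩
    rw [Nat.add_right_comm, alt, hS, alt, mul_assoc]

lemma eq_zero_of_pure2 {κ : X → H} (hκ : DenseRange (Finsupp.linearCombination ℂ κ))
    {V : Bool → H →L[ℂ] H} (hp : ∀ x a, ∃ n, alt V n a (κ x) = 0) {A D : Bool → H →L[ℂ] H}
    (hD : ∀ a, D a = A a * D (!a) * star (V a)) (a : Bool) : D a = 0 := by
  have h : ∀ n a, ∃ S, D a = S * alt V n a := fun n => by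
    induction n with
    | zero => exact fun a => ⟨D a, by simp [alt]⟩
    | succ n ih =>
      intro a
      obtain ⟨S, hS⟩ := ih (!a)
      exact ⟨A a * S, by rw [hD a, hS, alt]; simp only [mul_assoc]⟩
  refine op_ext hκ fun x => ?_
  obtain ⟨n, hn⟩ := hp x a
  obtain ⟨S, hS⟩ := h n a
  rw [hS]
  simp [hn]

/-- the parity projections of a pair of jointly pure isometries -/
theorem exists_parity2 {κ : X → H} (hκ : DenseRange (Finsupp.linearCombination ℂ κ))
    {V : Bool → H →L[ℂ] H} (hV : ∀ a, star (V a) * V a = 1)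
    (hp : ∀ x a, ∃ n, alt V n a (κ x) = 0) :
    ∃ Q : Bool → H →L[ℂ] H, (∀ a, star (Q a) = Q a) ∧ (∀ a, Q a * Q a = Q a) ∧
      (∀ a, Q a = V a * (1 - Q (!a)) * star (V a)) ∧
      ∀ c : Bool → H →L[ℂ] H, (∀ a, star (c a) = c a) → (∀ a, V a * c a = c (!a) * V a) →
        ∀ a, Q a * c (!a) = c (!a) * Q a := by
  obtain ⟨T, hT0, hTs⟩ : ∃ T : ℕ → Bool → H →L[ℂ] H, (∀ a, T 0 a = 0) ∧
      ∀ n a, T (n + 1) a = V a * (1 - T n (!a)) * star (V a) :=
    ⟨fun n => Nat.rec (fun _ => 0) (fun _ q a => V a * (1 - q (!a)) * star (V a)) n,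
      fun _ => rfl, fun _ _ => rfl⟩
  have hproj : ∀ n a, IsStarProjection (T n a) := fun n => by
    induction n with
    | zero => intro a; rw [hT0]; exact IsStarProjection.zero _
    | succ n ih =>
      intro a
      have h1 := (ih (!a)).one_sub
      rw [hTs, isStarProjection_iff']
      constructor
      · calc V a * (1 - T n (!a)) * star (V a) * (V a * (1 - T n (!a)) * star (V a))
            = V a * ((1 - T n (!a)) * (star (V a) * V a) * (1 - T n (!a))) * star (V a) := by
              simp only [mul_assoc]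
          _ = _ := by rw [hV, mul_one, h1.isIdempotentElem.eq]
      · rw [star_mul, star_mul, star_star, h1.isSelfAdjoint.star_eq, mul_assoc]
  have hdiff : ∀ n a, ∃ S, T (n + 1) a - T n a = S * alt V n a := fun n => by
    induction n with
    | zero => exact fun a => ⟨T 1 a - T 0 a, by simp [alt]⟩
    | succ n ih =>
      intro a
      obtain ⟨S, hS⟩ := ih (!a)
      refine ⟨-V a * S, ?_⟩
      have : T (n + 1 + 1) a - T (n + 1) a
          = (-V a) * (T (n + 1) (!a) - T n (!a)) * star (V a) := by
        rw [hTs (n + 1) a, hTs n a]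
        noncomm_ring
      rw [this, hS, alt]
      simp only [mul_assoc]
  have hex : ∀ a, ∃ Q : H →L[ℂ] H, ∀ ξ, Tendsto (fun n => T n a ξ) atTop (𝓝 (Q ξ)) := fun a =>
    exists_strong_lim hκ (fun n => T n a) (fun n => (hproj n a).norm_le) fun x => by
      obtain ⟨m, hm⟩ := hp x a
      have h1 : ∀ k, T (m + k) a (κ x) = T m a (κ x) := fun k => by
        induction k with
        | zero => rfl
        | succ k ih =>
          obtain ⟨S, hS⟩ := hdiff (m + k) a
          obtain ⟨S', hS'⟩ := alt_add V m k a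
          have h2 := congrArg (fun S : H →L[ℂ] H => S (κ x)) hS
          simp only [hS', sub_apply, mul_apply_eq_comp, hm, map_zero, sub_eq_zero] at h2
          rw [← ih, ← add_assoc, h2]
      refine (tendsto_atTop_of_eventually_const (i₀ := m) (x := T m a (κ x))
        fun n hn => ?_).cauchySeq
      obtain ⟨k, rfl⟩ := Nat.exists_eq_add_of_le hn
      exact h1 k
  choose Q hQ using hex
  have hfix : ∀ a, Q a = V a * (1 - Q (!a)) * star (V a) := fun a => by
    ext ξ
    have h1 : Tendsto (fun n => T (n + 1) a ξ) atTop (𝓝 (Q a ξ)) :=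
      (hQ a ξ).comp (tendsto_add_atTop_nat 1)
    have h2 : Tendsto (fun n => T (n + 1) a ξ) atTop
        (𝓝 ((V a * (1 - Q (!a)) * star (V a)) ξ)) := by
      simp only [hTs, mul_apply_eq_comp, sub_apply, one_apply_eq_self]
      exact ((V a).continuous.tendsto _).comp (tendsto_const_nhds.sub (hQ _ _))
    exact tendsto_nhds_unique h1 h2
  refine ⟨Q, fun a => ?_, fun a => ?_, hfix, fun c hc h1 a => ?_⟩
  · rw [← sub_eq_zero]
    refine eq_zero_of_pure2 hκ hp (A := fun a => -V a) (D := fun a => star (Q a) - Q a)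
      (fun a => ?_) a
    have h1 : star (Q a) = V a * (1 - star (Q (!a))) * star (V a) := by
      conv_lhs => rw [hfix]
      rw [star_mul, star_mul, star_star, star_sub, star_one, mul_assoc]
    calc star (Q a) - Q a
        = V a * (1 - star (Q (!a))) * star (V a) - V a * (1 - Q (!a)) * star (V a) := by
          rw [← h1, ← hfix]
      _ = _ := by noncomm_ring
  · rw [← sub_eq_zero]
    refine eq_zero_of_pure2 hκ hp (A := V) (D := fun a => Q a * Q a - Q a) (fun a => ?_) a
    calc Q a * Q a - Q a = V a * (1 - Q (!a)) * star (V a) * (V a * (1 - Q (!a)) * star (V a))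
          - V a * (1 - Q (!a)) * star (V a) := by rw [← hfix]
      _ = V a * ((1 - Q (!a)) * (star (V a) * V a) * (1 - Q (!a))) * star (V a)
          - V a * (1 - Q (!a)) * star (V a) := by simp only [mul_assoc]
      _ = _ := by rw [hV]; noncomm_ring
  · have h1' : ∀ a, c a * star (V a) = star (V a) * c (!a) := fun a => by
      have := congrArg star (h1 a)
      rwa [star_mul, star_mul, hc, hc] at this
    rw [← sub_eq_zero]
    refine eq_zero_of_pure2 hκ hp (A := fun a => -V a)
      (D := fun a => Q a * c (!a) - c (!a) * Q a) (fun a => ?_) a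
    calc Q a * c (!a) - c (!a) * Q a
        = V a * (1 - Q (!a)) * star (V a) * c (!a) - c (!a) * (V a * (1 - Q (!a)) * star (V a)) := by
          rw [← hfix]
      _ = V a * (1 - Q (!a)) * (star (V a) * c (!a))
          - (c (!a) * V a) * (1 - Q (!a)) * star (V a) := by simp only [mul_assoc]
      _ = _ := by rw [← h1, ← h1', Bool.not_not]; noncomm_ring

end parity

end Crest.Agent.R120
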