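import Crest.Agent.R120.HAux
import Crest.Agent.Lib.HNN.Sys

/-! Row 120: the Fock model of an HNN extension over two nests of projections. -/

set_option autoImplicit false
open scoped ComplexOrder InnerProductSpace ComplexConjugate Topology
open Filter

namespace Crest.Agent.R120

open Crest.Agent.Lib Crest.Agent.Lib.HNN

/-- The algebra behind the model. -/
theorem hnn_of_parity {D : Type*} [CStarAlgebra D] (B : StarSubalgebra ℂ D) (ω : D →L[ℂ] ℂ)
    (σ : Bool → ℕ → D) (V Q : Bool → D) (hV : ∀ a, star (V a) * V a = 1)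
    (hQs : ∀ a, star (Q a) = Q a) (hQQ : ∀ a, Q a * Q a = Q a)
    (hQ : ∀ a, Q a = V a * (1 - Q (!a)) * star (V a))
    (hσ : ∀ a N, star (σ a N) = σ a N)
    (hVσ : ∀ a N, V a * σ a N = σ (!a) N * V a)
    (hQσ : ∀ a N, Q a * σ (!a) N = σ (!a) N * Q a)
    (hcen : ∀ a, ∀ x ∈ B, x ∈ CStarPure.Cen ω (Set.range (σ (!a))) → star (V a) * x * V a = 0)
    (horth : ∀ a, ∀ x ∈ B, star (V (!a)) * x * V a = 0)
    (hω₁ : ∀ a, ∀ x ∈ B, ∀ y, ω (x * Q a * y) = 0)
    (hω₂ : ∀ a, ∀ x ∈ B, ∀ y, ω (y * Q a * x) = 0) :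
    ∃ v : Bool → D, Letter σ v ∧ HNN.Free ω B σ v := by
  have hQV : ∀ a, Q a * V a = V a * (1 - Q (!a)) := fun a => by
    calc Q a * V a = V a * (1 - Q (!a)) * star (V a) * V a := by rw [← hQ]
      _ = _ := by rw [mul_assoc, hV, mul_one]
  have hVQ : ∀ a, star (V a) * Q a = (1 - Q (!a)) * star (V a) := fun a => by
    have := congrArg star (hQV a)
    rwa [star_mul, star_mul, star_sub, star_one, hQs, hQs] at this
  have hR : ∀ a, (1 - Q a) * (1 - Q a) = 1 - Q a := fun a => by
    rw [sub_mul, one_mul, mul_sub, mul_one, hQQ]; simp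
  have hRQ : ∀ a, (1 - Q a) * Q a = 0 := fun a => by rw [sub_mul, one_mul, hQQ, sub_self]
  have hQR : ∀ a, Q a * (1 - Q a) = 0 := fun a => by rw [mul_sub, mul_one, hQQ, sub_self]
  let v : Bool → D := fun a => V a * (1 - Q (!a)) + (1 - Q a) * star (V (!a))
  have hv : ∀ a, v a = V a * (1 - Q (!a)) + (1 - Q a) * star (V (!a)) := fun _ => rfl
  have hQV' : ∀ a, Q (!a) * V (!a) = V (!a) * (1 - Q a) := fun a => by
    rw [hQV, Bool.not_not]
  have hVQ' : ∀ a, star (V (!a)) * Q (!a) = (1 - Q a) * star (V (!a)) := fun a => by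
    rw [hVQ, Bool.not_not]
  have hvQ : ∀ a, Q a * (v a * (1 - Q (!a))) = v a * (1 - Q (!a)) := fun a => by
    have e1 : (1 - Q a) * star (V (!a)) * (1 - Q (!a)) = 0 := by
      rw [← hVQ', mul_assoc, hQR, mul_zero]
    have e2 : v a * (1 - Q (!a)) = Q a * V a := by
      rw [hv, add_mul, e1, add_zero, mul_assoc, hR, hQV]
    rw [e2, ← mul_assoc, hQQ]
  refine ⟨v, ⟨fun a => ?_, fun a => ?_, fun a N => ?_⟩, ?_⟩
  · rw [hv, hv, star_add, star_mul, star_mul, star_sub, star_sub, star_one, hQs, hQs, star_star,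
      add_comm, Bool.not_not]
  · have e1 : V a * (1 - Q (!a)) * (V (!a) * (1 - Q a)) = 0 := by
      rw [← hQV', mul_assoc, ← mul_assoc (1 - Q (!a)), hRQ]; simp
    have e2 : (1 - Q a) * star (V (!a)) * ((1 - Q (!a)) * star (V a)) = 0 := by
      rw [← hVQ', mul_assoc, ← mul_assoc (Q (!a)), hQR]; simp
    have e3 : V a * (1 - Q (!a)) * ((1 - Q (!a)) * star (V a)) = Q a := by
      rw [mul_assoc, ← mul_assoc (1 - Q (!a)), hR, ← mul_assoc, ← hQ]
    have e4 : (1 - Q a) * star (V (!a)) * (V (!a) * (1 - Q a)) = 1 - Q a := by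
      rw [mul_assoc, ← mul_assoc (star (V (!a))), hV, one_mul, hR]
    rw [hv, hv, Bool.not_not, add_mul, mul_add, mul_add, e1, e2, e3, e4]
    simp
  · have f1 : (1 - Q (!a)) * σ a N = σ a N * (1 - Q (!a)) := by
      have := hQσ (!a) N
      rw [Bool.not_not] at this
      rw [sub_mul, mul_sub, this]; simp
    have f2 : (1 - Q a) * σ (!a) N = σ (!a) N * (1 - Q a) := by
      rw [sub_mul, mul_sub, hQσ]; simp
    have f3 : star (V (!a)) * σ a N = σ (!a) N * star (V (!a)) := by
      have := congrArg star (hVσ (!a) N)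
      rw [star_mul, star_mul, hσ, hσ, Bool.not_not] at this
      exact this.symm
    rw [hv, add_mul, mul_add, mul_assoc, f1, ← mul_assoc, hVσ, mul_assoc (1 - Q a), f3,
      ← mul_assoc (1 - Q a), f2]
    simp only [mul_assoc]
  · have hw : ∀ ε l R, Word ω B σ v ε l R → Q ε * (R * (1 - Q (!l))) = R * (1 - Q (!l)) := by
      intro ε l R hR'
      induction hR' with
      | one ε => exact hvQ ε
      | @cons ε ε' l x R hx hok _ ih =>
        have f0 : star (V (!ε)) * x * V ε' = 0 := by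
          by_cases h : ε = ε'
          · subst h; exact horth ε x hx
          · have h1 : ε' = !ε := Bool.eq_not_of_ne (Ne.symm h)
            subst h1
            refine hcen (!ε) x hx ?_
            rw [Bool.not_not]
            exact hok.resolve_left h
        have f1 : Q (!ε) * x * Q ε' = 0 := by
          calc Q (!ε) * x * Q ε' = V (!ε) * (1 - Q (!(!ε))) * star (V (!ε)) * x *
                (V ε' * (1 - Q (!ε')) * star (V ε')) := by rw [← hQ, ← hQ]
            _ = V (!ε) * (1 - Q (!(!ε))) * (star (V (!ε)) * x * V ε') * (1 - Q (!ε')) *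
                star (V ε') := by simp only [mul_assoc]
            _ = 0 := by rw [f0]; simp
        have f2 : x * Q ε' = (1 - Q (!ε)) * x * Q ε' := by rw [sub_mul, sub_mul, f1]; simp
        have f3 : v ε * x * R * (1 - Q (!l))
            = v ε * (1 - Q (!ε)) * (x * Q ε' * (R * (1 - Q (!l)))) := by
          calc v ε * x * R * (1 - Q (!l)) = v ε * x * (R * (1 - Q (!l))) := by
                simp only [mul_assoc]
            _ = v ε * x * (Q ε' * (R * (1 - Q (!l)))) := by rw [ih]
            _ = v ε * (x * Q ε') * (R * (1 - Q (!l))) := by simp only [mul_assoc]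
            _ = v ε * ((1 - Q (!ε)) * x * Q ε') * (R * (1 - Q (!l))) := by rw [← f2]
            _ = _ := by simp only [mul_assoc]
        rw [f3, ← mul_assoc, hvQ]
    intro ε l R hR' x₀ h₀ x₁ h₁
    have e : x₀ * R * x₁ = x₀ * Q ε * (R * (1 - Q (!l)) * x₁) + x₀ * R * Q (!l) * x₁ := by
      rw [mul_assoc x₀ (Q ε), ← mul_assoc (Q ε), hw ε l R hR']
      noncomm_ring
    rw [e, map_add, hω₁ _ _ h₀, hω₂ _ _ h₁, add_zero]

/-- placing an element in one of the two slots -/
def sl {M : Type*} [Zero M] (b : Bool) (x : M) : M × M := cond b (x, 0) (0, x)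

/-- the averaged functional on the product -/
noncomputable def avg {M : Type*} [CStarAlgebra M] (τ : M →L[ℂ] ℂ) : M × M →L[ℂ] ℂ :=
  (2⁻¹ : ℂ) • (τ.comp (ContinuousLinearMap.fst ℂ M M) + τ.comp (ContinuousLinearMap.snd ℂ M M))

lemma avg_apply {M : Type*} [CStarAlgebra M] (τ : M →L[ℂ] ℂ) (x : M × M) :
    avg τ x = 2⁻¹ * (τ x.1 + τ x.2) := rfl

lemma IsTr.avg {M : Type*} [CStarAlgebra M] {τ : M →L[ℂ] ℂ} (hτ : IsTr τ) : IsTr (avg τ) where
  one := by rw [avg_apply]; simp only [Prod.fst_one, Prod.snd_one, hτ.one]; norm_num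
  pos := fun x => by
    rw [avg_apply]
    exact mul_nonneg (by norm_num [Complex.le_def]) (add_nonneg (hτ.pos x.1) (hτ.pos x.2))
  comm := fun a b => by
    simp only [avg_apply, Prod.fst_mul, Prod.snd_mul]
    rw [hτ.comm a.1, hτ.comm a.2]
  faithful := fun x hx => by
    rw [avg_apply, mul_eq_zero] at hx
    have h := (add_eq_zero_iff_of_nonneg (hτ.pos x.1) (hτ.pos x.2)).1
      (hx.resolve_left (by norm_num))
    exact Prod.ext (hτ.faithful _ h.1) (hτ.faithful _ h.2)

theorem exists_hnn_model {M : Type} [CStarAlgebra M] (τ : M →L[ℂ] ℂ) (hτ : IsTr τ)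
    (ρ : Bool → ℕ → M) (hn : ∀ a, CStarPure.Nest (ρ a)) (h0 : ∀ a, ρ a 0 = 1)
    (hs : ∀ a, Tendsto (fun N => τ (ρ a N)) atTop (𝓝 0))
    (heq : ∀ N, τ (ρ true N) = τ (ρ false N)) :
    ∃ (D : Type) (_ : CStarAlgebra D) (π : M →⋆ₐ[ℂ] D) (ω : D →L[ℂ] ℂ) (v : Bool → D),
      CStarPure.IsState ω ∧ (∀ x, ω (π x) = τ x) ∧ Letter (fun a N => π (ρ a N)) v ∧
      HNN.Free ω π.range (fun a N => π (ρ a N)) v := by
  classical
  have hτ' := hτ.avg
  obtain ⟨H, i1, i2, i3, κ, π', C, hκ, hin, hπ, hC, hCs, hπC, hCC⟩ := exists_fock hτ'.pos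
  let Δ : M →⋆ₐ[ℂ] M × M := (StarAlgHom.id ℂ M).prod (StarAlgHom.id ℂ M)
  have hΔ : ∀ x, Δ x = (x, x) := fun _ => rfl
  let p : Bool → ℕ → M := fun a n => ρ a n - ρ a (n + 1)
  have hp : ∀ a n, IsStarProjection (p a n) := fun a n =>
    ((hn a).proj (n + 1)).sub_of_mul_eq_left ((hn a).proj n) ((hn a).mul_of_ge (Nat.le_succ n))
  have h1 : ∀ a n N, ρ a N * p a n = (if N ≤ n then (1 : ℂ) else 0) • p a n := fun a n N => by
    simp only [p, mul_sub]
    split_ifs with h
    · rw [(hn a).mul_of_le h, (hn a).mul_of_le (by omega), one_smul]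
    · rw [(hn a).mul_of_ge (by omega), (hn a).mul_of_ge (by omega), sub_self, zero_smul]
  have h2 : ∀ a n N, p a n * ρ a N = (if N ≤ n then (1 : ℂ) else 0) • p a n := fun a n N => by
    simp only [p, sub_mul]
    split_ifs with h
    · rw [(hn a).mul_of_ge h, (hn a).mul_of_ge (by omega), one_smul]
    · rw [(hn a).mul_of_le (by omega), (hn a).mul_of_le (by omega), sub_self, zero_smul]
  have h3 : ∀ a m n, m ≠ n → p a m * p a n = 0 := fun a m n h => by
    change p a m * (ρ a n - ρ a (n + 1)) = 0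
    rw [mul_sub, h2, h2]
    rcases lt_or_gt_of_ne h with h | h
    · rw [if_neg (by omega), if_neg (by omega), sub_self]
    · rw [if_pos (by omega), if_pos (by omega), sub_self]
  have hsl : ∀ (b : Bool) (x : M), IsStarProjection x → IsStarProjection (sl b x) := by
    intro b x hx
    rw [isStarProjection_iff']
    cases b <;> simp [sl, hx.isIdempotentElem.eq, hx.isSelfAdjoint.star_eq, Prod.star_def]
  have havg : ∀ (b : Bool) (x : M), avg τ (sl b x) = 2⁻¹ * τ x := by
    intro b x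
    cases b <;> simp [sl, avg_apply]
  have heq' : ∀ a N, τ (ρ (!a) N) = τ (ρ a N) := fun a N => by
    cases a
    · exact heq N
    · exact (heq N).symm
  have hex := fun a : Bool => exists_isometry2 (avg τ) hτ' (J := Bool × ℕ)
    (fun j => sl j.1 (p a j.2)) (fun j => sl a (p (!a) j.2)) (fun j => hsl _ _ (hp _ _))
    (fun j => hsl _ _ (hp _ _))
    (fun j l hjl => by
      obtain ⟨b, n⟩ := j
      obtain ⟨b', n'⟩ := l
      by_cases hb : b = b'
      · subst hb
        have : n ≠ n' := fun h => hjl (by rw [h])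
        cases b <;> simp [sl, h3 a n n' this]
      · cases b <;> cases b' <;> simp_all [sl])
    (fun j => by simp only [havg, p, map_sub, heq'])
    (fun N => Finset.univ ×ˢ Finset.range N)
    (fun N N' h => Finset.product_subset_product_right (Finset.range_mono h))
    (by
      refine (hs a).congr fun N => ?_
      have e : ∑ n ∈ Finset.range N, p a n = 1 - ρ a N := by
        rw [← h0 a]
        exact Finset.sum_range_sub' (ρ a) N
      rw [Finset.sum_product, avg_apply]
      simp [sl, Prod.fst_sum, Prod.snd_sum, e]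
      ring)
    κ π' C hκ hin hπ hC hCs hπC hCC
  choose V hV hcen hint hkey using hex
  have hpure : ∀ w a x ξ, ⟪κ (x, w), star (alt V (w.length + 1) a) ξ⟫_ℂ = 0 := fun w => by
    induction w with
    | nil =>
      intro a x ξ
      simpa [alt] using hkey a [] x ξ (fun a w' h => by simp at h)
    | cons b w ih =>
      intro a x ξ
      rw [List.length_cons, alt, star_mul, star_star, mul_apply_eq_comp]
      refine hkey _ _ _ _ fun a' w' h c => ?_
      obtain ⟨-, rfl⟩ := List.cons.inj h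
      exact ih _ c ξ
  have hpure' : ∀ w a x, alt V (w.length + 1) a (κ (x, w)) = 0 := fun w a x =>
    ext_inner_right ℂ fun ξ => by
      rw [← star_star (alt V _ a), ContinuousLinearMap.star_eq_adjoint,
        ContinuousLinearMap.adjoint_inner_left, hpure, inner_zero_left]
  obtain ⟨Q, hQs, hQQ, hQ, hQc⟩ := exists_parity2 hκ hV fun x a => ⟨_, hpure' x.2 a x.1⟩
  let π : M →⋆ₐ[ℂ] (H →L[ℂ] H) := π'.comp Δ
  have hπ' : ∀ x, π x = π' (x, x) := fun _ => rfl
  let ω := CStarPure.vecFun (StarAlgHom.id ℂ (H →L[ℂ] H)) (κ (1, [])) (κ (1, []))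
  have hω : ∀ T, ω T = ⟪κ (1, []), T (κ (1, []))⟫_ℂ := fun _ => rfl
  have hωπ : ∀ x, ω (π x) = τ x := fun x => by
    rw [hω, hπ', hπ, hin, avg_apply]
    simp [KL]
    ring
  have hσ : ∀ a N, star (π (ρ a N)) = π (ρ a N) := fun a N => by
    rw [← map_star, ((hn a).proj N).isSelfAdjoint.star_eq]
  have hVσ : ∀ a N, V a * π (ρ a N) = π (ρ (!a) N) * V a := fun a N => by
    refine hint a _ _ fun j => ⟨if N ≤ j.2 then 1 else 0, ?_, ?_⟩
    · obtain ⟨b, n⟩ := j
      by_cases h : N ≤ n <;> cases b <;> simp [sl, hΔ, h2, h]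
    · obtain ⟨b, n⟩ := j
      by_cases h : N ≤ n <;> cases a <;> simp [sl, hΔ, h1, h]
  have hVE : ∀ a, V a = π' (sl a 1) * V a := fun a => by
    have := hint a 1 (sl a 1) fun j => ⟨1, by simp, by cases a <;> simp [sl]⟩
    rwa [map_one, mul_one] at this
  have hΩ : ∀ a x, Q a (κ (x, [])) = 0 := fun a x => by
    have := hpure' [] a x
    simp only [List.length_nil, alt, one_mul] at this
    rw [hQ, mul_apply_eq_comp, this, map_zero]
  obtain ⟨v, hv, hf⟩ := hnn_of_parity π.range ω (fun a N => π (ρ a N)) V Q hV hQs hQQ hQ hσ hVσ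
    (fun a N => hQc (fun a => π (ρ a N)) (fun a => hσ a N) (fun a => hVσ a N) a)
    (by
      rintro a _ ⟨x, rfl⟩ hx
      refine hcen a (x, x) fun j => ?_
      have k : ∀ N, τ (x * ρ (!a) N) = 0 := fun N => by
        have := hx _ ⟨N, rfl⟩
        rw [hτ.comm, ← hωπ, map_mul]
        exact this
      have : (x, x) * sl a (p (!a) j.2) = sl a (x * p (!a) j.2) := by
        cases a <;> simp [sl]
      rw [this, havg, mul_sub, map_sub, k, k]
      simp)
    (by
      rintro a _ ⟨x, rfl⟩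
      rw [hVE a, hVE (!a), star_mul, ← map_star]
      have : star (sl (!a) (1 : M)) * (x, x) * sl a 1 = 0 := by
        cases a <;> simp [sl, Prod.star_def]
      calc star (V (!a)) * π' (star (sl (!a) (1 : M))) * π' (x, x) * (π' (sl a 1) * V a)
          = star (V (!a)) * π' (star (sl (!a) (1 : M)) * (x, x) * sl a 1) * V a := by
            simp only [map_mul, mul_assoc]
        _ = 0 := by rw [this]; simp)
    (by
      rintro a _ ⟨x, rfl⟩ y
      change ω (π' (x, x) * Q a * y) = 0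
      rw [hω, mul_apply_eq_comp, mul_apply_eq_comp, ← ContinuousLinearMap.adjoint_inner_left,
        ← ContinuousLinearMap.star_eq_adjoint, ← map_star, hπ,
        ← ContinuousLinearMap.adjoint_inner_left, ← ContinuousLinearMap.star_eq_adjoint, hQs, hΩ,
        inner_zero_left])
    (by
      rintro a _ ⟨x, rfl⟩ y
      change ω (y * Q a * π' (x, x)) = 0
      rw [hω, mul_apply_eq_comp, mul_apply_eq_comp, hπ, hΩ, map_zero, inner_zero_right])
  refine ⟨H →L[ℂ] H, inferInstance, π, ω, v, CStarPure.isState_vecFun _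
    (CStarPure.norm_eq_one_of_inner ?_), hωπ, hv, hf⟩
  rw [hin]
  simp [KL, hτ'.one]

end Crest.Agent.R120
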