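import Crest.Agent.R120.HModel

/-! Row 120: the state of an HNN model is a trace; transfer of the HNN data along graphs. -/

set_option autoImplicit false
open scoped ComplexOrder InnerProductSpace ComplexConjugate Topology
open Filter

namespace Crest.Agent.R120

open Crest.Agent.Lib Crest.Agent.Lib.HNN

section trace
variable {A : Type*} [CStarAlgebra A] {τ : A →L[ℂ] ℂ} {B C : StarSubalgebra ℂ A}
  {ρ : Bool → ℕ → A} {v : Bool → A}

/-- the functional `x ↦ τ (a x b)` -/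
noncomputable def sw (τ : A →L[ℂ] ℂ) (a b : A) : A →L[ℂ] ℂ :=
  τ.comp (ContinuousLinearMap.mulLeftRight ℂ A a b)

lemma sw_apply (τ : A →L[ℂ] ℂ) (a b x : A) : sw τ a b x = τ (a * x * b) := rfl

lemma split_eq (hτ : TrOn τ B) (hρ : Nests B ρ) (hpk : Pk B ρ) (a : Bool) (f g : A →L[ℂ] ℂ)
    (h1 : ∀ N, f (ρ a N) = g (ρ a N))
    (h2 : ∀ y ∈ B, y ∈ CStarPure.Cen τ (Set.range (ρ a)) → f y = g y) {x : A} (hx : x ∈ B) :
    f x = g x :=
  split_ind hτ hρ hpk a (LinearMap.eqLocus f.toLinearMap g.toLinearMap)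
    (isClosed_eq f.continuous g.continuous) h1 h2 hx

lemma span_eq {X : Set A} (f g : A →L[ℂ] ℂ) (h : ∀ x ∈ X, f x = g x) {x : A}
    (hx : x ∈ (Submodule.span ℂ X).topologicalClosure) : f x = g x := by
  have : (Submodule.span ℂ X).topologicalClosure ≤
      LinearMap.eqLocus f.toLinearMap g.toLinearMap :=
    Submodule.topologicalClosure_minimal _ (Submodule.span_le.mpr h)
      (isClosed_eq f.continuous g.continuous)
  exact this hx

theorem trOn_of_free (hτ : TrOn τ B) (hρ : Nests B ρ) (hpk : Pk B ρ) (hv : Letter ρ v)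
    (hf : HNN.Free τ B ρ v) (heq : ∀ N, τ (ρ true N) = τ (ρ false N)) (hC : Gen B v C)
    (hCc : IsClosed (C : Set A)) : TrOn τ C := by
  have heq' : ∀ a N, τ (ρ (!a) N) = τ (ρ a N) := fun a N => by
    cases a
    · exact heq N
    · exact (heq N).symm
  have hvv : ∀ a N, v a * ρ a N * v (!a) = ρ (!a) N := fun a N => by
    rw [hv.inter, mul_assoc, hv.mul_not, mul_one]
  have hvv' : ∀ a N, v (!a) * ρ (!a) N * v a = ρ a N := fun a N => by
    simpa using hvv (!a) N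
  have s1 : ∀ g ∈ B, ∀ y ∈ C, τ (g * y) = τ (y * g) := fun g hg y hy => by
    have := span_eq (sw τ g 1) (sw τ 1 g) ?_ (spanning hτ hρ hpk hv hC hy)
    · simpa [sw_apply] using this
    rintro _ (hy | ⟨ε, l, R, x, x', hR, hx, hx', rfl⟩)
    · simpa [sw_apply] using hτ.comm _ hg _ hy
    · have e1 := hf _ _ _ hR _ (mul_mem hg hx) _ hx'
      have e2 := hf _ _ _ hR _ hx _ (mul_mem hx' hg)
      simp only [sw_apply, mul_one, one_mul, mul_assoc] at e1 e2 ⊢
      rw [e1, e2]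
  have s2 : ∀ a, ∀ y ∈ C, τ (v a * y) = τ (y * v a) := fun a y hy => by
    have := span_eq (sw τ (v a) 1) (sw τ 1 (v a)) ?_ (spanning hτ hρ hpk hv hC hy)
    · simpa [sw_apply] using this
    rintro _ (hy | ⟨ε, l, R, x, x', hR, hx, hx', rfl⟩)
    · have e1 := hf _ _ _ (.one a) _ (one_mem _) _ hy
      have e2 := hf _ _ _ (.one a) _ hy _ (one_mem _)
      simp only [sw_apply, mul_one, one_mul] at e1 e2 ⊢
      rw [e1, e2]
    simp only [sw_apply, mul_one, one_mul]
    have L0 : ∀ y ∈ B, Ok τ ρ a y ε → τ (v a * y * (R * x')) = 0 := fun y hy hok => by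
      simpa only [one_mul, mul_assoc] using hf _ _ _ (.cons hy hok hR) _ (one_mem _) _ hx'
    have R0 : ∀ x ∈ B, ∀ y ∈ B, Ok τ ρ l y a → τ (x * R * y * v a) = 0 := fun x hx y hy hok => by
      simpa only [mul_one, mul_assoc] using
        hf _ _ _ (hR.append hy hok (.one a)) _ hx _ (one_mem _)
    have single : l = ε → R = v ε → τ (v a * (x * R * x')) = τ (x * R * x' * v a) := by
      rintro rfl rfl
      by_cases h : a = l
      · rw [R0 x hx x' hx' (.inl h.symm), ← L0 x hx (.inl h)]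
        simp only [mul_assoc]
      have h1 : l = !a := Bool.eq_not_of_ne (Ne.symm h)
      subst h1
      have := split_eq hτ hρ hpk a (sw τ (v a) (v (!a) * x')) (sw τ 1 (v (!a) * x' * v a))
        (fun N => ?_) (fun y hy hc => ?_) hx
      · simpa only [sw_apply, one_mul, mul_assoc] using this
      · simp only [sw_apply, one_mul]
        rw [← mul_assoc, hvv]
        have := split_eq hτ hρ hpk (!a) (sw τ (ρ (!a) N) 1) (sw τ (ρ a N * v (!a)) (v a))
          (fun M => ?_) (fun y hy hc => ?_) hx'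
        · simpa only [sw_apply, mul_one, mul_assoc] using this
        · simp only [sw_apply, mul_one]
          rw [mul_assoc (ρ a N), mul_assoc (ρ a N), hvv']
          rcases le_total N M with h | h
          · rw [(hρ.nest _).mul_of_le h, (hρ.nest _).mul_of_le h, heq']
          · rw [(hρ.nest _).mul_of_ge h, (hρ.nest _).mul_of_ge h, heq']
        · simp only [sw_apply, mul_one]
          rw [hc _ ⟨N, rfl⟩, R0 _ (hρ.mem a N) y hy (.inr hc)]
      · simp only [sw_apply, one_mul]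
        rw [L0 y hy (.inr hc)]
        have := split_eq hτ hρ hpk (!a) 0 (sw τ (y * v (!a)) (v a))
          (fun M => ?_) (fun z hz hc' => ?_) hx'
        · simpa only [sw_apply, mul_assoc, zero_apply] using this
        · simp only [sw_apply, zero_apply]
          rw [mul_assoc y, mul_assoc y, hvv', hτ.comm _ hy _ (hρ.mem a M), hc _ ⟨M, rfl⟩]
        · simp only [sw_apply, zero_apply]
          rw [R0 y hy z hz (.inr hc')]
    rcases hR.strip_left with ⟨h1, h2⟩ | ⟨ε', x₁, R₁, hx₁, -, hR₁, e₁⟩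
    · exact single h1 h2
    rcases hR.strip_right with ⟨h1, h2⟩ | ⟨l', x₂, R₂, hx₂, -, hR₂, e₂⟩
    · exact single h1.symm (h1 ▸ h2)
    have k1 : τ (v a * x * (R * x')) = 0 := by
      by_cases h : a = ε
      · exact L0 x hx (.inl h)
      have h1 : ε = !a := Bool.eq_not_of_ne (Ne.symm h)
      subst h1
      refine split_eq hτ hρ hpk a (sw τ (v a) (R * x')) 0 (fun N => ?_)
        (fun y hy hc => L0 y hy (.inr hc)) hx
      have := hf _ _ _ hR₁ _ (mul_mem (hρ.mem (!a) N) hx₁) _ hx'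
      rw [← hvv] at this
      simpa only [sw_apply, e₁, mul_assoc, zero_apply] using this
    have k2 : τ (x * R * x' * v a) = 0 := by
      by_cases h : l = a
      · exact R0 x hx x' hx' (.inl h)
      have h1 : a = !l := Bool.eq_not_of_ne (Ne.symm h)
      subst h1
      refine split_eq hτ hρ hpk l (sw τ (x * R) (v (!l))) 0 (fun N => ?_)
        (fun y hy hc => R0 x hx y hy (.inr hc)) hx'
      have := hf _ _ _ hR₂ _ hx _ (mul_mem hx₂ (hρ.mem (!l) N))
      rw [← hvv] at this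
      simpa only [sw_apply, e₂, mul_assoc, zero_apply] using this
    rw [k2, ← k1]
    simp only [mul_assoc]
  let V : Submodule ℂ A :=
    { carrier := {x | x ∈ C ∧ ∀ y ∈ C, τ (x * y) = τ (y * x)}
      add_mem' := fun {a b} ha hb => ⟨add_mem ha.1 hb.1, fun y hy => by
        rw [add_mul, mul_add, map_add, map_add, ha.2 y hy, hb.2 y hy]⟩
      zero_mem' := ⟨zero_mem _, fun y _ => by simp⟩
      smul_mem' := fun c a ha => ⟨SMulMemClass.smul_mem c ha.1, fun y hy => by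
        rw [smul_mul_assoc, mul_smul_comm, map_smul, map_smul, ha.2 y hy]⟩ }
  have hV : IsClosed (V : Set A) := by
    have : (V : Set A) = (C : Set A) ∩ ⋂ y ∈ C, {x | τ (x * y) = τ (y * x)} := by
      ext x; simp [V]
    rw [this]
    exact hCc.inter (isClosed_biInter fun y _ => isClosed_eq (by fun_prop) (by fun_prop))
  have key : ∀ g ∈ C, (∀ y ∈ C, τ (g * y) = τ (y * g)) → ∀ w ∈ V, g * w ∈ V :=
    fun g hg h w hw => ⟨mul_mem hg hw.1, fun y hy => by
      rw [mul_assoc, h _ (mul_mem hw.1 hy), mul_assoc, hw.2 _ (mul_mem hy hg), mul_assoc]⟩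
  exact ⟨hτ.toIsState, fun x hx y hy => (hC.ind V hV ⟨one_mem _, fun y _ => by simp⟩
    (fun b hb => key b (hC.le hb) (s1 b hb)) (fun a => key _ (hC.mem a) (s2 a)) x hx).2 y hy⟩

end trace

section transfer
variable {M A D : Type*} [CStarAlgebra M] [CStarAlgebra A] [CStarAlgebra D]

theorem exists_graph {G : Type*} [Group G] {τ : A →L[ℂ] ℂ} {ω : D →L[ℂ] ℂ} (ρ : G →* A)
    (ψ : G →* D) (hρ : ∀ g, star (ρ g) = ρ g⁻¹) (hψ : ∀ g, star (ψ g) = ψ g⁻¹)
    (h : ∀ g, τ (ρ g) = ω (ψ g)) :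
    ∃ Γ : StarSubalgebra ℂ (A × D), IsClosed (Γ : Set (A × D)) ∧ (∀ g, (ρ g, ψ g) ∈ Γ) ∧
      ∀ p ∈ Γ, τ p.1 = ω p.2 := by
  let V : Submodule ℂ (A × D) :=
    { carrier := {p | ∀ g, τ (ρ g * p.1) = ω (ψ g * p.2)}
      add_mem' := fun {a b} ha hb g => by
        rw [Prod.fst_add, Prod.snd_add, mul_add, mul_add, map_add, map_add, ha g, hb g]
      zero_mem' := fun g => by simp
      smul_mem' := fun c a ha g => by
        rw [Prod.smul_fst, Prod.smul_snd, mul_smul_comm, mul_smul_comm, map_smul, map_smul, ha g] }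
  have hV : IsClosed (V : Set (A × D)) := by
    have : (V : Set (A × D)) = ⋂ g, {p | τ (ρ g * p.1) = ω (ψ g * p.2)} := by
      ext x; simp [V]
    rw [this]
    exact isClosed_iInter fun y => isClosed_eq (by fun_prop) (by fun_prop)
  refine ⟨(StarAlgebra.adjoin ℂ (Set.range fun g => (ρ g, ψ g))).topologicalClosure,
    StarSubalgebra.isClosed_topologicalClosure _, fun g =>
      StarSubalgebra.le_topologicalClosure _ (StarAlgebra.subset_adjoin ℂ _ ⟨g, rfl⟩),
    fun p hp => ?_⟩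
  have := closure_adjoin_subset _ V hV (fun g => by simpa using h g) ?_ hp 1
  · simpa using this
  rintro _ ⟨g, rfl⟩ w hw
  refine ⟨fun k => ?_, fun k => ?_⟩
  · simpa [mul_assoc] using hw (k * g)
  · simpa [mul_assoc, Prod.star_def, hρ, hψ] using hw (k * g⁻¹)

theorem graph_transfer {τ : A →L[ℂ] ℂ} (hτ : IsTr τ) {ω : D →L[ℂ] ℂ}
    {Γ : StarSubalgebra ℂ (A × D)} (hΓ : ∀ p ∈ Γ, τ p.1 = ω p.2) (Ψ : M →⋆ₐ[ℂ] A)
    (π : M →⋆ₐ[ℂ] D) (h : ∀ x, (Ψ x, π x) ∈ Γ) {w : Bool → A} {v : Bool → D}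
    (hw : ∀ a, (w a, v a) ∈ Γ) {σ : Bool → ℕ → M} (hv : Letter (fun a N => π (σ a N)) v)
    (hf : HNN.Free ω π.range (fun a N => π (σ a N)) v) :
    Letter (fun a N => Ψ (σ a N)) w ∧ HNN.Free τ Ψ.range (fun a N => Ψ (σ a N)) w := by
  have key : ∀ p ∈ Γ, ∀ q ∈ Γ, p.2 = q.2 → p.1 = q.1 := fun p hp q hq e => by
    have h1 := hΓ _ (mul_mem (star_mem (sub_mem hp hq)) (sub_mem hp hq))
    simp only [Prod.fst_mul, Prod.snd_mul, Prod.fst_star, Prod.snd_star, Prod.fst_sub,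
      Prod.snd_sub, e, sub_self, mul_zero, map_zero] at h1
    exact sub_eq_zero.1 (hτ.faithful _ h1)
  refine ⟨⟨fun a => key _ (star_mem (hw a)) _ (hw (!a)) (hv.star_eq a),
    fun a => key _ (mul_mem (hw a) (hw (!a))) _ (one_mem _) (hv.mul_not a),
    fun a N => key _ (mul_mem (hw a) (h _)) _ (mul_mem (h _) (hw a)) (hv.inter a N)⟩, ?_⟩
  have hW : ∀ ε l R, Word τ Ψ.range (fun a N => Ψ (σ a N)) w ε l R →
      ∃ R', Word ω π.range (fun a N => π (σ a N)) v ε l R' ∧ (R, R') ∈ Γ := by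
    intro ε l R hR
    induction hR with
    | one ε => exact ⟨_, .one ε, hw ε⟩
    | @cons ε ε' l x R hx hok _ ih =>
      obtain ⟨x, rfl⟩ := hx
      obtain ⟨R', h1, h2⟩ := ih
      refine ⟨v ε * π x * R', .cons ⟨x, rfl⟩ (hok.imp_right fun hc => ?_) h1,
        mul_mem (mul_mem (hw ε) (h x)) h2⟩
      rintro _ ⟨N, rfl⟩
      exact (hΓ _ (mul_mem (h _) (h x))).symm.trans (hc _ ⟨N, rfl⟩)
  rintro ε l R hR _ ⟨x₀, rfl⟩ _ ⟨x₁, rfl⟩
  obtain ⟨R', h1, h2⟩ := hW ε l R hR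
  exact (hΓ _ (mul_mem (mul_mem (h x₀) h2) (h x₁))).trans (hf _ _ _ h1 _ ⟨x₀, rfl⟩ _ ⟨x₁, rfl⟩)

lemma injective_of_tr {τM : M →L[ℂ] ℂ} (hM : IsTr τM) {τ : A →L[ℂ] ℂ} (Ψ : M →⋆ₐ[ℂ] A)
    (h : ∀ x, τ (Ψ x) = τM x) : Function.Injective Ψ := by
  rw [injective_iff_map_eq_zero]
  intro x hx
  refine hM.faithful x ?_
  rw [← h, map_mul, hx, mul_zero, map_zero]

theorem valid_iff {τM : M →L[ℂ] ℂ} (hM : IsTr τM) {τ : A →L[ℂ] ℂ} (Ψ : M →⋆ₐ[ℂ] A)
    (h : ∀ x, τ (Ψ x) = τM x) (σ : Bool → ℕ → M) :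
    Valid τ Ψ.range (fun a N => Ψ (σ a N)) ↔ Valid τM ⊤ σ := by
  have hi := injective_of_tr hM Ψ h
  have hn : ∀ x, ‖Ψ x‖ = ‖x‖ := NonUnitalStarAlgHom.norm_map Ψ hi
  have e1 : ∀ a N x (c : ℂ), ‖Ψ (σ a N) * (Ψ x - c • 1) * Ψ (σ a N)‖
      = ‖σ a N * (x - c • 1) * σ a N‖ := fun a N x c => by
    rw [← hn]; simp
  have e2 : ∀ a N x, ‖Ψ (σ a N) * Ψ x * Ψ (σ (!a) N)‖ = ‖σ a N * x * σ (!a) N‖ := fun a N x => by
    rw [← hn]; simp
  have e3 : ∀ x, CStarPure.nrm τ (Ψ x) = CStarPure.nrm τM x := fun x => by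
    rw [CStarPure.nrm, CStarPure.nrm, ← h]; simp [map_star]
  constructor
  · intro H
    refine ⟨⟨fun a => ⟨fun N => ?_, fun {N N'} hN => hi ?_⟩, fun a => hi ?_,
      fun _ _ => StarSubalgebra.mem_top⟩, fun a x _ => ?_, fun a x _ => ?_, fun a => ?_,
      fun N => ?_⟩
    · have := (H.nests.nest a).proj N
      rw [isStarProjection_iff'] at this ⊢
      exact ⟨hi (by rw [map_mul]; exact this.1), hi (by rw [map_star]; exact this.2)⟩
    · rw [map_mul]; exact (H.nests.nest a).mul_of_le hN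
    · rw [map_one]; exact H.nests.zero a
    · simpa only [e1] using H.pk a (Ψ x) ⟨x, rfl⟩
    · simpa only [e2] using H.inq a (Ψ x) ⟨x, rfl⟩
    · simpa only [e3] using H.small a
    · simpa only [h] using H.eq N
  · intro H
    refine ⟨⟨fun a => ⟨fun N => ((H.nests.nest a).proj N).map Ψ, fun {N N'} hN => ?_⟩,
      fun a => ?_, fun _ _ => ⟨_, rfl⟩⟩, ?_, ?_, fun a => ?_, fun N => ?_⟩
    · rw [← map_mul, (H.nests.nest a).mul_of_le hN]
    · rw [H.nests.zero, map_one]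
    · rintro a _ ⟨x, rfl⟩
      exact (H.pk a x StarSubalgebra.mem_top).imp fun c hc => hc.congr fun N => (e1 a N x c).symm
    · rintro a _ ⟨x, rfl⟩
      exact (H.inq a x StarSubalgebra.mem_top).congr fun N => (e2 a N x).symm
    · simpa only [e3] using H.small a
    · simpa only [h] using H.eq N

end transfer

end Crest.Agent.R120
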