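import Mathlib

/-! Kadison transitivity (one vector) for irreducible representations. -/

set_option autoImplicit false
open scoped ComplexOrder InnerProductSpace ComplexConjugate Topology ComplexStarModule
open Filter

namespace Crest.Agent.R120

lemma starProjection_comm {E : Type*} [NormedAddCommGroup E] [InnerProductSpace ℂ E]
    (K : Submodule ℂ E) [K.HasOrthogonalProjection] (T T' : E →L[ℂ] E)
    (hadj : ∀ u v, ⟪T u, v⟫_ℂ = ⟪u, T' v⟫_ℂ) (h : ∀ v ∈ K, T v ∈ K) (h' : ∀ v ∈ K, T' v ∈ K)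
    (v : E) : K.starProjection (T v) = T (K.starProjection v) :=
  Submodule.eq_starProjection_of_mem_of_inner_eq_zero (h _ (K.starProjection_apply_mem v))
    fun w hw => by rw [← map_sub, hadj, K.starProjection_inner_eq_zero _ _ (h' w hw)]

variable {B H : Type*} [CStarAlgebra B] [NormedAddCommGroup H] [InnerProductSpace ℂ H]
  [CompleteSpace H] (π : B →⋆ₐ[ℂ] (H →L[ℂ] H))

lemma inner_rep (a : B) (u v : H) : ⟪π a u, v⟫_ℂ = ⟪u, π (star a) v⟫_ℂ := by
  rw [map_star, ContinuousLinearMap.star_eq_adjoint, ContinuousLinearMap.adjoint_inner_right]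

lemma rep_mul (a b : B) (v : H) : π (a * b) v = π a (π b v) := by rw [map_mul]; rfl

lemma norm_rep_le (a : B) (v : H) : ‖π a v‖ ≤ ‖a‖ * ‖v‖ :=
  ((π a).le_opNorm v).trans (mul_le_mul_of_nonneg_right
    (NonUnitalStarAlgHom.norm_apply_le π a) (norm_nonneg _))

variable
  (hirr : ∀ V : Submodule ℂ H, IsClosed (V : Set H) → (∀ a, ∀ v ∈ V, π a v ∈ V) → V = ⊥ ∨ V = ⊤)
include hirr

lemma schur_sa {T : H →L[ℂ] H} (hT : IsSelfAdjoint T) (hc : ∀ a, Commute T (π a)) :
    ∃ r : ℝ, T = algebraMap ℝ _ r := by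
  have key : ∀ S : H →L[ℂ] H, IsSelfAdjoint S → (∀ a, Commute S (π a)) → 0 ≤ S ∨ S ≤ 0 := by
    intro S hS hc
    have h1 : ∀ a, Commute S⁺ (π a) := fun a => (hc a).cfcₙ_real _
    rcases hirr (LinearMap.ker (S⁺).toLinearMap) (S⁺).isClosed_ker (fun a v hv => by
      have := congr($((h1 a).eq) v)
      simp only [LinearMap.mem_ker, ContinuousLinearMap.coe_coe,
        mul_apply_eq_comp] at hv this ⊢
      rw [this, hv, map_zero]) with h | h
    · left
      rw [← CFC.negPart_eq_zero_iff S hS]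
      ext v
      have : S⁻ v ∈ LinearMap.ker (S⁺).toLinearMap := congr($(CFC.posPart_mul_negPart S) v)
      rwa [h] at this
    · right
      rw [← CFC.posPart_eq_zero_iff S hS]
      ext v
      have : v ∈ LinearMap.ker (S⁺).toLinearMap := h ▸ trivial
      exact this
  have hsub : (spectrum ℝ T).Subsingleton := by
    have : ∀ x ∈ spectrum ℝ T, ∀ y ∈ spectrum ℝ T, ¬ x < y := by
      intro x hx y hy hxy
      rcases key (T - algebraMap ℝ _ ((x + y) / 2))
        (hT.sub (IsSelfAdjoint.algebraMap _ (IsSelfAdjoint.all _)))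
        (fun a => (hc a).sub_left (Algebra.commutes _ _)) with h | h
      · have := (algebraMap_le_iff_le_spectrum (a := T)).1 (sub_nonneg.1 h) x hx
        linarith
      · have := (le_algebraMap_iff_spectrum_le (a := T)).1 (sub_nonpos.1 h) y hy
        linarith
    exact fun x hx y hy => le_antisymm (not_lt.1 (this y hy x hx)) (not_lt.1 (this x hx y hy))
  rcases hsub.eq_empty_or_singleton with h | ⟨r, h⟩
  · exact ⟨0, CFC.eq_algebraMap_of_spectrum_subset_singleton T 0 (by simp [h])⟩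
  · exact ⟨r, CFC.eq_algebraMap_of_spectrum_subset_singleton T r h.le⟩

lemma schur {T : H →L[ℂ] H} (hc : ∀ a v, T (π a v) = π a (T v)) : ∃ l : ℂ, ∀ v, T v = l • v := by
  have h1 : ∀ a, Commute T (π a) := fun a => ContinuousLinearMap.ext (hc a)
  have h2 : ∀ a, Commute (star T) (π a) := fun a => by
    have := (h1 (star a)).star_star
    rwa [map_star, star_star] at this
  obtain ⟨r, hr⟩ := schur_sa π hirr (ℜ T).2 fun a => by
    rw [realPart_apply_coe]; exact ((h1 a).add_left (h2 a)).smul_left _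
  obtain ⟨s, hs⟩ := schur_sa π hirr (ℑ T).2 fun a => by
    rw [imaginaryPart_apply_coe]; exact (((h1 a).sub_left (h2 a)).smul_left _).smul_left _
  refine ⟨r + Complex.I * s, fun v => ?_⟩
  conv_lhs => rw [← realPart_add_I_smul_imaginaryPart T, hr, hs]
  simp [Algebra.algebraMap_eq_smul_one, add_smul, mul_smul]

lemma two_density {ξ β α ζ : H} (h : ∀ x, ⟪α, π x ξ⟫_ℂ + ⟪ζ, π x β⟫_ℂ = 0) (T : H →L[ℂ] H) :
    ⟪α, T ξ⟫_ℂ + ⟪ζ, T β⟫_ℂ = 0 := by
  let e := WithLp.prodContinuousLinearEquiv 2 ℂ H H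
  let D : (H →L[ℂ] H) → (WithLp 2 (H × H) →L[ℂ] WithLp 2 (H × H)) := fun T =>
    (e.symm : H × H →L[ℂ] _) ∘L (T.prodMap T) ∘L (e : _ →L[ℂ] H × H)
  have hD : ∀ T u v, D T (WithLp.toLp 2 (u, v)) = WithLp.toLp 2 (T u, T v) := fun _ _ _ => rfl
  let K₀ : Submodule ℂ (WithLp 2 (H × H)) :=
    { carrier := Set.range fun x => WithLp.toLp 2 (π x ξ, π x β)
      add_mem' := by
        rintro _ _ ⟨x, rfl⟩ ⟨y, rfl⟩
        exact ⟨x + y, by simp [← WithLp.toLp_add]⟩
      zero_mem' := ⟨0, by simp⟩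
      smul_mem' := by
        rintro c _ ⟨x, rfl⟩
        exact ⟨c • x, by simp [← WithLp.toLp_smul]⟩ }
  let K := K₀.topologicalClosure
  have hK : ∀ a, ∀ v ∈ K, D (π a) v ∈ K := fun a v hv =>
    map_mem_closure (D (π a)).continuous hv (by
      rintro _ ⟨x, rfl⟩
      exact ⟨a * x, by simp [hD]⟩)
  have hP : ∀ a v, K.starProjection (D (π a) v) = D (π a) (K.starProjection v) := fun a =>
    starProjection_comm K _ (D (π (star a))) (fun u v => by
      simp only [WithLp.prod_inner_apply]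
      exact congrArg₂ (· + ·) (inner_rep π a _ _) (inner_rep π a _ _)) (hK a) (hK _)
  let i₁ : H →L[ℂ] WithLp 2 (H × H) := (e.symm : H × H →L[ℂ] _) ∘L .inl ℂ H H
  let i₂ : H →L[ℂ] WithLp 2 (H × H) := (e.symm : H × H →L[ℂ] _) ∘L .inr ℂ H H
  let p₁ : WithLp 2 (H × H) →L[ℂ] H := .fst ℂ H H ∘L (e : _ →L[ℂ] H × H)
  let p₂ : WithLp 2 (H × H) →L[ℂ] H := .snd ℂ H H ∘L (e : _ →L[ℂ] H × H)
  have hi₁ : ∀ T v, i₁ (T v) = D T (i₁ v) := fun T v => by
    change WithLp.toLp 2 (T v, 0) = WithLp.toLp 2 (T v, T 0); simp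
  have hi₂ : ∀ T v, i₂ (T v) = D T (i₂ v) := fun T v => by
    change WithLp.toLp 2 (0, T v) = WithLp.toLp 2 (T 0, T v); simp
  have blk : ∀ (p : WithLp 2 (H × H) →L[ℂ] H) (i : H →L[ℂ] WithLp 2 (H × H)),
      (∀ T w, p (D T w) = T (p w)) → (∀ T v, i (T v) = D T (i v)) →
      ∀ v, p (K.starProjection (i (T v))) = T (p (K.starProjection (i v))) := by
    intro p i hp hi
    obtain ⟨l, hl⟩ := schur π hirr (T := p ∘L K.starProjection ∘L i) fun a v => by
      simp only [ContinuousLinearMap.comp_apply]; rw [hi, hP, hp]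
    intro v
    simp only [ContinuousLinearMap.comp_apply] at hl
    rw [hl, hl, map_smul]
  have hdec : ∀ u v : H, WithLp.toLp 2 (u, v) = i₁ u + i₂ v := fun u v => by
    change _ = WithLp.toLp 2 (u, 0) + WithLp.toLp 2 (0, v)
    simp [← WithLp.toLp_add]
  have hm : WithLp.toLp 2 (ξ, β) ∈ K := K₀.le_topologicalClosure ⟨1, by simp⟩
  have hm' := Submodule.starProjection_eq_self_iff.2 hm
  have hfix : K.starProjection (WithLp.toLp 2 (T ξ, T β)) = WithLp.toLp 2 (T ξ, T β) := by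
    have h1 : p₁ (K.starProjection (WithLp.toLp 2 (T ξ, T β))) = T ξ := by
      rw [hdec, map_add, map_add, blk p₁ i₁ (fun _ _ => rfl) hi₁, blk p₁ i₂ (fun _ _ => rfl) hi₂,
        ← map_add, ← map_add, ← map_add, ← hdec, hm']; rfl
    have h2 : p₂ (K.starProjection (WithLp.toLp 2 (T ξ, T β))) = T β := by
      rw [hdec, map_add, map_add, blk p₂ i₁ (fun _ _ => rfl) hi₁, blk p₂ i₂ (fun _ _ => rfl) hi₂,
        ← map_add, ← map_add, ← map_add, ← hdec, hm']; rfl
    apply e.injective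
    exact Prod.ext h1 h2
  have hmem := Submodule.starProjection_eq_self_iff.1 hfix
  have hcl : IsClosed {w : WithLp 2 (H × H) | ⟪WithLp.toLp 2 (α, ζ), w⟫_ℂ = 0} :=
    isClosed_eq (by fun_prop) (by fun_prop)
  exact hcl.closure_subset (closure_mono (by
    rintro _ ⟨x, rfl⟩
    exact h x) hmem)

lemma approx_pair {ξ ζ : H} (hζ : ‖ζ‖ = 1) (hξ : ‖ξ‖ = 1) {ε : ℝ} (hε : 0 < ε) :
    ∃ x : B, ‖π x ξ - ζ‖ < ε ∧ ‖π (star x) ζ - ξ‖ < ε := by
  let _ : InnerProductSpace ℝ H := InnerProductSpace.complexToReal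
  have hre : ∀ u v : H, ⟪u, v⟫_ℝ = (⟪u, v⟫_ℂ).re := fun _ _ => rfl
  let W : Submodule ℝ (WithLp 2 (H × H)) :=
    { carrier := Set.range fun x => WithLp.toLp 2 (π x ξ, π (star x) ζ)
      add_mem' := by
        rintro _ _ ⟨x, rfl⟩ ⟨y, rfl⟩
        exact ⟨x + y, by simp [← WithLp.toLp_add]⟩
      zero_mem' := ⟨0, by simp⟩
      smul_mem' := by
        rintro c _ ⟨x, rfl⟩
        refine ⟨(c : ℂ) • x, ?_⟩
        simp only [← WithLp.toLp_smul, star_smul, map_smul, Prod.smul_mk]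
        simp }
  have hm : WithLp.toLp 2 (ζ, ξ) ∈ W.topologicalClosure := by
    rw [← Submodule.orthogonal_orthogonal_eq_closure, Submodule.mem_orthogonal]
    intro w hw
    rw [Submodule.mem_orthogonal'] at hw
    obtain ⟨α, β⟩ := w
    have h0 : ∀ x, (⟪α, π x ξ⟫_ℂ + ⟪ζ, π x β⟫_ℂ).re = 0 := fun x => by
      have := hw _ ⟨x, rfl⟩
      simp only [WithLp.prod_inner_apply, hre] at this
      rw [Complex.add_re, ← this, ← inner_rep, ← inner_conj_symm ζ, Complex.conj_re]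
    have h1 : ∀ x, ⟪α, π x ξ⟫_ℂ + ⟪ζ, π x β⟫_ℂ = 0 := fun x => by
      refine Complex.ext (h0 x) ?_
      have := h0 (Complex.I • x)
      simp only [map_smul, smul_apply, inner_smul_right, ← mul_add] at this
      simpa [-Complex.add_im, -Complex.add_re] using this
    have := two_density π hirr h1 ((innerSL ℂ ξ).smulRight ζ)
    simp only [ContinuousLinearMap.smulRight_apply, innerSL_apply_apply, inner_smul_right,
      inner_self_eq_norm_sq_to_K, hζ, hξ] at this
    simp only [WithLp.prod_inner_apply, hre]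
    rw [← inner_conj_symm β, Complex.conj_re, ← Complex.add_re]
    simpa using congrArg Complex.re this
  obtain ⟨_, ⟨x, rfl⟩, hx⟩ := Metric.mem_closure_iff.1 hm ε hε
  rw [dist_comm, dist_eq_norm] at hx
  exact ⟨x, (WithLp.norm_fst_le ..).trans_lt hx, (WithLp.norm_snd_le ..).trans_lt hx⟩

lemma approx_contraction {ξ : H} (hξ : ‖ξ‖ = 1) (η : H) :
    ∃ y : B, ‖y‖ ≤ ‖η‖ ∧ ‖η - π y ξ‖ ≤ ‖η‖ / 2 := by
  rcases eq_or_ne η 0 with rfl | hη
  · exact ⟨0, by simp, by simp⟩
  let _ := CStarAlgebra.spectralOrder B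
  have _ := CStarAlgebra.spectralOrderedRing B
  have hn : 0 < ‖η‖ := norm_pos_iff.2 hη
  set ζ := ((‖η‖⁻¹ : ℝ) : ℂ) • η with hζd
  have hζ : ‖ζ‖ = 1 := by simp [hζd, norm_smul, hn.ne']
  obtain ⟨x, h1, h2⟩ := approx_pair π hirr hζ hξ (show (0 : ℝ) < 1 / 4 by norm_num)
  set h := x * star x
  have h0 : 0 ≤ h := mul_star_self_nonneg x
  have hu : IsStrictlyPositive (1 + h) := isStrictlyPositive_one.add_nonneg h0
  set u := Ring.inverse (1 + h)
  have hu1 : u * (1 + h) = 1 := Ring.inverse_mul_cancel _ hu.isUnit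
  have hu2 : (1 + h) * u = 1 := Ring.mul_inverse_cancel _ hu.isUnit
  have hu0 : 0 ≤ u := hu.ringInverse.nonneg
  have hule : u ≤ 1 := by
    simpa using CStarAlgebra.ringInverse_le_ringInverse (a := 1) (b := 1 + h) (by simpa using h0)
  have hun : ‖u‖ ≤ 1 := (CStarAlgebra.norm_le_one_iff_of_nonneg u).2 hule
  have hux : ‖(2 : ℂ) • (u * x)‖ ≤ 1 := by
    have e : ((2 : ℂ) • (u * x)) * star ((2 : ℂ) • (u * x)) =
        1 - star ((1 - h) * u) * ((1 - h) * u) := by
      have hs : star h = h := h0.isSelfAdjoint.star_eq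
      have e1 : u * (1 + h) * ((1 + h) * u) = 1 := by rw [hu1, hu2, one_mul]
      simp only [star_smul, star_mul, hu0.isSelfAdjoint.star_eq, star_sub, star_one, hs,
        smul_mul_assoc, mul_smul_comm, smul_smul, star_ofNat]
      have : u * x * (star x * u) = u * h * u := by simp only [h, mul_assoc]
      rw [this, show (2 * 2 : ℂ) = ((4 : ℕ) : ℂ) by norm_num, Nat.cast_smul_eq_nsmul,
        eq_sub_iff_add_eq]
      refine Eq.trans ?_ e1
      noncomm_ring
    have h3 : ‖((2 : ℂ) • (u * x)) * star ((2 : ℂ) • (u * x))‖ ≤ 1 := by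
      rw [CStarAlgebra.norm_le_one_iff_of_nonneg _ (mul_star_self_nonneg _), e]
      exact sub_le_self _ (star_mul_self_nonneg _)
    rw [CStarRing.norm_self_mul_star] at h3
    nlinarith [norm_nonneg ((2 : ℂ) • (u * x))]
  have hux' : ‖u * x‖ ≤ 1 := by
    rw [norm_smul] at hux
    simp only [Complex.norm_ofNat] at hux
    linarith [norm_nonneg (u * x)]
  have e : ζ - π ((2 : ℂ) • (u * x)) ξ =
      π (u * x) (π (star x) ζ - ξ) - π u (π x ξ - ζ) := by
    have : ζ = π u ζ + π (u * x) (π (star x) ζ) := by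
      rw [← rep_mul, mul_assoc, ← add_apply, ← map_add, ← mul_one_add, hu1]
      simp
    simp only [map_sub, map_add, add_apply, ← rep_mul π u x, two_smul]
    conv_lhs => rw [this]
    abel
  refine ⟨(‖η‖ : ℂ) • ((2 : ℂ) • (u * x)), ?_, ?_⟩
  · rw [norm_smul]; simpa using mul_le_of_le_one_right hn.le hux
  · have e2 : η - π ((‖η‖ : ℂ) • ((2 : ℂ) • (u * x))) ξ =
        (‖η‖ : ℂ) • (ζ - π ((2 : ℂ) • (u * x)) ξ) := by
      rw [smul_sub, hζd, map_smul π (‖η‖ : ℂ), smul_smul]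
      simp [hn.ne']
    rw [e2, norm_smul, e]
    have t1 := norm_rep_le π (u * x) (π (star x) ζ - ξ)
    have t2 := norm_rep_le π u (π x ξ - ζ)
    have t3 := norm_sub_le (π (u * x) (π (star x) ζ - ξ)) (π u (π x ξ - ζ))
    have t4 : ‖π (u * x) (π (star x) ζ - ξ) - π u (π x ξ - ζ)‖ ≤ 1 / 2 := by
      nlinarith [norm_nonneg (π (star x) ζ - ξ), norm_nonneg (π x ξ - ζ)]
    simp only [Complex.norm_real, norm_norm]
    nlinarith

theorem irr_exists_apply_eq {ξ : H} (hξ : ‖ξ‖ = 1) (η : H) :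
    ∃ x : B, π x ξ = η ∧ ‖x‖ ≤ 2 * ‖η‖ := by
  choose f hf1 hf2 using approx_contraction π hirr hξ
  let g : H → H := fun v => v - π (f v) ξ
  let u : ℕ → B := fun n => f (g^[n] η)
  have hg : ∀ n, ‖g^[n] η‖ ≤ ‖η‖ * (1 / 2) ^ n := by
    intro n
    induction n with
    | zero => simp
    | succ n ih =>
      rw [Function.iterate_succ_apply', pow_succ]
      exact (hf2 _).trans (by linarith)
  have hu : ∀ n, ‖u n‖ ≤ ‖η‖ * (1 / 2) ^ n := fun n => (hf1 _).trans (hg n)
  have hs := hasSum_geometric_two.mul_left ‖η‖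
  have hsum : Summable u := Summable.of_norm_bounded hs.summable hu
  let L : B →L[ℂ] H := LinearMap.mkContinuous
    { toFun := fun x => π x ξ, map_add' := by simp, map_smul' := by simp } 1
    (fun x => by simpa [hξ] using norm_rep_le π x ξ)
  have hL : ∀ x, L x = π x ξ := fun _ => rfl
  refine ⟨∑' n, u n, ?_, by rw [mul_comm]; exact tsum_of_norm_bounded hs hu⟩
  have h1 := (hsum.hasSum.mapL L).tendsto_sum_nat
  have h2 : ∀ N, ∑ n ∈ Finset.range N, L (u n) = η - g^[N] η := by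
    intro N
    induction N with
    | zero => simp
    | succ N ih =>
      rw [Finset.sum_range_succ, ih, Function.iterate_succ_apply', hL]
      simp only [g, u]; abel
  have h3 : Tendsto (fun N => η - g^[N] η) atTop (𝓝 (η - 0)) :=
    tendsto_const_nhds.sub (squeeze_zero_norm hg (by
      simpa using (tendsto_pow_atTop_nhds_zero_of_lt_one (r := (1 / 2 : ℝ)) (by norm_num)
        (by norm_num)).const_mul ‖η‖))
  simp only [h2] at h1
  rw [← hL, tendsto_nhds_unique h1 h3, sub_zero]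

lemma irr_eq_zero {η w : H} (hη : η ≠ 0) (h : ∀ x, ⟪π x η, w⟫_ℂ = 0) : w = 0 := by
  have hn : 0 < ‖η‖ := norm_pos_iff.2 hη
  obtain ⟨x, hx, -⟩ := irr_exists_apply_eq π hirr (ξ := ((‖η‖⁻¹ : ℝ) : ℂ) • η)
    (by simp [norm_smul, hn.ne']) w
  have := h x
  rw [← inner_self_eq_zero (𝕜 := ℂ)]
  have e : ⟪w, w⟫_ℂ = ⟪π x (((‖η‖⁻¹ : ℝ) : ℂ) • η), w⟫_ℂ := by rw [hx]
  rw [e, map_smul, inner_smul_left, this, mul_zero]

theorem irr_ker_approx {ξ : H} (hξ : ‖ξ‖ = 1) {z : B} (hz : ⟪ξ, π z ξ⟫_ℂ = 0) {ε : ℝ}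
    (hε : 0 < ε) : ∃ l₁ l₂ : B, π l₁ ξ = 0 ∧ π l₂ ξ = 0 ∧ ‖z - l₁ - star l₂‖ ≤ ε := by
  set η := π z ξ with hηd
  rcases eq_or_ne η 0 with hη | hη
  · exact ⟨z, 0, hη, by simp, by simpa using hε.le⟩
  let W : Submodule ℂ H :=
    { carrier := {v | ∃ b, π b ξ = 0 ∧ v = π (star b) η}
      add_mem' := by
        rintro _ _ ⟨x, hx, rfl⟩ ⟨y, hy, rfl⟩
        exact ⟨x + y, by simp [hx, hy], by simp⟩
      zero_mem' := ⟨0, by simp, by simp⟩
      smul_mem' := by
        rintro c _ ⟨x, hx, rfl⟩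
        exact ⟨star c • x, by simp [hx], by simp⟩ }
  have hm : η ∈ W.topologicalClosure := by
    rw [← Submodule.orthogonal_orthogonal_eq_closure, Submodule.mem_orthogonal]
    intro ζ hζ
    rw [Submodule.mem_orthogonal] at hζ
    have h1 : ∀ b, π b ξ = 0 → π b ζ = 0 := fun b hb => irr_eq_zero π hirr hη fun x => by
      have := hζ _ ⟨star x * b, by rw [rep_mul, hb, map_zero], rfl⟩
      rwa [star_mul, star_star, rep_mul, inner_rep, star_star] at this
    choose f hf1 hf2 using irr_exists_apply_eq π hirr hξ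
    have h2 : ∀ x, π (f (π x ξ)) ζ = π x ζ := fun x => by
      have := h1 (f (π x ξ) - x) (by simp [hf1])
      simpa [sub_eq_zero] using this
    let T : H →L[ℂ] H := LinearMap.mkContinuous
      { toFun := fun v => π (f v) ζ
        map_add' := fun v w => by
          conv_lhs => rw [← hf1 v, ← hf1 w, ← add_apply, ← map_add, h2]
          simp
        map_smul' := fun c v => by
          conv_lhs => rw [← hf1 v, ← smul_apply, ← map_smul, h2]
          simp } (2 * ‖ζ‖) fun v => (norm_rep_le π _ _).trans (by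
            have := hf2 v
            nlinarith [norm_nonneg ζ])
    have hT : ∀ x, T (π x ξ) = π x ζ := h2
    obtain ⟨l, hl⟩ := schur π hirr (T := T) fun a v => by
      rw [← hf1 v, ← rep_mul, hT, hT, rep_mul]
    have h3 : ζ = l • ξ := by simpa [hl] using (hT 1).symm
    rw [h3, inner_smul_left, hz, mul_zero]
  obtain ⟨_, ⟨b, hb, rfl⟩, hx⟩ := Metric.mem_closure_iff.1 hm (ε / 2) (half_pos hε)
  obtain ⟨x, hx1, hx2⟩ := irr_exists_apply_eq π hirr hξ (η - π (star b) η)
  refine ⟨(1 - star b) * z - x, star z * b, ?_, by rw [rep_mul, hb, map_zero], ?_⟩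
  · simp [hx1, hηd]
  · rw [dist_eq_norm] at hx
    have : z - ((1 - star b) * z - x) - star (star z * b) = x := by
      simp only [star_mul, star_star]; noncomm_ring
    rw [this]; linarith

end Crest.Agent.R120
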