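import Crest.Agent.R120.ModelAux

/-! Row 120: the Fock model of `A *_D (D ⋊ ℤ/2)`. -/

set_option autoImplicit false
open scoped ComplexOrder InnerProductSpace ComplexConjugate Topology
open Filter

namespace Crest.Agent.R120

lemma isStarProjection_sum {M J : Type*} [Ring M] [StarRing M] (g : J → M)
    (hg : ∀ j, IsStarProjection (g j)) (horth : ∀ j l, j ≠ l → g j * g l = 0) (S : Finset J) :
    IsStarProjection (∑ j ∈ S, g j) := by
  classical
  induction S using Finset.induction_on with
  | empty => simp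
  | insert a S ha ih =>
    rw [Finset.sum_insert ha]
    refine (hg a).add ih ?_
    rw [Finset.mul_sum]
    exact Finset.sum_eq_zero fun l hl => horth _ _ (by rintro rfl; exact ha hl)

/-- the isometry `V` -/
theorem exists_isometry {M : Type} [CStarAlgebra M] (τ : M →L[ℂ] ℂ) (hτ : IsTr τ) {J : Type}
    (g g' : J → M) (hg : ∀ j, IsStarProjection (g j)) (hg' : ∀ j, IsStarProjection (g' j))
    (horth : ∀ j l, j ≠ l → g j * g l = 0) (htr : ∀ j, τ (g' j) = τ (g j)) (F : ℕ → Finset J)
    (hF : Monotone F) (hlim : Tendsto (fun N => τ (1 - ∑ j ∈ F N, g j)) atTop (𝓝 0))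
    {H : Type} [NormedAddCommGroup H] [InnerProductSpace ℂ H] [CompleteSpace H]
    (κ : M × List M → H) (π : M →⋆ₐ[ℂ] (H →L[ℂ] H)) (C : M → (H →L[ℂ] H))
    (hκ : DenseRange (Finsupp.linearCombination ℂ κ))
    (hin : ∀ x y w w', ⟪κ (x, w), κ (y, w')⟫_ℂ = τ (star x * y) * KL τ w w')
    (hπ : ∀ a x w, π a (κ (x, w)) = κ (a * x, w))
    (hC : ∀ y x w, C y (κ (x, w)) = κ (y, x :: w))
    (hCs : ∀ (l : ℂ) y, C (l • y) = l • C y) (hπC : ∀ a y, π a * C y = C (a * y))
    (hCC : ∀ y y', star (C y) * C y' = τ (star y * y') • 1) :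
    ∃ V : H →L[ℂ] H, star V * V = 1 ∧ (∀ x, (∀ j, τ (x * g' j) = 0) → star V * π x * V = 0) ∧
      (∀ c c', (∀ j, ∃ l : ℂ, g j * c = l • g j ∧ c' * g' j = l • g' j) → V * π c = π c' * V) ∧
      ∀ w x ξ, ⟪κ (x, w), (V ^ (w.length + 1)) ξ⟫_ℂ = 0 := by
  classical
  -- normalising constants
  have hr : ∀ j, ∃ r : ℂ, τ (star (r • g' j) * (r • g' j)) • g j = g j := fun j => by
    have e : star (g j) * g j = g j := by
      rw [(hg j).isSelfAdjoint.star_eq, (hg j).isIdempotentElem.eq]
    have e' : star (g' j) * g' j = g' j := by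
      rw [(hg' j).isSelfAdjoint.star_eq, (hg' j).isIdempotentElem.eq]
    by_cases h0 : nm τ (g j) = 0
    · have : g j = 0 := hτ.faithful _ (hτ.pos.nm_eq_zero_iff.1 h0)
      exact ⟨0, by simp [this]⟩
    · refine ⟨((nm τ (g j))⁻¹ : ℝ), ?_⟩
      have h1 := hτ.pos.nm_sq' (g j)
      rw [e] at h1
      rw [star_smul, smul_mul_smul_comm, e', map_smul, htr, ← h1, smul_eq_mul]
      have h0' : ((nm τ (g j) : ℝ) : ℂ) ≠ 0 := by exact_mod_cast h0
      have : star (((nm τ (g j))⁻¹ : ℝ) : ℂ) * (((nm τ (g j))⁻¹ : ℝ) : ℂ) *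
          ((nm τ (g j) ^ 2 : ℝ) : ℂ) = 1 := by
        rw [← starRingEnd_apply, Complex.conj_ofReal]
        push_cast
        field_simp
      rw [this, one_smul]
  choose r hr using hr
  set y : J → M := fun j => r j • g' j with hy
  set P : ℕ → M := fun N => ∑ j ∈ F N, g j with hP
  set W : ℕ → H →L[ℂ] H := fun N => ∑ j ∈ F N, C (y j) * π (g j) with hW
  have hPp : ∀ N, IsStarProjection (P N) := fun N => isStarProjection_sum g hg horth _
  have hWW : ∀ N x, star (W N) * π x * W N =
      ∑ j ∈ F N, τ (star (y j) * (x * y j)) • π (g j) := fun N x => by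
    simp only [hW, star_sum, Finset.sum_mul, Finset.mul_sum]
    refine Finset.sum_congr rfl fun l hl => ?_
    have e : ∀ j, star (C (y j) * π (g j)) * π x * (C (y l) * π (g l)) =
        τ (star (y j) * (x * y l)) • π (g j * g l) := fun j => by
      calc star (C (y j) * π (g j)) * π x * (C (y l) * π (g l))
          = π (g j) * (star (C (y j)) * (π x * C (y l))) * π (g l) := by
            rw [star_mul, ← map_star, (hg j).isSelfAdjoint.star_eq]; simp only [mul_assoc]
        _ = _ := by rw [hπC, hCC, map_mul π]; simp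
    simp only [e]
    rw [Finset.sum_eq_single l (fun j _ hj => by rw [horth j l hj]; simp) (fun h => (h hl).elim),
      (hg l).isIdempotentElem.eq]
  have hW1 : ∀ N, star (W N) * W N = π (P N) := fun N => by
    have := hWW N 1
    rw [map_one, mul_one] at this
    rw [this, hP, map_sum]
    refine Finset.sum_congr rfl fun j _ => ?_
    rw [one_mul, ← map_smul, hr]
  have hπP : ∀ N, ‖π (P N)‖ ≤ 1 := fun N => ((hPp N).map π).norm_le
  have hWn : ∀ N, ‖W N‖ ≤ 1 := fun N => by
    have := hπP N
    rw [← hW1, CStarRing.norm_star_mul_self] at this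
    nlinarith [norm_nonneg (W N)]
  have hWP : ∀ m N, m ≤ N → W N * π (P m) = W m := fun m N h => by
    simp only [hW, Finset.sum_mul, mul_assoc, ← map_mul]
    rw [← Finset.sum_subset (hF h)]
    · refine Finset.sum_congr rfl fun j hj => ?_
      rw [hP, Finset.mul_sum, Finset.sum_eq_single j (fun l _ hl => horth j l (Ne.symm hl))
        (fun h => (h hj).elim), (hg j).isIdempotentElem.eq]
    · intro j _ hj
      rw [hP, Finset.mul_sum, Finset.sum_eq_zero
        (fun l hl => horth j l (by rintro rfl; exact hj hl))]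
      simp
  have hPlim : ∀ ξ, Tendsto (fun N => π (P N) ξ) atTop (𝓝 ξ) := by
    refine tendsto_of_total hκ (fun N => π (P N)) hπP 1 fun p => ?_
    obtain ⟨x, w⟩ := p
    rw [one_apply_eq_self, tendsto_iff_norm_sub_tendsto_zero]
    have hq : ∀ N, star (1 - P N) * (1 - P N) = 1 - P N := fun N => by
      rw [(hPp N).one_sub.isSelfAdjoint.star_eq, (hPp N).one_sub.isIdempotentElem.eq]
    have h1 : ∀ N, ‖π (P N) (κ (x, w)) - κ (x, w)‖ ^ 2 ≤
        nm τ (1 - P N) * (nm τ (x * star x) * ‖KL τ w w‖) := fun N => by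
      have e : π (P N) (κ (x, w)) - κ (x, w) = -κ ((1 - P N) * x, w) := by
        rw [← hπ (1 - P N), map_sub, map_one]; simp
      have e2 : star ((1 - P N) * x) * ((1 - P N) * x) = star x * ((1 - P N) * x) := by
        rw [star_mul, mul_assoc, ← mul_assoc (star (1 - P N)), hq]
      rw [e, norm_neg, ← inner_self_eq_norm_sq (𝕜 := ℂ), inner_self_re_eq_norm, hin, norm_mul, e2, hτ.comm, mul_assoc,
        ← mul_assoc (nm τ (1 - P N))]
      refine mul_le_mul_of_nonneg_right ?_ (norm_nonneg _)
      have := hτ.pos.cs (1 - P N) (x * star x)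
      rwa [(hPp N).one_sub.isSelfAdjoint.star_eq] at this
    have h2 : Tendsto (fun N => nm τ (1 - P N)) atTop (𝓝 0) := by
      simp only [nm, hq]
      have := (Real.continuous_sqrt.tendsto _).comp ((Complex.continuous_re.tendsto _).comp hlim)
      simpa only [Function.comp_def, Complex.zero_re, Real.sqrt_zero] using this
    have h3 : Tendsto (fun N => ‖π (P N) (κ (x, w)) - κ (x, w)‖ ^ 2) atTop (𝓝 0) :=
      squeeze_zero (fun _ => sq_nonneg _) h1 (by simpa using h2.mul_const _)
    have := (Real.continuous_sqrt.tendsto _).comp h3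
    simpa [Function.comp_def, Real.sqrt_sq (norm_nonneg _)] using this
  obtain ⟨V, hV⟩ := exists_strong_lim hκ W hWn fun p => by
    refine cauchySeq_of_le_tendsto_0' (fun m => ‖π (P m) (κ p) - κ p‖) (fun m N h => ?_)
      (tendsto_iff_norm_sub_tendsto_zero.1 (hPlim _))
    rw [dist_eq_norm, ← hWP m N h, mul_apply_eq_comp, ← map_sub]
    exact ((W N).le_opNorm _).trans (mul_le_of_le_one_left (norm_nonneg _) (hWn N))
  have hVV : ∀ x ξ η, Tendsto (fun N => ⟪ξ, (star (W N) * π x * W N) η⟫_ℂ) atTop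
      (𝓝 ⟪ξ, (star V * π x * V) η⟫_ℂ) := fun x ξ η => by
    simp only [mul_apply_eq_comp, ContinuousLinearMap.star_eq_adjoint,
      ContinuousLinearMap.adjoint_inner_right]
    exact (hV ξ).inner (((π x).continuous.tendsto _).comp (hV η))
  refine ⟨V, ?_, fun x hx => ?_, fun c c' h => ?_, fun w => ?_⟩
  · ext η
    refine ext_inner_left ℂ fun ξ => ?_
    have h1 := hVV 1 ξ η
    simp only [map_one, mul_one, hW1] at h1
    exact tendsto_nhds_unique h1 (tendsto_const_nhds.inner (hPlim η))
  · ext η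
    refine ext_inner_left ℂ fun ξ => ?_
    have h1 := hVV x ξ η
    have h2 : ∀ N, star (W N) * π x * W N = 0 := fun N => by
      rw [hWW]
      refine Finset.sum_eq_zero fun j _ => ?_
      have : τ (star (y j) * (x * y j)) = 0 := by
        simp only [hy, star_smul, smul_mul_assoc, mul_smul_comm, map_smul]
        rw [hτ.comm, mul_assoc, (hg' j).isSelfAdjoint.star_eq, (hg' j).isIdempotentElem.eq, hx]
        simp
      rw [this, zero_smul]
    simp only [h2] at h1
    exact tendsto_nhds_unique h1 tendsto_const_nhds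
  · have h2 : ∀ N, W N * π c = π c' * W N := fun N => by
      simp only [hW, Finset.sum_mul, Finset.mul_sum]
      refine Finset.sum_congr rfl fun j _ => ?_
      obtain ⟨l, h1, h2⟩ := h j
      rw [mul_assoc, ← map_mul, h1, ← mul_assoc, hπC, hy]
      simp only
      rw [mul_smul_comm, h2, smul_comm, hCs l, map_smul, mul_smul_comm, smul_mul_assoc]
    ext ξ
    have h3 := hV (π c ξ)
    simp only [← mul_apply_eq_comp, h2] at h3
    exact tendsto_nhds_unique h3 (((π c').continuous.tendsto _).comp (hV ξ))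
  · have key : ∀ (w : List M) (x : M) (η : H),
        (∀ a w', w = a :: w' → ∀ b, ⟪κ (b, w'), η⟫_ℂ = 0) → ⟪κ (x, w), V η⟫_ℂ = 0 := by
      intro w x η h
      have h1 : ∀ N, ⟪κ (x, w), W N η⟫_ℂ = 0 := fun N => by
        simp only [hW, sum_apply, inner_sum, mul_apply_eq_comp]
        refine Finset.sum_eq_zero fun j _ => ?_
        rw [← ContinuousLinearMap.adjoint_inner_left, ← ContinuousLinearMap.star_eq_adjoint]
        cases w with
        | nil =>
          have : star (C (y j)) (κ (x, [])) = 0 := eq_of_inner_total hκ fun p => by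
            obtain ⟨a, w'⟩ := p
            rw [ContinuousLinearMap.star_eq_adjoint, ContinuousLinearMap.adjoint_inner_right, hC,
              hin, KL]
            simp
          rw [this, inner_zero_left]
        | cons a w' =>
          rw [← hC, ← mul_apply_eq_comp, hCC, smul_apply, one_apply_eq_self, inner_smul_left,
            ← ContinuousLinearMap.adjoint_inner_left, ← ContinuousLinearMap.star_eq_adjoint,
            ← map_star, hπ, h a w' rfl, mul_zero]
      have h2 : Tendsto (fun N => ⟪κ (x, w), W N η⟫_ℂ) atTop (𝓝 ⟪κ (x, w), V η⟫_ℂ) :=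
        tendsto_const_nhds.inner (hV η)
      simp only [h1] at h2
      exact tendsto_nhds_unique h2 tendsto_const_nhds
    induction w with
    | nil =>
      intro x ξ
      simpa using key [] x ξ (fun a w' h => by simp at h)
    | cons a w ih =>
      intro x ξ
      rw [List.length_cons, pow_succ', mul_apply_eq_comp]
      refine key _ _ _ fun a' w' h b => ?_
      obtain ⟨-, rfl⟩ := List.cons.inj h
      exact ih b ξ

theorem exists_model {M : Type} [CStarAlgebra M] (τ : M →L[ℂ] ℂ) (hτ : IsTr τ) {J : Type} (g g' : J → M) (hg : ∀ j, IsStarProjection (g j)) (hg' : ∀ j, IsStarProjection (g' j)) (horth : ∀ j l, j ≠ l → g j * g l = 0) (htr : ∀ j, τ (g' j) = τ (g j)) (F : ℕ → Finset J) (hF : Monotone F) (hlim : Tendsto (fun N => τ (1 - ∑ j ∈ F N, g j)) atTop (𝓝 0)) :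
  ∃ (H : Type) (_ : NormedAddCommGroup H) (_ : InnerProductSpace ℂ H) (_ : CompleteSpace H) (π : M →⋆ₐ[ℂ] (H →L[ℂ] H)) (Ω : H) (s : H →L[ℂ] H),
   (∀ a, ⟪Ω, π a Ω⟫_ℂ = τ a) ∧ star s = s ∧ s * s = 1 ∧
   (∀ c c', IsSelfAdjoint c → IsSelfAdjoint c' → (∀ j, ∃ l : ℂ, g j * c = l • g j ∧ c' * g' j = l • g' j) → (∀ j, ∃ l : ℂ, g j * c' = l • g j ∧ c * g' j = l • g' j) → s * π c * s = π c') ∧
   (∀ a b w, Core (π '' {x | ∀ j, τ (x * g' j) = 0}) {s} w → ⟪Ω, (π a * w * π b) Ω⟫_ℂ = 0) := by
  obtain ⟨H, i1, i2, i3, κ, π, C, hκ, hin, hπ, hC, hCs, hπC, hCC⟩ := exists_fock hτ.pos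
  obtain ⟨V, hV, hcen, hint, hlev⟩ := exists_isometry τ hτ g g' hg hg' horth htr F hF hlim κ π C
    hκ hin hπ hC hCs hπC hCC
  have hpure : ∀ x w, (star V ^ (w.length + 1)) (κ (x, w)) = 0 := fun x w =>
    ext_inner_right ℂ fun ξ => by
      rw [← star_pow, ContinuousLinearMap.star_eq_adjoint, ContinuousLinearMap.adjoint_inner_left,
        hlev, inner_zero_left]
  obtain ⟨Q, hQs, hQQ, hQ, hQc⟩ := exists_parity hκ hV fun p => ⟨_, hpure p.1 p.2⟩
  have hQV : Q * V = V * (1 - Q) := by
    calc Q * V = V * (1 - Q) * star V * V := by rw [← hQ]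
      _ = _ := by rw [mul_assoc, hV, mul_one]
  have hVQ : star V * Q = (1 - Q) * star V := by
    have := congrArg star hQV
    rwa [star_mul, star_mul, star_sub, star_one, hQs] at this
  have hR : (1 - Q) * (1 - Q) = 1 - Q := by
    rw [sub_mul, one_mul, mul_sub, mul_one, hQQ]; simp
  have hRQ : (1 - Q) * Q = 0 := by rw [sub_mul, one_mul, hQQ, sub_self]
  have hQR : Q * (1 - Q) = 0 := by rw [mul_sub, mul_one, hQQ, sub_self]
  set s := V * (1 - Q) + (1 - Q) * star V with hs
  have hss : s * s = 1 := by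
    have e1 : V * (1 - Q) * (V * (1 - Q)) = 0 := by
      rw [← hQV, hQV, mul_assoc, ← hQV, ← mul_assoc (1 - Q), hRQ]; simp
    have e2 : (1 - Q) * star V * ((1 - Q) * star V) = 0 := by
      rw [← hVQ, mul_assoc, hVQ, ← mul_assoc Q, hQR]; simp
    have e3 : V * (1 - Q) * ((1 - Q) * star V) = Q := by
      rw [mul_assoc, ← mul_assoc (1 - Q), hR, ← mul_assoc, ← hQ]
    have e4 : (1 - Q) * star V * (V * (1 - Q)) = 1 - Q := by
      rw [mul_assoc, ← mul_assoc (star V), hV, one_mul, hR]
    rw [hs, add_mul, mul_add, mul_add, e1, e2, e3, e4]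
    simp
  have hsQ : Q * s * (1 - Q) = s * (1 - Q) := by
    have e1 : (1 - Q) * star V * (1 - Q) = 0 := by rw [← hVQ, mul_assoc, hQR, mul_zero]
    have e2 : s * (1 - Q) = Q * V := by
      rw [hs, add_mul, e1, add_zero, mul_assoc, hR, hQV]
    rw [mul_assoc, e2, ← mul_assoc, hQQ]
  refine ⟨H, i1, i2, i3, π, κ (1, []), s, fun a => ?_, ?_, hss, fun c c' hc hc' h1 h2 => ?_,
    fun a b w hw => ?_⟩
  · rw [hπ, hin]; simp [KL]
  · rw [hs, star_add, star_mul, star_mul, star_sub, star_one, hQs, star_star, add_comm]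
  · have e1 := hint c c' h1
    have e2 := hint c' c h2
    have hc1 : star (π c) = π c := by rw [← map_star, hc.star_eq]
    have hc2 : star (π c') = π c' := by rw [← map_star, hc'.star_eq]
    have e3 := hQc _ _ hc1 hc2 e1 e2
    have e4 := hQc _ _ hc2 hc1 e2 e1
    have e5 : star V * π c = π c' * star V := by
      have := congrArg star e2
      rw [star_mul, star_mul, hc1, hc2] at this
      exact this.symm
    have e6 : s * π c = π c' * s := by
      have f1 : (1 - Q) * π c = π c * (1 - Q) := by rw [sub_mul, mul_sub, e3]; simp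
      have f2 : (1 - Q) * π c' = π c' * (1 - Q) := by rw [sub_mul, mul_sub, e4]; simp
      rw [hs, add_mul, mul_add, mul_assoc, f1, ← mul_assoc, e1, mul_assoc (1 - Q), e5,
        ← mul_assoc (1 - Q), f2]
      simp only [mul_assoc]
    rw [e6, mul_assoc, hss, mul_one]
  · have hw' : Q * w * (1 - Q) = w * (1 - Q) := by
      induction hw with
      | single h => rw [Set.mem_singleton_iff.1 h]; exact hsQ
      | @cons y x c hy hx _ ih =>
        obtain ⟨x, hx, rfl⟩ := hx
        rw [Set.mem_singleton_iff.1 hy]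
        have f1 : Q * π x * Q = 0 := by
          calc Q * π x * Q = V * (1 - Q) * star V * π x * (V * (1 - Q) * star V) := by rw [← hQ]
            _ = V * (1 - Q) * (star V * π x * V) * (1 - Q) * star V := by simp only [mul_assoc]
            _ = 0 := by rw [hcen x hx]; simp
        have f2 : π x * Q = (1 - Q) * π x * Q := by rw [sub_mul, sub_mul, f1]; simp
        have f3 : s * π x * c * (1 - Q) = s * (1 - Q) * (π x * Q * c * (1 - Q)) := by
          calc s * π x * c * (1 - Q) = s * π x * (c * (1 - Q)) := by simp only [mul_assoc]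
            _ = s * π x * (Q * c * (1 - Q)) := by rw [ih]
            _ = s * (π x * Q) * c * (1 - Q) := by simp only [mul_assoc]
            _ = s * ((1 - Q) * π x * Q) * c * (1 - Q) := by rw [← f2]
            _ = _ := by simp only [mul_assoc]
        calc Q * (s * π x * c) * (1 - Q) = Q * (s * π x * c * (1 - Q)) := by simp only [mul_assoc]
          _ = Q * s * (1 - Q) * (π x * Q * c * (1 - Q)) := by rw [f3]; simp only [mul_assoc]
          _ = _ := by rw [hsQ, ← f3]
    have hΩ : ∀ x, Q (κ (x, [])) = 0 := fun x => by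
      have := hpure x []
      simp only [List.length_nil, zero_add, pow_one] at this
      rw [hQ, mul_apply_eq_comp, this, map_zero]
    have f1 : w (κ (b * 1, [])) = Q (w (κ (b * 1, []))) := by
      have := congrArg (fun T : H →L[ℂ] H => T (κ (b * 1, []))) hw'
      simp only [mul_apply_eq_comp, sub_apply, one_apply_eq_self, hΩ, sub_zero] at this
      exact this.symm
    rw [mul_apply_eq_comp, mul_apply_eq_comp, hπ, ← ContinuousLinearMap.adjoint_inner_left,
      ← ContinuousLinearMap.star_eq_adjoint, ← map_star, hπ, f1,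
      ← ContinuousLinearMap.adjoint_inner_left, ← ContinuousLinearMap.star_eq_adjoint, hQs, hΩ,
      inner_zero_left]

end Crest.Agent.R120
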