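import Crest.Agent.R120.Defs
import Crest.Agent.R120.Kolm

/-! Row 120: strong limits, the parity projection of a pure isometry, and the Fock space. -/

set_option autoImplicit false
open scoped ComplexOrder InnerProductSpace ComplexConjugate Topology
open Filter

namespace Crest.Agent.R120

section strong
variable {X H H' : Type*} [NormedAddCommGroup H] [InnerProductSpace ℂ H]
  [NormedAddCommGroup H'] [InnerProductSpace ℂ H']

lemma tendsto_of_total {κ : X → H} (hκ : DenseRange (Finsupp.linearCombination ℂ κ))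
    (T : ℕ → H →L[ℂ] H') (hT : ∀ n, ‖T n‖ ≤ 1) (S : H →L[ℂ] H')
    (h : ∀ x, Tendsto (fun n => T n (κ x)) atTop (𝓝 (S (κ x)))) (ξ : H) :
    Tendsto (fun n => T n ξ) atTop (𝓝 (S ξ)) := by
  let V : Submodule ℂ H :=
    { carrier := {ξ | Tendsto (fun n => T n ξ) atTop (𝓝 (S ξ))}
      add_mem' := fun {a b} ha hb => by
        simpa only [Set.mem_ofPred_eq, map_add] using Tendsto.add ha hb
      zero_mem' := by simp
      smul_mem' := fun c a ha => by
        simpa only [Set.mem_ofPred_eq, map_smul] using Tendsto.const_smul ha c }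
  have he : Equicontinuous (fun n => (T n : H → H')) :=
    (LipschitzWith.uniformEquicontinuous (fun n => (T n : H → H')) 1 fun n =>
      (T n).lipschitz.weaken (by exact_mod_cast hT n)).equicontinuous
  exact total_induction hκ V (he.isClosed_setOfPred_tendsto S.continuous) h ξ

lemma exists_strong_lim [CompleteSpace H'] {κ : X → H}
    (hκ : DenseRange (Finsupp.linearCombination ℂ κ))
    (T : ℕ → H →L[ℂ] H') (hT : ∀ n, ‖T n‖ ≤ 1)
    (h : ∀ x, CauchySeq (fun n => T n (κ x))) :
    ∃ S : H →L[ℂ] H', ∀ ξ, Tendsto (fun n => T n ξ) atTop (𝓝 (S ξ)) := by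
  choose L hL using fun x => cauchySeq_tendsto_of_complete (h x)
  obtain ⟨S, hS, -⟩ := exists_op hκ L 1 zero_le_one fun f => by
    have h1 : Tendsto (fun n => T n (Finsupp.linearCombination ℂ κ f)) atTop
        (𝓝 (Finsupp.linearCombination ℂ L f)) := by
      simp only [Finsupp.linearCombination_apply, Finsupp.sum, map_sum, map_smul]
      exact tendsto_finsetSum _ fun x _ => (hL x).const_smul _
    refine le_of_tendsto' h1.norm fun n => ?_
    exact ((T n).le_opNorm _).trans (mul_le_mul_of_nonneg_right (hT n) (norm_nonneg _))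
  exact ⟨S, tendsto_of_total hκ T hT S fun x => by rw [hS]; exact hL x⟩

lemma eq_zero_of_pure {κ : X → H} (hκ : DenseRange (Finsupp.linearCombination ℂ κ))
    {A B D : H →L[ℂ] H} (hB : ∀ x, ∃ n, (B ^ n) (κ x) = 0) (hD : D = A * D * B) : D = 0 := by
  have h : ∀ n, D = A ^ n * D * B ^ n := fun n => by
    induction n with
    | zero => simp
    | succ n ih =>
      calc D = A ^ n * D * B ^ n := ih
        _ = A ^ n * (A * D * B) * B ^ n := by rw [← hD]
        _ = _ := by rw [pow_succ, pow_succ' B]; simp only [mul_assoc]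
  refine op_ext hκ fun x => ?_
  obtain ⟨n, hn⟩ := hB x
  rw [h n]
  simp [hn]

variable [CompleteSpace H]

/-- the parity projection of a pure isometry -/
theorem exists_parity {κ : X → H} (hκ : DenseRange (Finsupp.linearCombination ℂ κ))
    {V : H →L[ℂ] H} (hV : star V * V = 1) (hp : ∀ x, ∃ n, (star V ^ n) (κ x) = 0) :
    ∃ Q : H →L[ℂ] H, star Q = Q ∧ Q * Q = Q ∧ Q = V * (1 - Q) * star V ∧
      ∀ c c' : H →L[ℂ] H, star c = c → star c' = c' → V * c = c' * V → V * c' = c * V →
        Q * c = c * Q := by
  obtain ⟨T, hT0, hTs⟩ : ∃ T : ℕ → H →L[ℂ] H, T 0 = 0 ∧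
      ∀ n, T (n + 1) = V * (1 - T n) * star V :=
    ⟨fun n => Nat.rec 0 (fun _ q => V * (1 - q) * star V) n, rfl, fun n => rfl⟩
  have hproj : ∀ n, IsStarProjection (T n) := fun n => by
    induction n with
    | zero => rw [hT0]; exact IsStarProjection.zero _
    | succ n ih =>
      have h1 := ih.one_sub
      rw [hTs, isStarProjection_iff']
      constructor
      · calc V * (1 - T n) * star V * (V * (1 - T n) * star V)
            = V * ((1 - T n) * (star V * V) * (1 - T n)) * star V := by simp only [mul_assoc]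
          _ = _ := by rw [hV, mul_one, h1.isIdempotentElem.eq]
      · rw [star_mul, star_mul, star_star, h1.isSelfAdjoint.star_eq, mul_assoc]
  have hdiff : ∀ n, T (n + 1) - T n = (-V) ^ n * (V * star V) * star V ^ n := fun n => by
    induction n with
    | zero => simp [hTs, hT0]
    | succ n ih =>
      have : T (n + 1 + 1) - T (n + 1) = (-V) * (T (n + 1) - T n) * star V := by
        rw [hTs (n + 1)]
        nth_rewrite 2 [hTs n]
        noncomm_ring
      rw [this, ih, pow_succ' (-V), pow_succ (star V)]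
      simp only [mul_assoc]
  obtain ⟨Q, hQ⟩ := exists_strong_lim hκ T (fun n => (hproj n).norm_le) fun x => by
    obtain ⟨m, hm⟩ := hp x
    have h1 : ∀ k, T (m + k) (κ x) = T m (κ x) := fun k => by
      induction k with
      | zero => rfl
      | succ k ih =>
        have h2 := congrArg (fun S : H →L[ℂ] H => S (κ x)) (hdiff (m + k))
        simp only [sub_apply, mul_apply_eq_comp] at h2
        have h3 : (star V ^ (m + k)) (κ x) = 0 := by
          rw [add_comm m k, pow_add, mul_apply_eq_comp, hm, map_zero]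
        rw [h3] at h2
        simp only [map_zero, sub_eq_zero] at h2
        rw [← ih, ← add_assoc, h2]
    refine (tendsto_atTop_of_eventually_const (i₀ := m) (x := T m (κ x)) fun n hn => ?_).cauchySeq
    obtain ⟨k, rfl⟩ := Nat.exists_eq_add_of_le hn
    exact h1 k
  have hfix : Q = V * (1 - Q) * star V := by
    ext ξ
    have h1 : Tendsto (fun n => T (n + 1) ξ) atTop (𝓝 (Q ξ)) :=
      (hQ ξ).comp (tendsto_add_atTop_nat 1)
    have h2 : Tendsto (fun n => T (n + 1) ξ) atTop (𝓝 ((V * (1 - Q) * star V) ξ)) := by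
      simp only [hTs, mul_apply_eq_comp, sub_apply,
        one_apply_eq_self]
      exact (V.continuous.tendsto _).comp (tendsto_const_nhds.sub (hQ _))
    exact tendsto_nhds_unique h1 h2
  have hp2 : ∀ x, ∃ n, ((star V * star V) ^ n) (κ x) = 0 := fun x => by
    obtain ⟨n, hn⟩ := hp x
    refine ⟨n, ?_⟩
    rw [← pow_two, ← pow_mul, two_mul, pow_add, mul_apply_eq_comp, hn, map_zero]
  refine ⟨Q, ?_, ?_, hfix, fun c c' hc hc' h1 h2 => ?_⟩
  · rw [← sub_eq_zero]
    refine eq_zero_of_pure hκ (A := -V) hp ?_
    have h1 : star Q = V * (1 - star Q) * star V := by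
      conv_lhs => rw [hfix]
      rw [star_mul, star_mul, star_star, star_sub, star_one, mul_assoc]
    calc star Q - Q = V * (1 - star Q) * star V - V * (1 - Q) * star V := by rw [← h1, ← hfix]
      _ = _ := by noncomm_ring
  · rw [← sub_eq_zero]
    refine eq_zero_of_pure hκ (A := V) hp ?_
    calc Q * Q - Q = V * (1 - Q) * star V * (V * (1 - Q) * star V) - V * (1 - Q) * star V := by
          rw [← hfix]
      _ = V * ((1 - Q) * (star V * V) * (1 - Q)) * star V - V * (1 - Q) * star V := by
          simp only [mul_assoc]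
      _ = _ := by rw [hV]; noncomm_ring
  · have h1' : c * star V = star V * c' := by
      have := congrArg star h1
      rwa [star_mul, star_mul, hc, hc'] at this
    have h2' : c' * star V = star V * c := by
      have := congrArg star h2
      rwa [star_mul, star_mul, hc, hc'] at this
    have key : ∀ a a' : H →L[ℂ] H, V * a' = a * V → a' * star V = star V * a →
        Q * a - a * Q = -V * (Q * a' - a' * Q) * star V := fun a a' e1 e2 => by
      calc Q * a - a * Q = V * (1 - Q) * star V * a - a * (V * (1 - Q) * star V) := by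
            rw [← hfix]
        _ = V * (1 - Q) * (star V * a) - (a * V) * (1 - Q) * star V := by simp only [mul_assoc]
        _ = _ := by rw [← e1, ← e2]; noncomm_ring
    rw [← sub_eq_zero]
    refine eq_zero_of_pure hκ (A := V * V) hp2 ?_
    calc Q * c - c * Q = -V * (Q * c' - c' * Q) * star V := key c c' h2 h2'
      _ = -V * (-V * (Q * c - c * Q) * star V) * star V := by rw [← key c' c h1 h1']
      _ = _ := by noncomm_ring

end strong

section fock
variable {M : Type} [CStarAlgebra M]

/-- the Fock kernel on words -/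
noncomputable def KL (τ : M →L[ℂ] ℂ) : List M → List M → ℂ
  | [], [] => 1
  | [], _ :: _ => 0
  | _ :: _, [] => 0
  | a :: w, b :: w' => τ (star a * b) * KL τ w w'

lemma posSemidef_state {τ : M →L[ℂ] ℂ} (hτ : IsPosF τ) :
    (Matrix.of fun a b : M => τ (star a * b)).PosSemidef := by
  refine ⟨?_, fun f => ?_⟩
  · ext a b
    simp only [Matrix.conjTranspose_apply, Matrix.of_apply]
    rw [← starRingEnd_apply, ← hτ.map_star, star_mul, star_star]
  · have h := hτ (f.sum fun a z => z • a)
    convert h using 1
    simp only [Finsupp.sum, star_sum, Finset.sum_mul, Finset.mul_sum, map_sum, Matrix.of_apply,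
      star_smul, smul_mul_assoc, mul_smul_comm, map_smul, smul_eq_mul]
    rw [Finset.sum_comm]
    refine Finset.sum_congr rfl fun a _ => Finset.sum_congr rfl fun b _ => ?_
    ring

/-- truncated kernel -/
noncomputable def KT (τ : M →L[ℂ] ℂ) : ℕ → Matrix (List M) (List M) ℂ
  | 0 => 0
  | n + 1 => (Matrix.diagonal (fun b : Bool => if b then (1 : ℂ) else 0)).submatrix
      List.isEmpty List.isEmpty +
      Matrix.hadamard ((Matrix.of fun a b : M => τ (star a * b)).submatrix
        (fun w => w.headD 0) (fun w => w.headD 0)) ((KT τ n).submatrix List.tail List.tail)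

lemma KT_psd {τ : M →L[ℂ] ℂ} (hτ : IsPosF τ) (n : ℕ) : (KT τ n).PosSemidef := by
  induction n with
  | zero => exact Matrix.PosSemidef.zero
  | succ n ih =>
    refine Matrix.PosSemidef.add (Matrix.PosSemidef.submatrix ?_ _)
      (((posSemidef_state hτ).submatrix _).hadamard (ih.submatrix _))
    refine Matrix.PosSemidef.diagonal fun b => ?_
    cases b <;> simp

lemma KT_eq (τ : M →L[ℂ] ℂ) (n : ℕ) (w w' : List M) (h : w.length < n) :
    KT τ n w w' = KL τ w w' := by
  induction n generalizing w w' with
  | zero => omega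
  | succ n ih =>
    cases w with
    | nil => cases w' <;> simp [KT, KL, Matrix.diagonal]
    | cons a w =>
      cases w' with
      | nil => simp [KT, KL, Matrix.diagonal]
      | cons b w' =>
        have := ih w w' (by simpa using h)
        simp [KT, KL, Matrix.diagonal, this]

lemma KL_psd {τ : M →L[ℂ] ℂ} (hτ : IsPosF τ) : (Matrix.of (KL τ)).PosSemidef := by
  classical
  refine ⟨?_, fun f => ?_⟩
  · ext w w'
    have h := (KT_psd hτ (w.length + w'.length + 1)).1.apply w w'
    rw [KT_eq τ _ w w' (by omega), KT_eq τ _ w' w (by omega)] at h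
    simpa using h
  · have h := (KT_psd hτ (f.support.sup List.length + 1)).2 f
    convert h using 1
    refine Finset.sum_congr rfl fun w hw => Finset.sum_congr rfl fun w' _ => ?_
    have : w.length ≤ f.support.sup List.length := Finset.le_sup hw
    simp only [Matrix.of_apply]
    rw [KT_eq τ _ w w' (by omega)]

theorem exists_fock {τ : M →L[ℂ] ℂ} (hτ : IsPosF τ) :
    ∃ (H : Type) (_ : NormedAddCommGroup H) (_ : InnerProductSpace ℂ H) (_ : CompleteSpace H)
      (κ : M × List M → H) (π : M →⋆ₐ[ℂ] (H →L[ℂ] H)) (C : M → (H →L[ℂ] H)),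
      DenseRange (Finsupp.linearCombination ℂ κ) ∧
      (∀ x y w w', ⟪κ (x, w), κ (y, w')⟫_ℂ = τ (star x * y) * KL τ w w') ∧
      (∀ a x w, π a (κ (x, w)) = κ (a * x, w)) ∧
      (∀ y x w, C y (κ (x, w)) = κ (y, x :: w)) ∧
      (∀ (l : ℂ) y, C (l • y) = l • C y) ∧ (∀ a y, π a * C y = C (a * y)) ∧
      (∀ y y', star (C y) * C y' = τ (star y * y') • 1) := by
  obtain ⟨H, i1, i2, i3, κ, hK, hκ⟩ := exists_kolmogorov _
    ((KL_psd hτ).submatrix (fun p : M × List M => p.1 :: p.2))
  have hin : ∀ x y w w', ⟪κ (x, w), κ (y, w')⟫_ℂ = τ (star x * y) * KL τ w w' :=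
    fun x y w w' => by rw [hK]; rfl
  have hadd : ∀ x y w, κ (x + y, w) = κ (x, w) + κ (y, w) := fun x y w =>
    eq_of_inner_total hκ fun p => by
      rw [inner_add_right, hin, hin, hin, mul_add, map_add, add_mul]
  have hsmul : ∀ (l : ℂ) x w, κ (l • x, w) = l • κ (x, w) := fun l x w =>
    eq_of_inner_total hκ fun p => by
      rw [inner_smul_right, hin, hin, mul_smul_comm, map_smul, smul_eq_mul, mul_assoc]
  have hπ : ∀ a : M, ∃ T : H →L[ℂ] H, ∀ p : M × List M, T (κ p) = κ (a * p.1, p.2) := fun a => by
    let _ := CStarAlgebra.spectralOrder M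
    have _ := CStarAlgebra.spectralOrderedRing M
    have h0 : 0 ≤ algebraMap ℝ M ‖star a * a‖ - star a * a :=
      sub_nonneg.2 (IsSelfAdjoint.le_algebraMap_norm_self (IsSelfAdjoint.star_mul_self a))
    obtain ⟨c, hc⟩ : ∃ c : M, star c * c = algebraMap ℝ M ‖star a * a‖ - star a * a :=
      ⟨CFC.sqrt _, by
        rw [(CFC.sqrt_nonneg _).isSelfAdjoint.star_eq, CFC.sqrt_mul_sqrt_self _ h0]⟩
    obtain ⟨T, hT, -⟩ := exists_op hκ (fun p : M × List M => κ (a * p.1, p.2)) ‖a‖
      (norm_nonneg _) fun f => by
        set u := Finsupp.linearCombination ℂ (fun p : M × List M => κ (a * p.1, p.2)) f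
        set v := Finsupp.linearCombination ℂ (fun p : M × List M => κ (c * p.1, p.2)) f
        set z := Finsupp.linearCombination ℂ κ f
        have h1 : ⟪u, u⟫_ℂ + ⟪v, v⟫_ℂ = ((‖a‖ ^ 2 : ℝ) : ℂ) * ⟪z, z⟫_ℂ := by
          simp only [u, v, z, inner_lc, Finsupp.mul_sum, ← Finsupp.sum_add]
          refine Finset.sum_congr rfl fun p _ => Finset.sum_congr rfl fun q _ => ?_
          have e : τ (star (a * p.1) * (a * q.1)) + τ (star (c * p.1) * (c * q.1)) =
              ((‖a‖ ^ 2 : ℝ) : ℂ) * τ (star p.1 * q.1) := by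
            rw [← map_add, ← smul_eq_mul ((‖a‖ ^ 2 : ℝ) : ℂ), ← map_smul]
            congr 1
            have : star (a * p.1) * (a * q.1) + star (c * p.1) * (c * q.1) =
                star p.1 * (star a * a + star c * c) * q.1 := by
              simp only [star_mul]; noncomm_ring
            rw [this, hc, add_sub_cancel, CStarRing.norm_star_mul_self,
              Algebra.algebraMap_eq_smul_one, Complex.coe_smul, pow_two]
            simp
          obtain ⟨x, w⟩ := p
          obtain ⟨y, w'⟩ := q
          simp only [hin] at e ⊢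
          linear_combination (conj (f (x, w)) * f (y, w') * KL τ w w') * e
        rw [inner_self_eq_norm_sq_to_K, inner_self_eq_norm_sq_to_K,
          inner_self_eq_norm_sq_to_K] at h1
        have h2 : ‖u‖ ^ 2 + ‖v‖ ^ 2 = (‖a‖ * ‖z‖) ^ 2 := by
          rw [mul_pow]
          apply Complex.ofReal_injective
          push_cast at h1 ⊢
          exact h1
        exact abs_le_of_sq_le_sq' (by nlinarith [sq_nonneg ‖v‖])
          (mul_nonneg (norm_nonneg _) (norm_nonneg _)) |>.2
    exact ⟨T, hT⟩
  choose P hP using hπ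
  have hC : ∀ y : M, ∃ T : H →L[ℂ] H, ∀ p : M × List M, T (κ p) = κ (y, p.1 :: p.2) := fun y => by
    obtain ⟨T, hT, -⟩ := exists_op_of_inner hκ (fun p : M × List M => κ (y, p.1 :: p.2))
      (nm τ y) (nm_nonneg _ _) fun p q => by
        obtain ⟨x, w⟩ := p
        obtain ⟨x', w'⟩ := q
        rw [hin, hin, hτ.nm_sq', KL]
    exact ⟨T, hT⟩
  choose C hC using hC
  have hadj : ∀ {S T : H →L[ℂ] H}, (∀ p q, ⟪κ p, S (κ q)⟫_ℂ = ⟪T (κ p), κ q⟫_ℂ) → S = star T :=
    fun {S T} h => op_ext hκ fun q => eq_of_inner_total hκ fun p => by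
      rw [h, ContinuousLinearMap.star_eq_adjoint, ContinuousLinearMap.adjoint_inner_right]
  let π : M →⋆ₐ[ℂ] (H →L[ℂ] H) :=
    { toFun := P
      map_one' := op_ext hκ fun p => by simp [hP]
      map_mul' := fun a b => op_ext hκ fun p => by simp [hP, mul_assoc]
      map_zero' := op_ext hκ fun p => by
        have := hsmul 0 0 p.2
        simpa [hP] using this
      map_add' := fun a b => op_ext hκ fun p => by simp [hP, add_mul, hadd]
      commutes' := fun l => op_ext hκ fun p => by
        simp [hP, Algebra.algebraMap_eq_smul_one, hsmul]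
      map_star' := fun a => hadj fun p q => by
        rw [hP, hP, hin, hin, star_mul, mul_assoc] }
  refine ⟨H, i1, i2, i3, κ, π, C, hκ, hin, fun a x w => hP a (x, w), fun y x w => hC y (x, w),
    fun l y => op_ext hκ fun p => by simp [hC, hsmul],
    fun a y => op_ext hκ fun p => ?_,
    fun y y' => op_ext hκ fun q => eq_of_inner_total hκ fun p => ?_⟩
  · change P a (C y (κ p)) = _
    rw [hC, hC, hP]
  · obtain ⟨x, w⟩ := p
    obtain ⟨x', w'⟩ := q
    rw [mul_apply_eq_comp, ContinuousLinearMap.star_eq_adjoint,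
      ContinuousLinearMap.adjoint_inner_right, hC, hC, hin, smul_apply,
      inner_smul_right, one_apply_eq_self, hin, KL]

end fock

end Crest.Agent.R120
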