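import Crest.Agent.R120.Defs

/-! Faithful traces, orthogonality and conditional expectations. -/

set_option autoImplicit false
open scoped ComplexOrder InnerProductSpace ComplexConjugate Topology
open Filter

namespace Crest.Agent.R120

variable {A : Type*} [CStarAlgebra A] {τ : A →L[ℂ] ℂ}

section mem
variable [PartialOrder A] [StarOrderedRing A] {D : StarSubalgebra ℂ A}

omit [PartialOrder A] [StarOrderedRing A] in
lemma posPart_mem (hD : IsClosed (D : Set A)) {a : A} (ha : a ∈ D) : a⁺ ∈ D := by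
  rw [CFC.posPart_def]; exact cfcₙ_mem (𝕜' := ℂ) _ ha

omit [PartialOrder A] [StarOrderedRing A] in
lemma negPart_mem (hD : IsClosed (D : Set A)) {a : A} (ha : a ∈ D) : a⁻ ∈ D := by
  rw [CFC.negPart_def]; exact cfcₙ_mem (𝕜' := ℂ) _ ha

lemma sqrt_mem (hD : IsClosed (D : Set A)) {a : A} (ha : a ∈ D) (h0 : 0 ≤ a) : CFC.sqrt a ∈ D := by
  rw [CFC.sqrt_eq_real_sqrt a h0]; exact cfcₙ_mem (𝕜' := ℂ) _ ha

omit [PartialOrder A] [StarOrderedRing A] in
lemma rsmul_mem {a : A} (r : ℝ) (ha : a ∈ D) : r • a ∈ D := by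
  rw [← Complex.coe_smul]; exact D.smul_mem ha _

end mem

lemma map_rsmul (ω : A →L[ℂ] ℂ) (r : ℝ) (a : A) : ω (r • a) = r * ω a := by
  rw [← Complex.coe_smul, map_smul, smul_eq_mul]

lemma re_map_rsmul (ω : A →L[ℂ] ℂ) (r : ℝ) (a : A) : (ω (r • a)).re = r * (ω a).re := by
  rw [map_rsmul, Complex.re_ofReal_mul]

lemma IsTr.nm_star (hτ : IsTr τ) (x : A) : nm τ (star x) = nm τ x := by
  simp only [nm, star_star]; rw [hτ.comm]

lemma IsTr.nm_mul_le' (hτ : IsTr τ) (x a : A) : nm τ (x * a) ≤ nm τ x * ‖a‖ := by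
  rw [← hτ.nm_star, star_mul, ← hτ.nm_star x, mul_comm, ← norm_star a]
  exact hτ.pos.nm_mul_le _ _

lemma IsTr.eq_zero_of_nm (hτ : IsTr τ) {x : A} (hx : nm τ x = 0) : x = 0 :=
  hτ.faithful x (hτ.pos.nm_eq_zero_iff.1 hx)

section ord
variable [PartialOrder A] [StarOrderedRing A]

lemma IsTr.eq_zero_of_nonneg (hτ : IsTr τ) {a : A} (ha : 0 ≤ a) (h : (τ a).re ≤ 0) : a = 0 := by
  have h1 : τ a = 0 := by
    rw [← hτ.pos.ofReal_re ha, le_antisymm h (hτ.pos.re_nonneg ha)]; simp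
  have h2 : CFC.sqrt a = 0 := hτ.faithful _ (by
    rwa [(CFC.sqrt_nonneg a).isSelfAdjoint.star_eq, CFC.sqrt_mul_sqrt_self a ha])
  rw [← CFC.sqrt_mul_sqrt_self a ha, h2, mul_zero]

lemma IsTr.re_pos (hτ : IsTr τ) {a : A} (ha : 0 ≤ a) (h : a ≠ 0) : 0 < (τ a).re :=
  lt_of_not_ge fun h' => h (hτ.eq_zero_of_nonneg ha h')

lemma IsTr.nonneg_of (hτ : IsTr τ) {D : StarSubalgebra ℂ A} (hD : IsClosed (D : Set A)) {h : A}
    (hh : h ∈ D) (hs : IsSelfAdjoint h) (H : ∀ v ∈ D, 0 ≤ (τ (star v * h * v)).re) : 0 ≤ h := by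
  have hv := H _ (negPart_mem hD hh)
  have h0 : 0 ≤ h⁻ := CFC.negPart_nonneg h
  have e : star h⁻ * h * h⁻ = - (star h⁻ * h⁻ * h⁻) := by
    rw [h0.isSelfAdjoint.star_eq]
    conv_lhs => arg 1; arg 2; rw [← CFC.posPart_sub_negPart h hs]
    rw [mul_sub, CFC.negPart_mul_posPart]; simp
  rw [e, map_neg, Complex.neg_re, neg_nonneg] at hv
  have h3 := hτ.eq_zero_of_nonneg (star_left_conjugate_nonneg h0 _) hv
  rw [h0.isSelfAdjoint.star_eq] at h3
  have h4 : h⁻ ^ (2 ^ 2) = 0 := by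
    have : h⁻ ^ (2 ^ 2) = h⁻ * h⁻ * h⁻ * h⁻ := by norm_num [pow_succ]
    rw [this, h3, zero_mul]
  have h5 := h0.isSelfAdjoint.norm_pow_two_pow 2
  rw [h4, norm_zero] at h5
  have h6 : h⁻ = 0 := norm_eq_zero.1 (pow_eq_zero_iff (by norm_num) |>.1 h5.symm)
  exact (CFC.negPart_eq_zero_iff h hs).1 h6

lemma IsTr.re_conj_le (hτ : IsTr τ) {a : A} (ha : 0 ≤ a) (x : A) :
    (τ (star x * a * x)).re ≤ ‖x‖ ^ 2 * (τ a).re := by
  have hs := (CFC.sqrt_nonneg a).isSelfAdjoint.star_eq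
  have h1 : star x * a * x = star (CFC.sqrt a * x) * (CFC.sqrt a * x) := by
    rw [star_mul, hs, mul_assoc (star x) (CFC.sqrt a), ← mul_assoc (CFC.sqrt a),
      CFC.sqrt_mul_sqrt_self a ha, mul_assoc]
  have h2 : (τ a).re = nm τ (CFC.sqrt a) ^ 2 := by
    rw [hτ.pos.nm_sq, hs, CFC.sqrt_mul_sqrt_self a ha]
  rw [h1, ← hτ.pos.nm_sq, h2, ← mul_pow, mul_comm]
  exact pow_le_pow_left₀ (nm_nonneg _ _) (hτ.nm_mul_le' _ _) 2

end ord

lemma IsTr.norm_le_of (hτ : IsTr τ) {D : StarSubalgebra ℂ A} (hD : IsClosed (D : Set A)) {x : A}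
    (hx : x ∈ D) {C : ℝ} (hC : 0 ≤ C) (H : ∀ v ∈ D, nm τ (x * v) ≤ C * nm τ v) : ‖x‖ ≤ C := by
  let _ := CStarAlgebra.spectralOrder A
  have _ := CStarAlgebra.spectralOrderedRing A
  have h1 : 0 ≤ algebraMap ℝ A (C ^ 2) - star x * x := by
    refine hτ.nonneg_of hD (sub_mem ?_ (mul_mem (star_mem hx) hx)) ?_ fun v hv => ?_
    · rw [Algebra.algebraMap_eq_smul_one]; exact rsmul_mem _ D.one_mem
    · exact (IsSelfAdjoint.algebraMap A (IsSelfAdjoint.all _)).sub (IsSelfAdjoint.star_mul_self x)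
    · have e : star v * (algebraMap ℝ A (C ^ 2) - star x * x) * v =
          (C ^ 2) • (star v * v) - star (x * v) * (x * v) := by
        rw [Algebra.algebraMap_eq_smul_one]
        simp [mul_sub, sub_mul, mul_assoc]
      rw [e, map_sub, Complex.sub_re, re_map_rsmul, ← hτ.pos.nm_sq, ← hτ.pos.nm_sq, ← mul_pow,
        sub_nonneg]
      exact pow_le_pow_left₀ (nm_nonneg _ _) (H v hv) 2
  have h2 := (CStarAlgebra.norm_le_iff_le_algebraMap (star x * x) (sq_nonneg C)).2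
    (sub_nonneg.1 h1)
  rw [CStarRing.norm_star_mul_self, ← sq] at h2
  exact (pow_le_pow_iff_left₀ (norm_nonneg _) hC two_ne_zero).1 h2

/-- norming states -/
lemma IsTr.exists_state [PartialOrder A] [StarOrderedRing A] (hτ : IsTr τ) {b : A} (hb : 0 ≤ b)
    {δ : ℝ} (hδ : δ < ‖b‖) (hδ0 : 0 ≤ δ) : ∃ σ : A →L[ℂ] ℂ, IsState σ ∧ δ < (σ b).re := by
  by_contra H
  push Not at H
  have h1 : 0 ≤ algebraMap ℝ A δ - b := by
    refine hτ.nonneg_of (D := ⊤) (by simp) trivial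
      ((IsSelfAdjoint.algebraMap A (IsSelfAdjoint.all _)).sub hb.isSelfAdjoint) fun v _ => ?_
    have e : star v * (algebraMap ℝ A δ - b) * v = δ • (star v * v) - star v * b * v := by
      rw [Algebra.algebraMap_eq_smul_one]
      simp [mul_sub, sub_mul]
    rw [e, map_sub, Complex.sub_re, re_map_rsmul, ← hτ.pos.nm_sq, sub_nonneg]
    rcases (nm_nonneg τ v).eq_or_lt with h0 | h0
    · rw [hτ.eq_zero_of_nm h0.symm]; simp
    · set c := nm τ v
      have hs : IsState (vec τ ((c⁻¹ : ℝ) • v)) := by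
        refine hτ.pos.vec_state ?_
        rw [← hτ.pos.nm_sq', ← Complex.coe_smul, hτ.pos.nm_smul]
        simp [abs_of_pos h0, c, h0.ne']
      have := H _ hs
      simp only [vec_apply, star_smul, star_trivial, smul_mul_assoc, mul_smul_comm,
        re_map_rsmul] at this
      have h3 : (τ (star v * b * v)).re = c ^ 2 * (c⁻¹ * (c⁻¹ * (τ (star v * b * v)).re)) := by
        field_simp
      rw [h3, mul_comm δ]
      exact mul_le_mul_of_nonneg_left this (sq_nonneg c)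
  exact absurd ((CStarAlgebra.norm_le_iff_le_algebraMap b hδ0).2 (sub_nonneg.1 h1)) (not_le.2 hδ)

section perp
variable {D D' B : StarSubalgebra ℂ A} {x y : A}

/-- the orthogonal complement as a submodule -/
def perpSub (τ : A →L[ℂ] ℂ) (D : StarSubalgebra ℂ A) : Submodule ℂ A where
  carrier := {x | Perp τ D x}
  add_mem' {x y} hx hy d hd := by rw [add_mul, map_add, hx d hd, hy d hd, add_zero]
  zero_mem' d _ := by simp
  smul_mem' c x hx d hd := by rw [smul_mul_assoc, map_smul, hx d hd, smul_zero]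

@[simp] lemma mem_perpSub : x ∈ perpSub τ D ↔ Perp τ D x := Iff.rfl

lemma isClosed_perp : IsClosed {x | Perp τ D x} := by
  simp only [Perp, Set.ofPred_forall]
  exact isClosed_iInter fun d => isClosed_iInter fun _ => isClosed_eq (by fun_prop) (by fun_prop)

lemma Perp.zero : Perp τ D 0 := (perpSub τ D).zero_mem
lemma Perp.add (hx : Perp τ D x) (hy : Perp τ D y) : Perp τ D (x + y) :=
  (perpSub τ D).add_mem hx hy
lemma Perp.sub (hx : Perp τ D x) (hy : Perp τ D y) : Perp τ D (x - y) :=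
  (perpSub τ D).sub_mem hx hy
lemma Perp.smul (hx : Perp τ D x) (c : ℂ) : Perp τ D (c • x) := (perpSub τ D).smul_mem c hx
lemma Perp.mono (hx : Perp τ D' x) (h : D ≤ D') : Perp τ D x := fun d hd => hx d (h hd)
lemma Perp.trace (hx : Perp τ D x) : τ x = 0 := by simpa using hx 1 D.one_mem
lemma Perp.mul_right (hx : Perp τ D x) {d : A} (hd : d ∈ D) : Perp τ D (x * d) :=
  fun d' hd' => by rw [mul_assoc]; exact hx _ (D.mul_mem hd hd')
lemma Perp.left (hτ : IsTr τ) (hx : Perp τ D x) {d : A} (hd : d ∈ D) : τ (d * x) = 0 := by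
  rw [hτ.comm]; exact hx d hd
lemma Perp.mul_left (hτ : IsTr τ) (hx : Perp τ D x) {d : A} (hd : d ∈ D) : Perp τ D (d * x) :=
  fun d' hd' => by rw [mul_assoc, hτ.comm, mul_assoc]; exact hx _ (D.mul_mem hd' hd)
lemma Perp.star (hτ : IsTr τ) (hx : Perp τ D x) : Perp τ D (star x) := fun d hd => by
  have := hτ.pos.map_star (Star.star d * x)
  rw [star_mul, star_star, hx.left hτ (star_mem hd)] at this
  simpa using this
lemma Perp.eq_zero (hτ : IsTr τ) (hx : Perp τ D x) (hxD : x ∈ D) : x = 0 :=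
  hτ.faithful _ (hx.left hτ (star_mem hxD))
lemma Perp.conj (hτ : IsTr τ) (hx : Perp τ D x) {d d' : A} (hd : d ∈ D) (hd' : d' ∈ D) :
    τ (d * x * d') = 0 := (hx.mul_left hτ hd) d' hd'

lemma dec_unique (hτ : IsTr τ) {d d' : A} (hd : d ∈ D) (hd' : d' ∈ D) (h : Perp τ D (x - d))
    (h' : Perp τ D (x - d')) : d = d' := by
  have := (h'.sub h).eq_zero hτ (by simpa using D.sub_mem hd hd')
  simpa [sub_eq_zero] using this

lemma dec_norm_le (hτ : IsTr τ) (hD : IsClosed (D : Set A)) {d : A} (hd : d ∈ D)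
    (h : Perp τ D (x - d)) : ‖d‖ ≤ ‖x‖ := by
  refine hτ.norm_le_of hD hd (norm_nonneg _) fun v hv => ?_
  have h1 : τ (star (d * v) * (d * v)) = τ (star (d * v) * (x * v)) := by
    have := h.conj hτ (star_mem (D.mul_mem hd hv)) hv
    rw [mul_sub, sub_mul, map_sub, sub_eq_zero, mul_assoc, mul_assoc] at this
    exact this.symm
  have h2 : nm τ (d * v) ^ 2 ≤ nm τ (d * v) * (‖x‖ * nm τ v) := by
    rw [hτ.pos.nm_sq, h1]
    exact (Complex.re_le_norm _).trans ((hτ.pos.cs _ _).trans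
      (mul_le_mul_of_nonneg_left (hτ.pos.nm_mul_le _ _) (nm_nonneg _ _)))
  rcases (nm_nonneg τ (d * v)).eq_or_lt with h0 | h0
  · rw [← h0]; exact mul_nonneg (norm_nonneg _) (nm_nonneg _ _)
  · rw [sq] at h2; exact le_of_mul_le_mul_left h2 h0

lemma dec_nonneg [PartialOrder A] [StarOrderedRing A] (hτ : IsTr τ) (hD : IsClosed (D : Set A))
    {d : A} (hd : d ∈ D) (h : Perp τ D (x - d)) (hx : 0 ≤ x) : 0 ≤ d := by
  have hs : IsSelfAdjoint d := by
    have := h.star hτ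
    rw [star_sub, hx.isSelfAdjoint.star_eq] at this
    exact dec_unique hτ (star_mem hd) hd this h
  refine hτ.nonneg_of hD hd hs fun v hv => ?_
  have := h.conj hτ (star_mem hv) hv
  rw [mul_sub, sub_mul, map_sub, sub_eq_zero] at this
  rw [← this]
  exact hτ.pos.re_nonneg (star_left_conjugate_nonneg hx v)

/-- closure lemma -/
lemma exists_dec_closure (hτ : IsTr τ) (hD : IsClosed (D : Set A)) (V : Submodule ℂ A)
    (hV : ∀ v ∈ V, Perp τ D v) (hx : x ∈ closure {z | ∃ d ∈ D, z - d ∈ V}) :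
    ∃ d ∈ D, x - d ∈ closure (V : Set A) := by
  obtain ⟨u, hu, hlim⟩ := mem_closure_iff_seq_limit.1 hx
  choose d hd hdV using hu
  have hc : CauchySeq d := by
    have hu := hlim.cauchySeq
    rw [Metric.cauchySeq_iff] at hu ⊢
    intro ε hε
    obtain ⟨N, hN⟩ := hu ε hε
    refine ⟨N, fun m hm n hn => lt_of_le_of_lt ?_ (hN m hm n hn)⟩
    rw [dist_eq_norm, dist_eq_norm]
    refine dec_norm_le hτ hD (D.sub_mem (hd m) (hd n)) ?_
    have := hV _ (V.sub_mem (hdV m) (hdV n))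
    convert this using 1
    abel
  obtain ⟨d₀, hd₀⟩ := cauchySeq_tendsto_of_complete hc
  exact ⟨d₀, hD.mem_of_tendsto hd₀ (Eventually.of_forall hd),
    mem_closure_of_tendsto (hlim.sub hd₀) (Eventually.of_forall hdV)⟩

lemma isClosed_dec (hτ : IsTr τ) (hD : IsClosed (D : Set A)) (h : D ≤ D') :
    IsClosed {x | ∃ d ∈ D, Perp τ D' (x - d)} := by
  refine isClosed_of_closure_subset fun x hx => ?_
  obtain ⟨d, hd, h'⟩ := exists_dec_closure hτ hD (perpSub τ D') (fun v hv => Perp.mono hv h) hx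
  exact ⟨d, hd, isClosed_perp.closure_subset h'⟩

/-- centred elements of a closure are limits of centred elements -/
lemma perp_mem_closure (hτ : IsTr τ) (hD : IsClosed (D : Set A)) {W : Set A} {W' : Set A}
    (hW : ∀ w ∈ W, ∃ d ∈ D, Perp τ D (w - d) ∧ w - d ∈ W') (hx : x ∈ closure W)
    (hp : Perp τ D x) : x ∈ closure W' := by
  rw [Metric.mem_closure_iff] at hx ⊢
  intro ε hε
  obtain ⟨w, hw, hd⟩ := hx (ε / 2) (half_pos hε)
  obtain ⟨d, hdD, h1, h2⟩ := hW w hw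
  refine ⟨_, h2, ?_⟩
  have h3 : ‖d‖ ≤ ‖w - x‖ := dec_norm_le hτ hD hdD (by
    convert h1.sub hp using 1
    abel)
  rw [dist_eq_norm] at hd ⊢
  rw [norm_sub_rev] at h3
  calc ‖x - (w - d)‖ = ‖(x - w) + d‖ := by congr 1; abel
    _ ≤ ‖x - w‖ + ‖d‖ := norm_add_le _ _
    _ < ε := by linarith

/-- the expectation of `b` has norm at most `ε` -/
def ELe (τ : A →L[ℂ] ℂ) (D : StarSubalgebra ℂ A) (b : A) (ε : ℝ) : Prop :=
  ∃ d ∈ D, Perp τ D (b - d) ∧ ‖d‖ ≤ ε

lemma ELe.mono [PartialOrder A] [StarOrderedRing A] (hτ : IsTr τ) (hD : IsClosed (D : Set A))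
    (hB : Dec τ B D) {b b' : A} {ε : ℝ} (h : ELe τ D b ε) (hb' : b' ∈ B) (h0 : 0 ≤ b')
    (hle : b' ≤ b) : ELe τ D b' ε := by
  obtain ⟨d, hd, hp, hε⟩ := h
  obtain ⟨d', hd', hp'⟩ := hB b' hb'
  refine ⟨d', hd', hp', le_trans ?_ hε⟩
  refine CStarAlgebra.norm_le_norm_of_nonneg_of_le (dec_nonneg hτ hD hd' hp' h0) ?_
  refine sub_nonneg.1 (dec_nonneg hτ hD (D.sub_mem hd hd') (x := b - b') ?_ (sub_nonneg.2 hle))
  convert hp.sub hp' using 1
  abel

lemma ELe.weaken {b : A} {ε ε' : ℝ} (h : ELe τ D b ε) (hε : ε ≤ ε') : ELe τ D b ε' :=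
  let ⟨d, hd, hp, h⟩ := h; ⟨d, hd, hp, h.trans hε⟩

lemma ELe.of_near (hτ : IsTr τ) (hD : IsClosed (D : Set A)) (hB : Dec τ B D)
    {b b' : A} {ε : ℝ} (h : ELe τ D b ε) (hb' : b' ∈ B) : ELe τ D b' (ε + ‖b' - b‖) := by
  obtain ⟨d, hd, hp, hε⟩ := h
  obtain ⟨d', hd', hp'⟩ := hB b' hb'
  refine ⟨d', hd', hp', ?_⟩
  have : ‖d' - d‖ ≤ ‖b' - b‖ := dec_norm_le hτ hD (D.sub_mem hd' hd) (by
    convert hp'.sub hp using 1
    abel)
  calc ‖d'‖ = ‖d + (d' - d)‖ := by congr 1; abel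
    _ ≤ ‖d‖ + ‖d' - d‖ := norm_add_le _ _
    _ ≤ _ := add_le_add hε this

lemma Dec.of_le (h : Dec τ B D) {B' : StarSubalgebra ℂ A} (hB : B' ≤ B) : Dec τ B' D :=
  fun x hx => h x (hB hx)

end perp

end Crest.Agent.R120
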